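import Vale.Agent.P032.Words5.Cert2

/-!
# Pentagon words with ties and free slots: certificates

As in `Words5/Cert2.lean`, but a change at a slot whose two neighbours carry the same diagonal before
and after is free (`flg`); `RelB` uses a set of marks contained in `S`.
-/

namespace Vale.Agent.P032.H306.Y

open Vale.Agent.P032.Words Vale.Agent.P032.W5

open Set Filter Topology

/-- two equal diagonals -/
def pq (p q : ℕ) : Bool := p == q && !(p == 5)

/-- a slot between two equal diagonals, before and after -/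
def flg (p q p' q' : ℕ) : Bool := pq p q && p' == p && q' == p

/-- the letter `b` is possible at a slot `a` between `p`, `q` -/
def vB (m : ℕ) (fr : ℕ → ℕ → Bool) (mk : ℕ → ℕ → ℕ → Bool) (p q a b : ℕ) : Bool :=
  valN m fr mk a b || pq p q

/-- a counted change of type `t` -/
def ocB (fr : ℕ → ℕ → Bool) (mk : ℕ → ℕ → ℕ → Bool) (t p q p' q' a b : ℕ) : Bool :=
  !flg p q p' q' && occN fr mk t a b

/-- the number of counted changes of type `t` -/
def cntB (fr : ℕ → ℕ → Bool) (mk : ℕ → ℕ → ℕ → Bool)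
    (a0 a1 a2 a3 a4 a5 b0 b1 b2 b3 b4 b5 t : ℕ) : ℕ :=
  (ocB fr mk t a5 a1 b5 b1 a0 b0).toNat + (ocB fr mk t a0 a2 b0 b2 a1 b1).toNat +
    (ocB fr mk t a1 a3 b1 b3 a2 b2).toNat + (ocB fr mk t a2 a4 b2 b4 a3 b3).toNat +
    (ocB fr mk t a3 a5 b3 b5 a4 b4).toNat + (ocB fr mk t a4 a0 b4 b0 a5 b5).toNat

/-- the slot is equal or free or typed or between two equal diagonals -/
def okB (m : ℕ) (fr : ℕ → ℕ → Bool) (mk : ℕ → ℕ → ℕ → Bool) (p q p' q' a b : ℕ) : Bool :=
  valN m fr mk a b || flg p q p' q'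

/-- the last test -/
def finB (N m T R : ℕ) (fr : ℕ → ℕ → Bool) (mk : ℕ → ℕ → ℕ → Bool)
    (a0 a1 a2 a3 a4 a5 b0 b1 b2 b3 b4 b5 : ℕ) : Bool :=
  !okB m fr mk a5 a1 b5 b1 a0 b0 || !okB m fr mk a0 a2 b0 b2 a1 b1 ||
  !okB m fr mk a1 a3 b1 b3 a2 b2 || !okB m fr mk a2 a4 b2 b4 a3 b3 ||
  !okB m fr mk a3 a5 b3 b5 a4 b4 || !okB m fr mk a4 a0 b4 b0 a5 b5 ||
  leafN N m R (maskN (cntB fr mk a0 a1 a2 a3 a4 a5 b0 b1 b2 b3 b4 b5) m) (cD T a0 a1 a2 a3 a4 a5)
    (cD T b0 b1 b2 b3 b4 b5) ||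
  ((List.range m).any fun t => Nat.ble 2 (cntB fr mk a0 a1 a2 a3 a4 a5 b0 b1 b2 b3 b4 b5 t)) ||
  frzN a0 a1 a2 a3 a4 a5 b0 b1 b2 b3 b4 b5

/-- all forward frozen pairs -/
def chkP (N m T R : ℕ) (fr : ℕ → ℕ → Bool) (mk : ℕ → ℕ → ℕ → Bool) : Bool :=
  hexAll fun a0 a1 a2 a3 a4 a5 => Nat.blt (cD T a0 a1 a2 a3 a4 a5) N &&
    L6.all fun b0 => !vB m fr mk a5 a1 a0 b0 || fwdN a5 b0 a1 a3 a0 ||
    L6.all fun b1 => !vB m fr mk a0 a2 a1 b1 || fwdN a0 b1 a2 a4 a1 || !adjN b0 b1 || !sw1 a0 b0 a1 b1 ||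
    L6.all fun b2 => !vB m fr mk a1 a3 a2 b2 || fwdN a1 b2 a3 a5 a2 || !adjN b1 b2 || !sw1 a1 b1 a2 b2 ||
    L6.all fun b3 => !vB m fr mk a2 a4 a3 b3 || fwdN a2 b3 a4 a0 a3 || !adjN b2 b3 ||
      !sw1 a2 b2 a3 b3 || !antN b0 b3 ||
    L6.all fun b4 => !vB m fr mk a3 a5 a4 b4 || fwdN a3 b4 a5 a1 a4 || !adjN b3 b4 ||
      !sw1 a3 b3 a4 b4 || !antN b1 b4 ||
    L6.all fun b5 => !vB m fr mk a4 a0 a5 b5 || fwdN a4 b5 a0 a2 a5 || !adjN b4 b5 ||
      !sw1 a4 b4 a5 b5 || !antN b2 b5 || !adjN b5 b0 || !sw1 a5 b5 a0 b0 ||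
      finB N m T R fr mk a0 a1 a2 a3 a4 a5 b0 b1 b2 b3 b4 b5

/-- the mask of one change between `p` and `q` -/
def onB (m : ℕ) (fr : ℕ → ℕ → Bool) (mk : ℕ → ℕ → ℕ → Bool) (p q a b : ℕ) : ℕ :=
  bif pq p q then 0 else onN m fr mk a b

/-- all single changes -/
def chkS (N m T R : ℕ) (fr : ℕ → ℕ → Bool) (mk : ℕ → ℕ → ℕ → Bool) : Bool :=
  hexAll fun a0 a1 a2 a3 a4 a5 =>
    (L6.all fun b => !fwdN a5 b a1 a3 a0 || !vB m fr mk a5 a1 a0 b ||
      leafN N m R (onB m fr mk a5 a1 a0 b) (cD T a0 a1 a2 a3 a4 a5) (cD T b a1 a2 a3 a4 a5)) &&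
    (L6.all fun b => !fwdN a0 b a2 a4 a1 || !vB m fr mk a0 a2 a1 b ||
      leafN N m R (onB m fr mk a0 a2 a1 b) (cD T a0 a1 a2 a3 a4 a5) (cD T a0 b a2 a3 a4 a5)) &&
    (L6.all fun b => !fwdN a1 b a3 a5 a2 || !vB m fr mk a1 a3 a2 b ||
      leafN N m R (onB m fr mk a1 a3 a2 b) (cD T a0 a1 a2 a3 a4 a5) (cD T a0 a1 b a3 a4 a5)) &&
    (L6.all fun b => !fwdN a2 b a4 a0 a3 || !vB m fr mk a2 a4 a3 b ||
      leafN N m R (onB m fr mk a2 a4 a3 b) (cD T a0 a1 a2 a3 a4 a5) (cD T a0 a1 a2 b a4 a5)) &&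
    (L6.all fun b => !fwdN a3 b a5 a1 a4 || !vB m fr mk a3 a5 a4 b ||
      leafN N m R (onB m fr mk a3 a5 a4 b) (cD T a0 a1 a2 a3 a4 a5) (cD T a0 a1 a2 a3 b a5)) &&
    (L6.all fun b => !fwdN a4 b a0 a2 a5 || !vB m fr mk a4 a0 a5 b ||
      leafN N m R (onB m fr mk a4 a0 a5 b) (cD T a0 a1 a2 a3 a4 a5) (cD T a0 a1 a2 a3 a4 b))

section
variable {N m T R : ℕ} {fr : ℕ → ℕ → Bool} {mk : ℕ → ℕ → ℕ → Bool}

/-- a forward frozen pair -/
theorem chkP_spec (hc : chkP N m T R fr mk = true) {h h' : Hx5} (h1 : Leg5 h) (h2 : Leg5 h')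
    (hv : ∀ k : Fin 6, okB m fr mk (h (k + 5)).val (h (k + 1)).val (h' (k + 5)).val
      (h' (k + 1)).val (h k).val (h' k).val = true)
    (hf : ∀ k : Fin 6, fwdN (h (k + 5)).val (h' k).val (h (k + 1)).val (h (k + 3)).val (h k).val = false)
    (hs1 : ∀ k, sw1 (h k).val (h' k).val (h (k + 1)).val (h' (k + 1)).val = true) :
    (leafN N m R (maskN (cntB fr mk (h 0).val (h 1).val (h 2).val (h 3).val (h 4).val (h 5).val
      (h' 0).val (h' 1).val (h' 2).val (h' 3).val (h' 4).val (h' 5).val) m) (cmp5 T h) (cmp5 T h') ||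
    ((List.range m).any fun t => Nat.ble 2 (cntB fr mk (h 0).val (h 1).val (h 2).val (h 3).val
      (h 4).val (h 5).val (h' 0).val (h' 1).val (h' 2).val (h' 3).val (h' 4).val (h' 5).val t)) ||
    frzN (h 0).val (h 1).val (h 2).val (h 3).val (h 4).val (h 5).val
      (h' 0).val (h' 1).val (h' 2).val (h' 3).val (h' 4).val (h' 5).val) = true := by
  have e0 : adjN (h' 0).val (h' 1).val = true := h2.1 0
  have e1 : adjN (h' 1).val (h' 2).val = true := h2.1 1
  have e2 : adjN (h' 2).val (h' 3).val = true := h2.1 2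
  have e3 : adjN (h' 3).val (h' 4).val = true := h2.1 3
  have e4 : adjN (h' 4).val (h' 5).val = true := h2.1 4
  have e5 : adjN (h' 5).val (h' 0).val = true := h2.1 5
  have o0 : antN (h' 0).val (h' 3).val = true := h2.2 0
  have o1 : antN (h' 1).val (h' 4).val = true := h2.2 1
  have o2 : antN (h' 2).val (h' 5).val = true := h2.2 2
  have s0 : sw1 (h 0).val (h' 0).val (h 1).val (h' 1).val = true := hs1 0
  have s1 : sw1 (h 1).val (h' 1).val (h 2).val (h' 2).val = true := hs1 1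
  have s2 : sw1 (h 2).val (h' 2).val (h 3).val (h' 3).val = true := hs1 2
  have s3 : sw1 (h 3).val (h' 3).val (h 4).val (h' 4).val = true := hs1 3
  have s4 : sw1 (h 4).val (h' 4).val (h 5).val (h' 5).val = true := hs1 4
  have s5 : sw1 (h 5).val (h' 5).val (h 0).val (h' 0).val = true := hs1 5
  have f0 : fwdN (h 5).val (h' 0).val (h 1).val (h 3).val (h 0).val = false := hf 0
  have f1 : fwdN (h 0).val (h' 1).val (h 2).val (h 4).val (h 1).val = false := hf 1
  have f2 : fwdN (h 1).val (h' 2).val (h 3).val (h 5).val (h 2).val = false := hf 2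
  have f3 : fwdN (h 2).val (h' 3).val (h 4).val (h 0).val (h 3).val = false := hf 3
  have f4 : fwdN (h 3).val (h' 4).val (h 5).val (h 1).val (h 4).val = false := hf 4
  have f5 : fwdN (h 4).val (h' 5).val (h 0).val (h 2).val (h 5).val = false := hf 5
  have g0 : okB m fr mk (h 5).val (h 1).val (h' 5).val (h' 1).val (h 0).val (h' 0).val = true := hv 0
  have g1 : okB m fr mk (h 0).val (h 2).val (h' 0).val (h' 2).val (h 1).val (h' 1).val = true := hv 1
  have g2 : okB m fr mk (h 1).val (h 3).val (h' 1).val (h' 3).val (h 2).val (h' 2).val = true := hv 2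
  have g3 : okB m fr mk (h 2).val (h 4).val (h' 2).val (h' 4).val (h 3).val (h' 3).val = true := hv 3
  have g4 : okB m fr mk (h 3).val (h 5).val (h' 3).val (h' 5).val (h 4).val (h' 4).val = true := hv 4
  have g5 : okB m fr mk (h 4).val (h 0).val (h' 4).val (h' 0).val (h 5).val (h' 5).val = true := hv 5
  have hvB : ∀ p q p' q' a b : ℕ, okB m fr mk p q p' q' a b = true → vB m fr mk p q a b = true := by
    intro p q p' q' a b hh
    unfold okB flg at hh
    unfold vB
    rw [Bool.or_eq_true] at hh ⊢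
    rcases hh with hh | hh
    · exact Or.inl hh
    · rw [Bool.and_eq_true, Bool.and_eq_true] at hh
      exact Or.inr hh.1.1
  have v0 := hvB _ _ _ _ _ _ g0
  have v1 := hvB _ _ _ _ _ _ g1
  have v2 := hvB _ _ _ _ _ _ g2
  have v3 := hvB _ _ _ _ _ _ g3
  have v4 := hvB _ _ _ _ _ _ g4
  have v5 := hvB _ _ _ _ _ _ g5
  have key := hexAll_spec hc h1
  rw [Bool.and_eq_true] at key
  have k0 := List.all_eq_true.mp key.2 _ (mem_L6 (h' 0))
  simp only [v0, f0, Bool.not_true, Bool.false_or] at k0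
  have k1 := List.all_eq_true.mp k0 _ (mem_L6 (h' 1))
  simp only [v1, f1, e0, s0, Bool.not_true, Bool.false_or] at k1
  have k2 := List.all_eq_true.mp k1 _ (mem_L6 (h' 2))
  simp only [v2, f2, e1, s1, Bool.not_true, Bool.false_or] at k2
  have k3 := List.all_eq_true.mp k2 _ (mem_L6 (h' 3))
  simp only [v3, f3, e2, s2, o0, Bool.not_true, Bool.false_or] at k3
  have k4 := List.all_eq_true.mp k3 _ (mem_L6 (h' 4))
  simp only [v4, f4, e3, s3, o1, Bool.not_true, Bool.false_or] at k4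
  have k5 := List.all_eq_true.mp k4 _ (mem_L6 (h' 5))
  simp only [v5, f5, e4, s4, e5, s5, o2, Bool.not_true, Bool.false_or] at k5
  unfold finB at k5
  simp only [g0, g1, g2, g3, g4, g5, Bool.not_true, Bool.false_or] at k5
  exact k5

theorem lt_of_chkP (hc : chkP N m T R fr mk = true) {h : Hx5} (h1 : Leg5 h) : cmp5 T h < N := by
  have key := hexAll_spec hc h1
  rw [Bool.and_eq_true] at key
  exact Nat.blt_eq.mp key.1

/-- a single change -/
theorem chkS_spec (hc : chkS N m T R fr mk = true) {h : Hx5} (h1 : Leg5 h) (k b : Fin 6)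
    (hf : fwdN (h (k + 5)).val b.val (h (k + 1)).val (h (k + 3)).val (h k).val = true)
    (hv : vB m fr mk (h (k + 5)).val (h (k + 1)).val (h k).val b.val = true) :
    leafN N m R (onB m fr mk (h (k + 5)).val (h (k + 1)).val (h k).val b.val) (cmp5 T h)
      (cmp5 T (Function.update h k b)) = true := by
  have key := hexAll_spec hc h1
  simp only [Bool.and_eq_true] at key
  obtain ⟨⟨⟨⟨⟨k0, k1⟩, k2⟩, k3⟩, k4⟩, k5⟩ := key
  fin_cases k
  · have := List.all_eq_true.mp k0 _ (mem_L6 b)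
    change fwdN (h 5).val b.val (h 1).val (h 3).val (h 0).val = true at hf
    change vB m fr mk (h 5).val (h 1).val (h 0).val b.val = true at hv
    simp only [hf, hv, Bool.not_true, Bool.false_or] at this
    exact this
  · have := List.all_eq_true.mp k1 _ (mem_L6 b)
    change fwdN (h 0).val b.val (h 2).val (h 4).val (h 1).val = true at hf
    change vB m fr mk (h 0).val (h 2).val (h 1).val b.val = true at hv
    simp only [hf, hv, Bool.not_true, Bool.false_or] at this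
    exact this
  · have := List.all_eq_true.mp k2 _ (mem_L6 b)
    change fwdN (h 1).val b.val (h 3).val (h 5).val (h 2).val = true at hf
    change vB m fr mk (h 1).val (h 3).val (h 2).val b.val = true at hv
    simp only [hf, hv, Bool.not_true, Bool.false_or] at this
    exact this
  · have := List.all_eq_true.mp k3 _ (mem_L6 b)
    change fwdN (h 2).val b.val (h 4).val (h 0).val (h 3).val = true at hf
    change vB m fr mk (h 2).val (h 4).val (h 3).val b.val = true at hv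
    simp only [hf, hv, Bool.not_true, Bool.false_or] at this
    exact this
  · have := List.all_eq_true.mp k4 _ (mem_L6 b)
    change fwdN (h 3).val b.val (h 5).val (h 1).val (h 4).val = true at hf
    change vB m fr mk (h 3).val (h 5).val (h 4).val b.val = true at hv
    simp only [hf, hv, Bool.not_true, Bool.false_or] at this
    exact this
  · have := List.all_eq_true.mp k5 _ (mem_L6 b)
    change fwdN (h 4).val b.val (h 0).val (h 2).val (h 5).val = true at hf
    change vB m fr mk (h 4).val (h 0).val (h 5).val b.val = true at hv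
    simp only [hf, hv, Bool.not_true, Bool.false_or] at this
    exact this

/-- the relation of a table: some of the marks of `S` -/
def RelB (N m R : ℕ) (S : Finset (Fin m)) (c c' : ℕ) : Prop :=
  ∃ n, n < 2 ^ m ∧ (∀ t : Fin m, n.testBit t.val = true → t ∈ S) ∧ c < N ∧ c' < N ∧
    ∀ n0 < 2 ^ m, n0 &&& n = 0 →
      rowN N R (N * n0 + c) &&& rowN N R (N * (n0 ||| n) + c') = rowN N R (N * n0 + c)

theorem RelB.zero (hR : chkD N R = true) {c c' : ℕ} (h : RelB N m R ∅ c c') : c = c' := by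
  obtain ⟨n, hn, hS, hc, hc', hb⟩ := h
  refine RelN.zero (m := m) hR ⟨n, hn, fun t => ⟨hS t, fun ht => absurd ht (Finset.notMem_empty _)⟩,
    hc, hc', hb⟩

theorem RelB.comp {S S' : Finset (Fin m)} {a b c : ℕ}
    (h : RelB N m R S a b) (h' : RelB N m R S' b c) (hd : Disjoint S S') :
    RelB N m R (S ∪ S') a c := by
  obtain ⟨n, hn, hS, ha, hb, hr⟩ := h
  obtain ⟨n', hn', hS', hb', hc, hr'⟩ := h'
  have h3 : n &&& n' = 0 := by
    refine Nat.eq_of_testBit_eq fun i => ?_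
    rw [Nat.zero_testBit, Nat.testBit_and]
    by_cases hi : i < m
    · rw [Bool.and_eq_false_iff]
      by_contra hcon
      push Not at hcon
      have a1 := hS ⟨i, hi⟩ (by simpa using hcon.1)
      have a2 := hS' ⟨i, hi⟩ (by simpa using hcon.2)
      exact Finset.disjoint_left.1 hd a1 a2
    · have : n.testBit i = false :=
        Nat.testBit_lt_two_pow (hn.trans_le (Nat.pow_le_pow_right (by norm_num) (not_lt.mp hi)))
      rw [this, Bool.false_and]
  refine ⟨n ||| n', Nat.or_lt_two_pow hn hn', ?_, ha, hc, ?_⟩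
  · intro t ht
    rw [Nat.testBit_or, Bool.or_eq_true] at ht
    rw [Finset.mem_union]
    exact ht.imp (hS t) (hS' t)
  · intro n0 hn0 hz
    rw [Nat.and_or_distrib_left] at hz
    have z1 : n0 &&& n = 0 := (Nat.or_eq_zero_iff.mp hz).1
    have z2 : n0 &&& n' = 0 := (Nat.or_eq_zero_iff.mp hz).2
    have h5 := hr n0 hn0 z1
    have h6 := hr' (n0 ||| n) (Nat.or_lt_two_pow hn0 hn) (by
      rw [Nat.and_or_distrib_right, z2, h3, Nat.or_zero])
    rw [← Nat.or_assoc]
    rw [← h5]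
    rw [Nat.and_assoc]
    congr 1

theorem noRelB (hP : chkP N m T R fr mk = true) (hD : chkD N R = true) (hE : chkF N m T R = true)
    {h : Hx5} (h1 : Leg5 h) (S : Finset (Fin m)) : ¬ RelB N m R S (cmp5 T h) (cmp5 T (rot h)) := by
  rintro ⟨n, hn, -, -, -, h2⟩
  have h3 := range_all (hexAll_spec hE h1) hn
  have h4 : cmp5 T (rot h) = cD T (h 1).val (h 2).val (h 3).val (h 4).val (h 5).val (h 0).val := rfl
  have h5 := h2 0 (Nat.two_pow_pos m) (Nat.zero_and n)
  have h6 := range_all hD (lt_of_chkP hP h1)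
  rw [beq_iff_eq] at h6
  rw [Nat.mul_zero, Nat.zero_add, Nat.zero_or, h6] at h5
  have h7 : (2 ^ cmp5 T h &&& rowN N R (N * n + cmp5 T (rot h))).testBit (cmp5 T h) = true := by
    rw [h5, Nat.testBit_two_pow, decide_eq_true_eq]
  rw [Nat.testBit_and, Bool.and_eq_true] at h7
  rw [h4] at h7
  rw [Bool.not_eq_true'] at h3
  have h8 := h7.2
  unfold cmp5 at h8
  rw [h3] at h8
  exact Bool.noConfusion h8

end

end Vale.Agent.P032.H306.Y
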