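import Vale.Agent.P032.H306.Y.SymB
import Vale.Agent.P032.H306.Y.Q0
import Vale.Agent.P032.H306.Y.Q1
import Vale.Agent.P032.H306.Y.Q2
import Vale.Agent.P032.H306.Y.Q3
import Vale.Agent.P032.H306.Y.Q4
import Vale.Agent.P032.H306.Y.Q5
import Vale.Agent.P032.H306.Y.Q6
import Vale.Agent.P032.H306.Y.Q7
import Vale.Agent.P032.H306.Y.Q8
import Vale.Agent.P032.H306.Y.Q9

/-!
# No five coloured centre with exceptional times: the word part

`PentB.elim`: a pentagram word with exceptional times `B` in which for every `j` there is no point of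
type `t_j` off `B`, or no point of type `c_j` off `B`, or at most one point of each of these two types
off `B`, does not exist.
-/

namespace Vale.Agent.P032.H306.Y

open Vale.Agent.P032.Words Vale.Agent.P032.W5

open Set Filter Topology

/-- types of the marks of the pattern `CFQTT` -/
def on0 (t : Fin 1) : ℕ := [2].getD t.val 0

theorem pat0 : Pat 1 Q0.fr Q0.mk [0, 8, 9] on0 where
  frefl := by decide +kernel
  fsymm := by decide +kernel
  msymm := by decide +kernel
  all := by decide +kernel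
  mkty := by decide +kernel

theorem dead0 {s : Fin 5 → Fin 3} (hs : ∀ j, leQ (s j) (![0, 4, 5, 1, 1] j) = true) : DeadB s :=
  DeadB.of Q0.hP Q0.hS Q0.hD Q0.hF pat0 ![0, 4, 5, 1, 1] (by decide) (by decide) hs

/-- types of the marks of the pattern `FPTFT` -/
def on1 (t : Fin 1) : ℕ := [6].getD t.val 0

theorem pat1 : Pat 1 Q1.fr Q1.mk [7, 9] on1 where
  frefl := by decide +kernel
  fsymm := by decide +kernel
  msymm := by decide +kernel
  all := by decide +kernel
  mkty := by decide +kernel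

theorem dead1 {s : Fin 5 → Fin 3} (hs : ∀ j, leQ (s j) (![4, 2, 1, 4, 1] j) = true) : DeadB s :=
  DeadB.of Q1.hP Q1.hS Q1.hD Q1.hF pat1 ![4, 2, 1, 4, 1] (by decide) (by decide) hs

/-- types of the marks of the pattern `CFCPT` -/
def on2 (t : Fin 1) : ℕ := [8].getD t.val 0

theorem pat2 : Pat 1 Q2.fr Q2.mk [0, 2, 9] on2 where
  frefl := by decide +kernel
  fsymm := by decide +kernel
  msymm := by decide +kernel
  all := by decide +kernel
  mkty := by decide +kernel

theorem dead2 {s : Fin 5 → Fin 3} (hs : ∀ j, leQ (s j) (![0, 4, 0, 2, 1] j) = true) : DeadB s :=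
  DeadB.of Q2.hP Q2.hS Q2.hD Q2.hF pat2 ![0, 4, 0, 2, 1] (by decide) (by decide) hs

/-- types of the marks of the pattern `CCPFT` -/
def on3 (t : Fin 1) : ℕ := [7].getD t.val 0

theorem pat3 : Pat 1 Q3.fr Q3.mk [0, 1, 9] on3 where
  frefl := by decide +kernel
  fsymm := by decide +kernel
  msymm := by decide +kernel
  all := by decide +kernel
  mkty := by decide +kernel

theorem dead3 {s : Fin 5 → Fin 3} (hs : ∀ j, leQ (s j) (![0, 0, 2, 4, 1] j) = true) : DeadB s :=
  DeadB.of Q3.hP Q3.hS Q3.hD Q3.hF pat3 ![0, 0, 2, 4, 1] (by decide) (by decide) hs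

/-- types of the marks of the pattern `CCQQQ` -/
def on4 (t : Fin 3) : ℕ := [2, 3, 4].getD t.val 0

theorem pat4 : Pat 3 Q4.fr Q4.mk [0, 1] on4 where
  frefl := by decide +kernel
  fsymm := by decide +kernel
  msymm := by decide +kernel
  all := by decide +kernel
  mkty := by decide +kernel

theorem dead4 {s : Fin 5 → Fin 3} (hs : ∀ j, leQ (s j) (![0, 0, 5, 5, 5] j) = true) : DeadB s :=
  DeadB.of Q4.hP Q4.hS Q4.hD Q4.hF pat4 ![0, 0, 5, 5, 5] (by decide) (by decide) hs

/-- types of the marks of the pattern `BCFFT` -/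
def on5 (t : Fin 2) : ℕ := [0, 5].getD t.val 0

theorem pat5 : Pat 2 Q5.fr Q5.mk [1, 9] on5 where
  frefl := by decide +kernel
  fsymm := by decide +kernel
  msymm := by decide +kernel
  all := by decide +kernel
  mkty := by decide +kernel

theorem dead5 {s : Fin 5 → Fin 3} (hs : ∀ j, leQ (s j) (![3, 0, 4, 4, 1] j) = true) : DeadB s :=
  DeadB.of Q5.hP Q5.hS Q5.hD Q5.hF pat5 ![3, 0, 4, 4, 1] (by decide) (by decide) hs

/-- types of the marks of the pattern `FPPQT` -/
def on6 (t : Fin 3) : ℕ := [3, 6, 7].getD t.val 0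

theorem pat6 : Pat 3 Q6.fr Q6.mk [9] on6 where
  frefl := by decide +kernel
  fsymm := by decide +kernel
  msymm := by decide +kernel
  all := by decide +kernel
  mkty := by decide +kernel

theorem dead6 {s : Fin 5 → Fin 3} (hs : ∀ j, leQ (s j) (![4, 2, 2, 5, 1] j) = true) : DeadB s :=
  DeadB.of Q6.hP Q6.hS Q6.hD Q6.hF pat6 ![4, 2, 2, 5, 1] (by decide) (by decide) hs

/-- types of the marks of the pattern `CCCFT` -/
def on7 (t : Fin 0) : ℕ := 0

theorem pat7 : Pat 0 Q7.fr Q7.mk [0, 1, 2, 9] on7 where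
  frefl := by decide +kernel
  fsymm := by decide +kernel
  msymm := by decide +kernel
  all := by decide +kernel
  mkty := by decide +kernel

theorem dead7 {s : Fin 5 → Fin 3} (hs : ∀ j, leQ (s j) (![0, 0, 0, 4, 1] j) = true) : DeadB s :=
  DeadB.of Q7.hP Q7.hS Q7.hD Q7.hF pat7 ![0, 0, 0, 4, 1] (by decide) (by decide) hs

/-- types of the marks of the pattern `CQCQQ` -/
def on8 (t : Fin 3) : ℕ := [1, 3, 4].getD t.val 0

theorem pat8 : Pat 3 Q8.fr Q8.mk [0, 2] on8 where
  frefl := by decide +kernel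
  fsymm := by decide +kernel
  msymm := by decide +kernel
  all := by decide +kernel
  mkty := by decide +kernel

theorem dead8 {s : Fin 5 → Fin 3} (hs : ∀ j, leQ (s j) (![0, 5, 0, 5, 5] j) = true) : DeadB s :=
  DeadB.of Q8.hP Q8.hS Q8.hD Q8.hF pat8 ![0, 5, 0, 5, 5] (by decide) (by decide) hs

/-- types of the marks of the pattern `BFBFP` -/
def on9 (t : Fin 5) : ℕ := [0, 2, 5, 7, 9].getD t.val 0

theorem pat9 : Pat 5 Q9.fr Q9.mk [] on9 where
  frefl := by decide +kernel
  fsymm := by decide +kernel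
  msymm := by decide +kernel
  all := by decide +kernel
  mkty := by decide +kernel

theorem dead9 {s : Fin 5 → Fin 3} (hs : ∀ j, leQ (s j) (![3, 4, 3, 4, 2] j) = true) : DeadB s :=
  DeadB.of Q9.hP Q9.hS Q9.hD Q9.hF pat9 ![3, 4, 3, 4, 2] (by decide) (by decide) hs

/-- one of the ten patterns -/
def covP (s : Fin 5 → Fin 3) : Bool :=
  (List.finRange 5).all (fun j => leQ (s j) (![0, 4, 5, 1, 1] j)) ||
  (List.finRange 5).all (fun j => leQ (s j) (![4, 2, 1, 4, 1] j)) ||
  (List.finRange 5).all (fun j => leQ (s j) (![0, 4, 0, 2, 1] j)) ||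
  (List.finRange 5).all (fun j => leQ (s j) (![0, 0, 2, 4, 1] j)) ||
  (List.finRange 5).all (fun j => leQ (s j) (![0, 0, 5, 5, 5] j)) ||
  (List.finRange 5).all (fun j => leQ (s j) (![3, 0, 4, 4, 1] j)) ||
  (List.finRange 5).all (fun j => leQ (s j) (![4, 2, 2, 5, 1] j)) ||
  (List.finRange 5).all (fun j => leQ (s j) (![0, 0, 0, 4, 1] j)) ||
  (List.finRange 5).all (fun j => leQ (s j) (![0, 5, 0, 5, 5] j)) ||
  (List.finRange 5).all (fun j => leQ (s j) (![3, 4, 3, 4, 2] j))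

theorem dead_of_cov {s : Fin 5 → Fin 3} (h : covP s = true) : DeadB s := by
  unfold covP at h
  simp only [Bool.or_eq_true, List.all_eq_true, List.mem_finRange, forall_true_left] at h
  rcases h with ((((((((h | h) | h) | h) | h) | h) | h) | h) | h) | h
  · exact dead0 h
  · exact dead1 h
  · exact dead2 h
  · exact dead3 h
  · exact dead4 h
  · exact dead5 h
  · exact dead6 h
  · exact dead7 h
  · exact dead8 h
  · exact dead9 h

/-- a rotation of the status is covered -/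
def covR (s : Fin 5 → Fin 3) : Bool :=
  covP s || covP (fun j => s (j + 1)) || covP (fun j => s (j + 1 + 1)) ||
    covP (fun j => s (j + 1 + 1 + 1)) || covP (fun j => s (j + 1 + 1 + 1 + 1))

theorem dead_of_covR {s : Fin 5 → Fin 3} (h : covR s = true) : DeadB s := by
  unfold covR at h
  simp only [Bool.or_eq_true] at h
  rcases h with (((h | h) | h) | h) | h
  · exact dead_of_cov h
  · exact DeadB.ro (dead_of_cov h)
  · exact DeadB.ro (DeadB.ro (dead_of_cov h))
  · exact DeadB.ro (DeadB.ro (DeadB.ro (dead_of_cov h)))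
  · exact DeadB.ro (DeadB.ro (DeadB.ro (DeadB.ro (dead_of_cov h))))

theorem cov_all : ∀ a b c d e : Fin 3,
    (covR ![a, b, c, d, e] || covR fun j => ![a, b, c, d, e] (-j)) = true := by
  decide +kernel

theorem dead_all (s : Fin 5 → Fin 3) : DeadB s := by
  have e : s = ![s 0, s 1, s 2, s 3, s 4] := by
    funext j
    fin_cases j <;> rfl
  have h := cov_all (s 0) (s 1) (s 2) (s 3) (s 4)
  rw [← e, Bool.or_eq_true] at h
  rcases h with h | h
  · exact dead_of_covR h
  · exact DeadB.re (dead_of_covR h)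

/-- **No pentagram word with exceptional times.** -/
theorem PentB.elim {X : Fin 6 → Set ℝ} {B : Set ℝ} (P : PentB X B)
    (H : ∀ j : Fin 5, (∀ u ∉ B, ¬ (u ∈ X j.castSucc ∧ u ∈ X 5)) ∨
      (∀ u ∉ B, ¬ (u ∈ X (j + 2).castSucc ∧ u ∈ X (j + 3).castSucc)) ∨
      ((∀ u ∉ B, ∀ v ∉ B, (u ∈ X j.castSucc ∧ u ∈ X 5) → (v ∈ X j.castSucc ∧ v ∈ X 5) →
        ∃ n : ℤ, v = u + 6 * n) ∧
       ∀ u ∉ B, ∀ v ∉ B, (u ∈ X (j + 2).castSucc ∧ u ∈ X (j + 3).castSucc) →
        (v ∈ X (j + 2).castSucc ∧ v ∈ X (j + 3).castSucc) → ∃ n : ℤ, v = u + 6 * n)) : False := by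
  have ht : ∀ (j : Fin 5) (a b : Fin 6), typN j.val a.val b.val = true →
      (a = j.castSucc ∧ b = 5) ∨ (a = 5 ∧ b = j.castSucc) := by decide
  have hc : ∀ (j : Fin 5) (a b : Fin 6), typN (5 + j.val) a.val b.val = true →
      (a = (j + 2).castSucc ∧ b = (j + 3).castSucc) ∨
        (a = (j + 3).castSucc ∧ b = (j + 2).castSucc) := by decide
  have hT : ∀ (j : Fin 5) u, u ∈ PtsB X B j.val → u ∉ B ∧ (u ∈ X j.castSucc ∧ u ∈ X 5) := by
    rintro j u ⟨h0, a, b, h1, h2, h3⟩
    refine ⟨h0, ?_⟩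
    rcases ht j a b h1 with ⟨rfl, rfl⟩ | ⟨rfl, rfl⟩
    · exact ⟨h2, h3⟩
    · exact ⟨h3, h2⟩
  have hC : ∀ (j : Fin 5) u, u ∈ PtsB X B (5 + j.val) →
      u ∉ B ∧ (u ∈ X (j + 2).castSucc ∧ u ∈ X (j + 3).castSucc) := by
    rintro j u ⟨h0, a, b, h1, h2, h3⟩
    refine ⟨h0, ?_⟩
    rcases hc j a b h1 with ⟨rfl, rfl⟩ | ⟨rfl, rfl⟩
    · exact ⟨h2, h3⟩
    · exact ⟨h3, h2⟩
  have key : ∀ j : Fin 5, ∃ s : Fin 3, OkB X B j s := by
    intro j
    rcases H j with h | h | ⟨h, h'⟩
    · refine ⟨0, Or.inl ⟨rfl, ?_⟩⟩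
      rw [eq_empty_iff_forall_notMem]
      exact fun u hu => h u (hT j u hu).1 (hT j u hu).2
    · refine ⟨1, Or.inr (Or.inl ⟨rfl, ?_⟩)⟩
      rw [eq_empty_iff_forall_notMem]
      exact fun u hu => h u (hC j u hu).1 (hC j u hu).2
    · exact ⟨2, Or.inr (Or.inr ⟨rfl,
        fun u v hu hv => h u (hT j u hu).1 v (hT j v hv).1 (hT j u hu).2 (hT j v hv).2,
        fun u v hu hv => h' u (hC j u hu).1 v (hC j v hv).1 (hC j u hu).2 (hC j v hv).2⟩)⟩
  choose s hs using key
  exact dead_all s X B P hs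

end Vale.Agent.P032.H306.Y
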