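import Vale.Agent.P032.S5.H220.NoFrozen
import Vale.Agent.P032.H306.Y.FinB

/-!
# P032: the word of a five coloured centre with exceptional neighbours: letters

`CnB U T z e` is the structure `Cn` of `S5/H122/Raw5.lean` without the condition on the circle: the points
of `S(z)` may have any number of colours.  The letters are the `X5 T z e` of `Raw5`.  All rules of the
words at the angles whose points have at most three colours.
-/

open Set Filter Topology Metric

noncomputable section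

namespace Vale.Agent.P032.H306.Y

open Vale.Agent.P032.Six Vale.Agent.P032.Words Vale.Agent.P032.S5.H122 Vale.Agent.P032.S5.H220

open Vale.Agent.P032.S5.H767 hiding col

variable {U : Fin 6 → Set ℂ} {T : ℂ → Set (Fin 6)} {z : ℂ} {e : Fin 6 → Fin 6}

/-- a five coloured centre -/
structure CnB (U : Fin 6 → Set ℂ) (T : ℂ → Set (Fin 6)) (z : ℂ) (e : Fin 6 → Fin 6) : Prop where
  irr : Irr U T
  inj : Function.Injective e
  pal : ∀ l, e l ∈ T z ↔ l ≠ 5
  pairs : ∀ q, dist q z = 1 → (T q).ncard = 2 → T q ⊆ T z → ∃ l, T q = col e l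

namespace CnB

theorem bij (C : CnB U T z e) : Function.Bijective e := Finite.injective_iff_bijective.1 C.inj

theorem image_Sx (C : CnB U T z e) (P : Set (Fin 6)) : e '' (Sx e P : Set (Fin 6)) = P := by
  ext i
  constructor
  · rintro ⟨l, hl, rfl⟩; exact mem_Sx.1 hl
  · intro hi
    obtain ⟨l, rfl⟩ := C.bij.2 i
    exact ⟨l, mem_Sx.2 hi, rfl⟩

theorem card (C : CnB U T z e) (P : Set (Fin 6)) : (Sx e P).card = P.ncard := by
  conv_rhs => rw [← C.image_Sx P]
  rw [Set.ncard_image_of_injective _ C.inj, Set.ncard_coe_finset]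

theorem Sx_col (C : CnB U T z e) (l : Fin 6) : Sx e (col e l) = ixs l := by
  ext m
  rw [mem_Sx]
  unfold col
  constructor
  · rintro ⟨n, hn, h⟩
    exact C.inj h ▸ hn
  · intro h; exact ⟨m, h, rfl⟩

theorem disj_iff (C : CnB U T z e) (a b : Fin 6) :
    Disjoint (col e a) (col e b) ↔ Disjoint (ixs a) (ixs b) := by
  unfold col
  rw [Set.disjoint_image_iff C.inj, Finset.disjoint_coe]

theorem five (C : CnB U T z e) : 5 ≤ (T z).ncard := by
  rw [← C.card]
  have h1 : ({0, 1, 2, 3, 4} : Finset (Fin 6)) ⊆ Sx e (T z) := by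
    intro l hl
    refine mem_Sx.2 ((C.pal l).2 ?_)
    rintro rfl
    revert hl; decide
  exact (by decide : 5 ≤ ({0, 1, 2, 3, 4} : Finset (Fin 6)).card).trans (Finset.card_le_card h1)

theorem miss (C : CnB U T z e) {i : Fin 6} (hi : i ∉ T z) : i = e 5 := by
  obtain ⟨l, rfl⟩ := C.bij.2 i
  by_contra hne
  exact hi ((C.pal l).2 fun h => hne (by rw [h]))

theorem mem_XX (C : CnB U T z e) : z ∈ XX U := by
  by_contra hz
  have key : ∀ y, dist y z = 1 → T y ⊆ {e 5} := by
    intro y hy m hm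
    refine C.miss fun hmz => ?_
    exact C.irr.mx.notMem' (C.irr.off z hz m hmz) (by rw [dist_comm]; exact hy) (C.irr.sub y hm)
  have h0 := C.irr.mem_of_single (key _ (dist_pt z 0))
  obtain ⟨j, hj⟩ := C.irr.ne (pt z (0 + 1))
  have h1 : j = e 5 := key _ (dist_pt z (0 + 1)) hj
  exact C.irr.mx.notMem' h0 (dist_pt_one z 0) (C.irr.sub _ (h1 ▸ hj))

/-- a point of `S(z)` has at least two colours -/
theorem two_le (C : CnB U T z e) {y : ℂ} (hy : dist y z = 1) : 2 ≤ (T y).ncard ∨ T y = {e 5} := by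
  by_cases h2 : 2 ≤ (T y).ncard
  · exact Or.inl h2
  · right
    obtain ⟨i, hi⟩ := C.irr.ne y
    have h1 : T y ⊆ {i} := fun m hm => (Set.ncard_le_one (Set.toFinite _)).1 (by omega) m hm i hi
    have h3 : T y = {i} := Subset.antisymm h1 (by rintro m rfl; exact hi)
    rw [h3]
    congr 1
    refine C.miss fun hiz => ?_
    exact C.irr.mx.notMem' (C.irr.mem_of_single h1) hy (C.irr.sub z hiz)

/-- **Cover.** every point of `S(z)` carries a letter -/
theorem letter (C : CnB U T z e) {y : ℂ} (hy : dist y z = 1) : ∃ l, col e l ⊆ T y := by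
  rcases C.two_le hy with h2 | h2
  · by_cases h5 : e 5 ∈ T y
    · exact ⟨5, by rintro _ ⟨l, hl, rfl⟩; simp [ixs] at hl; rw [hl]; exact h5⟩
    · by_cases hc : (T y).ncard = 2
      · obtain ⟨l, hl⟩ := C.pairs y hy hc (fun i hi => by
          by_contra hiz
          exact h5 (C.miss hiz ▸ hi))
        exact ⟨l, hl.ge⟩
      · have h4 : 3 ≤ (Sx e (T y)).card := by rw [C.card]; omega
        have h6 : (5 : Fin 6) ∉ Sx e (T y) := fun h => h5 (mem_Sx.1 h)
        have key : ∀ S : Finset (Fin 6), 3 ≤ S.card → 5 ∉ S → ∃ l, ixs l ⊆ S := by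
          decide +kernel
        obtain ⟨l, hl⟩ := key _ h4 h6
        exact ⟨l, col_sub.2 hl⟩
  · exact ⟨5, by rw [h2]; rintro _ ⟨l, hl, rfl⟩; simp [ixs] at hl; rw [hl]; rfl⟩

/-- the colours of the letter are colours of the point -/
theorem X5_col (C : CnB U T z e) {l : Fin 6} {u : ℝ} (hu : u ∈ X5 T z e l) :
    col e l ⊆ T (pt z u) := by
  intro i hi
  have h1 : X5 T z e l ⊆ pt z ⁻¹' {x | i ∈ T x} := by
    refine closure_minimal (fun v hv => ?_) ((C.irr.closed i).preimage (continuous_pt z))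
    have h2 := lt_sub (C.letter (dist_pt z v))
    rw [hv.2] at h2
    exact h2 hi
  exact h1 hu

/-- near an angle of the letter there are exact arcs whose palette contains the letter -/
theorem X5_ex (C : CnB U T z e) {l : Fin 6} {u : ℝ} (hu : u ∈ X5 T z e l) :
    ∃ P, col e l ⊆ P ∧ pt z u ∈ closure (Ex T z P) := by
  have h1 : Dl T z e l ⊆ ⋃ P : Set (Fin 6), {v | col e l ⊆ P ∧ pt z v ∈ Ex T z P} := by
    intro v hv
    refine mem_iUnion.2 ⟨T (pt z v), ?_, mem_Ex_of z hv.1⟩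
    have h2 := lt_sub (C.letter (dist_pt z v))
    rwa [hv.2] at h2
  have h2 := closure_mono h1 hu
  rw [closure_iUnion_of_finite] at h2
  obtain ⟨P, hP⟩ := mem_iUnion.1 h2
  have hne : ({v | col e l ⊆ P ∧ pt z v ∈ Ex T z P} : Set ℝ).Nonempty :=
    closure_nonempty_iff.1 ⟨u, hP⟩
  obtain ⟨v, hv, -⟩ := hne
  refine ⟨P, hv, ?_⟩
  have h3 := (continuous_pt z).closure_preimage_subset (Ex T z P)
  exact h3 (closure_mono (fun v hv => hv.2) hP)

/-- the exact arcs of a diagonal do not have the missing colour -/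
theorem X5_ex' (C : CnB U T z e) {l : Fin 6} (hl : l ≠ 5) {u : ℝ} (hu : u ∈ X5 T z e l) :
    ∃ P, col e l ⊆ P ∧ e 5 ∉ P ∧ pt z u ∈ closure (Ex T z P) := by
  have h1 : Dl T z e l ⊆ ⋃ P : Set (Fin 6), {v | (col e l ⊆ P ∧ e 5 ∉ P) ∧ pt z v ∈ Ex T z P} := by
    intro v hv
    refine mem_iUnion.2 ⟨T (pt z v), ⟨?_, fun h5 => hl ?_⟩, mem_Ex_of z hv.1⟩
    · have h2 := lt_sub (C.letter (dist_pt z v))
      rwa [hv.2] at h2
    · rw [← hv.2, lt_five h5]
  have h2 := closure_mono h1 hu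
  rw [closure_iUnion_of_finite] at h2
  obtain ⟨P, hP⟩ := mem_iUnion.1 h2
  have hne : ({v | (col e l ⊆ P ∧ e 5 ∉ P) ∧ pt z v ∈ Ex T z P} : Set ℝ).Nonempty :=
    closure_nonempty_iff.1 ⟨u, hP⟩
  obtain ⟨v, hv, -⟩ := hne
  refine ⟨P, hv.1, hv.2, ?_⟩
  have h3 := (continuous_pt z).closure_preimage_subset (Ex T z P)
  exact h3 (closure_mono (fun v hv => hv.2) hP)

/-- at a single letter angle the letter is on the whole circle -/
theorem single_arc (C : CnB U T z e) {l : Fin 6} {u : ℝ} (hu : ∀ m, u ∈ X5 T z e m ↔ m = l) :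
    ∀ᶠ q in 𝓝[sphere z 1] (pt z u), col e l ⊆ T q := by
  have h1 : ∀ᶠ v in 𝓝 u, ∀ m, m ≠ l → v ∉ X5 T z e m := by
    rw [Filter.eventually_all]
    intro m
    by_cases hm : m = l
    · exact Eventually.of_forall fun v h => absurd hm h
    · have h2 : u ∈ (X5 T z e m)ᶜ := fun h => hm ((hu m).1 h)
      filter_upwards [(X5_closed m).isOpen_compl.mem_nhds h2] with v hv _ using hv
  refine ev_circle z ?_
  filter_upwards [h1] with v hv
  obtain ⟨m, hm⟩ := cover (e := e) (z := z) C.irr v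
  have : m = l := by
    by_contra hne
    exact hv m hne hm
  exact CnB.X5_col C (this ▸ hm)

/-- at most two letters -/
theorem two (C : CnB U T z e) {u : ℝ} (h3 : (T (pt z u)).ncard ≤ 3) {l m n : Fin 6} (hl : u ∈ X5 T z e l) (hm : u ∈ X5 T z e m)
    (hn : u ∈ X5 T z e n) : l = m ∨ m = n ∨ n = l := by
  rw [← C.card] at h3
  have key : ∀ S : Finset (Fin 6), S.card ≤ 3 → ∀ l m n, ixs l ⊆ S → ixs m ⊆ S → ixs n ⊆ S →
      l = m ∨ m = n ∨ n = l := by
    decide +kernel
  exact key _ h3 l m n (col_sub.1 (CnB.X5_col C hl)) (col_sub.1 (CnB.X5_col C hm)) (col_sub.1 (CnB.X5_col C hn))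

/-- two diagonals at one point have a common colour -/
theorem tog_of (C : CnB U T z e) {u : ℝ} (h3 : (T (pt z u)).ncard ≤ 3) {l m : Fin 6} (hl : u ∈ X5 T z e l)
    (hm : u ∈ X5 T z e m) : tog l m = true := by
  rw [← C.card] at h3
  have key : ∀ S : Finset (Fin 6), S.card ≤ 3 → ∀ l m, ixs l ⊆ S → ixs m ⊆ S → tog l m = true := by
    decide +kernel
  exact key _ h3 l m (col_sub.1 (CnB.X5_col C hl)) (col_sub.1 (CnB.X5_col C hm))

/-- the palette at a point with two letters -/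
theorem pal_of (C : CnB U T z e) {u : ℝ} (h3 : (T (pt z u)).ncard ≤ 3) {l m : Fin 6} (hl : u ∈ X5 T z e l)
    (hm : u ∈ X5 T z e m) (hlm : l ≠ m) : T (pt z u) = col e l ∪ col e m := by
  rw [← C.card] at h3
  have key : ∀ S : Finset (Fin 6), S.card ≤ 3 → ∀ l m, l ≠ m → ixs l ⊆ S → ixs m ⊆ S →
      S = ixs l ∪ ixs m := by
    decide +kernel
  have h4 := key _ h3 l m hlm (col_sub.1 (CnB.X5_col C hl)) (col_sub.1 (CnB.X5_col C hm))
  rw [← C.image_Sx (T (pt z u)), h4]
  unfold col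
  rw [Finset.coe_union, image_union]

/-- **sixty**: single letters at 60 degrees are disjoint -/
theorem sixty (C : CnB U T z e) {u : ℝ} {l m : Fin 6} (hl : ∀ n, u ∈ X5 T z e n ↔ n = l)
    (hm : ∀ n, u + 1 ∈ X5 T z e n ↔ n = m) : Disjoint (ixs l) (ixs m) := by
  rw [← C.disj_iff, Set.disjoint_left]
  intro i hi hi'
  have h1 := CnB.single_arc C hl
  have h2 : i ∈ T (pt z (u + 1)) := CnB.X5_col C ((hm m).2 rfl) hi'
  exact arc_free C.irr (dist_pt z u) (h1.mono fun q hq => hq hi) (dist_pt z (u + 1))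
    (dist_pt_one z u) h2

/-- **swap1**: two letters at each of two points at 60 degrees -/
theorem swap1 (C : CnB U T z e) {u : ℝ} (h3 : (T (pt z u)).ncard ≤ 3)
    (h3' : (T (pt z (u + 1))).ncard ≤ 3) {a a' b b' : Fin 6} (ha : u ∈ X5 T z e a)
    (ha' : u ∈ X5 T z e a') (hb : u + 1 ∈ X5 T z e b) (hb' : u + 1 ∈ X5 T z e b')
    (h : Disjoint (ixs a) (ixs b)) :
    Disjoint (ixs a) (ixs b') ∨ Disjoint (ixs a') (ixs b) := by
  rw [← C.disj_iff] at h
  rw [← C.disj_iff, ← C.disj_iff]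
  by_contra hcon
  push Not at hcon
  obtain ⟨h1, h2⟩ := hcon
  obtain ⟨i, hi, hi'⟩ := Set.not_disjoint_iff.1 h1
  obtain ⟨j, hj, hj'⟩ := Set.not_disjoint_iff.1 h2
  have hij := common_le_one C.irr C.five (dist_pt z u) (dist_pt z (u + 1)) (dist_pt_one z u)
    h3 h3' (CnB.X5_col C ha hi) (CnB.X5_col C hb' hi')
    (CnB.X5_col C ha' hj) (CnB.X5_col C hb hj')
  subst hij
  exact Set.disjoint_left.1 h hi hj'

/-- **anti**: single letters at antipodal points are not disjoint diagonals -/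
theorem anti3 (C : CnB U T z e) {u : ℝ} {l m : Fin 6} (hl : ∀ n, u ∈ X5 T z e n ↔ n = l)
    (hm : ∀ n, u + 3 ∈ X5 T z e n ↔ n = m) : ant l m = true := by
  by_contra hcon
  have key : ∀ l m : Fin 6, ant l m ≠ true →
      ∃ x : Fin 6, ∀ y : Fin 6, y ≠ 5 → y ≠ x → y ∈ ixs l ∨ y ∈ ixs m := by
    decide +kernel
  obtain ⟨x, hx⟩ := key l m hcon
  have h1 := CnB.single_arc C hl
  have h2 := CnB.single_arc C hm
  rw [pt_three] at h2
  refine anti_open C.irr C.mem_XX (dist_pt z u) (x := e x) h1 h2 fun i hi => ?_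
  obtain ⟨y, rfl⟩ := C.bij.2 i
  have hy5 : y ≠ 5 := (C.pal y).1 hi
  by_cases hyx : y = x
  · exact Or.inl (by rw [hyx])
  · rcases hx y hy5 hyx with h | h
    · exact Or.inr (Or.inl ⟨y, h, rfl⟩)
    · exact Or.inr (Or.inr ⟨y, h, rfl⟩)

end CnB

end Vale.Agent.P032.H306.Y
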