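import Vale.Agent.P032.H306.Y.CnB

/-!
# P032: a five coloured centre has no frozen events at the angles with six points of order three

Local form of `S5/H220`: the points of `S(z)` may have any number of colours, the six points at the angle
`u` have at most three (`Cl3`).
-/

open Set Filter Topology Metric

noncomputable section

namespace Vale.Agent.P032.H306.Y

open Vale.Agent.P032.Six Vale.Agent.P032.Words Vale.Agent.P032.S5.H122 Vale.Agent.P032.S5.H220
  Vale.Agent.P032.Words.Pent Vale.Agent.P032.S5.H450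

open Vale.Agent.P032.S5.H767 hiding col

variable {U : Fin 6 → Set ℂ} {T : ℂ → Set (Fin 6)} {z : ℂ} {e : Fin 6 → Fin 6}

/-- the six points at the angle `u` have at most three colours -/
def Cl3 (T : ℂ → Set (Fin 6)) (z : ℂ) (u : ℝ) : Prop :=
  ∀ k : Fin 6, (T (pt z (u + (k.val : ℝ)))).ncard ≤ 3

theorem Cl3.near (h : Irr U T) {u : ℝ} (hu : Cl3 T z u) : ∀ᶠ t in 𝓝 u, Cl3 T z t := by
  unfold Cl3
  rw [eventually_all]
  intro k
  have h1 : Tendsto (fun t : ℝ => pt z (t + (k.val : ℝ))) (𝓝 u) (𝓝 (pt z (u + (k.val : ℝ)))) :=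
    ((continuous_pt z).comp (by fun_prop : Continuous fun t : ℝ => t + (k.val : ℝ))).tendsto u
  filter_upwards [h1.eventually (h.nhd _)] with t ht
  exact (Set.ncard_le_ncard ht (Set.toFinite _)).trans (hu k)

theorem Cl3.shift {u : ℝ} (hu : Cl3 T z u) (r : Fin 6) : Cl3 T z (u + (r.val : ℝ)) := by
  intro k
  have h := (addr_of (Y := {t : ℝ | (T (pt z t)).ncard ≤ 3})
    (fun t => by show (T (pt z (t + 6))).ncard ≤ 3 ↔ _; rw [pt_six]; exact Iff.rfl) u r k).2
    (hu (k + r))
  exact h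

theorem Cl3.at2 {b : ℝ} (h : Cl3 T z b) {c : ℝ} (k : Fin 6) (hk : (k.val : ℝ) = c) :
    (T (pt z (b + c))).ncard ≤ 3 := by
  rw [← hk]; exact h k

theorem leg_of (C : CnB U T z e) {t : ℝ} {h : Fin 6 → Fin 6}
    (hh : ∀ k m : Fin 6, t + (k.val : ℝ) ∈ X5 T z e m ↔ m = h k) : legH h := by
  have hp := pos_add (X5 T z e) (fun l u => X5_per l u) t
  refine ⟨fun k => ?_, fun k => ?_⟩
  · refine CnB.sixty C (u := t + (k.val : ℝ)) (hh k) fun n => ?_
    have := hp k 1 n
    rw [show (((1 : Fin 6).val : ℕ) : ℝ) = 1 by norm_num] at this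
    rw [this]
    exact hh (k + 1) n
  · refine CnB.anti3 C (u := t + (k.val : ℝ)) (hh k) fun n => ?_
    have := hp k 3 n
    rw [show (((3 : Fin 6).val : ℕ) : ℝ) = 3 by norm_num] at this
    rw [this]
    exact hh (k + 3) n

/-- **Two hexagons** at a five coloured centre. -/
theorem two_hex5 (C : CnB U T z e) {x y : Fin 6 → Fin 6}
    (hdec : ∀ h, (∀ k, h k = x k ∨ h k = y k) → legH h → h = x ∨ h = y) (hxy : ∀ k, x k ≠ y k)
    {u : ℝ} (h3 : Cl3 T z u) (hx : ∀ k : Fin 6, u + (k.val : ℝ) ∈ X5 T z e (x k))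
    (hy : ∀ k : Fin 6, u + (k.val : ℝ) ∈ X5 T z e (y k)) :
    ∃ A B : Set ℝ, IsOpen A ∧ IsOpen B ∧ u ∈ closure A ∧ u ∈ closure B ∧
      (∀ᶠ t in 𝓝 u, t ∈ closure A ∨ t ∈ closure B) ∧
      (∀ t ∈ A, ∀ k m : Fin 6, t + (k.val : ℝ) ∈ X5 T z e m ↔ m = x k) ∧
      (∀ t ∈ B, ∀ k m : Fin 6, t + (k.val : ℝ) ∈ X5 T z e m ↔ m = y k) ∧
      (∀ t ∈ A, ∀ k : Fin 6, col e (x k) ⊆ T (pt z (t + (k.val : ℝ)))) ∧
      (∀ t ∈ B, ∀ k : Fin 6, col e (y k) ⊆ T (pt z (t + (k.val : ℝ)))) := by
  have hcov := cover (e := e) (z := z) C.irr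
  have h1 := two_hex (X := X5 T z e) (fun l => X5_closed l) hcov (gen C.irr) X5_reg
    (Leg := legH) (fun t h hh => leg_of C hh) hdec (hxy 0) (u := u)
    (by have := hx 0; simpa using this) (by have := hy 0; simpa using this)
    (fun k l hl => by
      rcases CnB.two C (h3 k) (hx k) (hy k) hl with h | h | h
      · exact absurd h (hxy k)
      · exact Or.inr h.symm
      · exact Or.inl h)
  have hmem : ∀ (h : Fin 6 → Fin 6) (t : ℝ), t ∈ Tm (X5 T z e) h → ∀ k m : Fin 6,
      t + (k.val : ℝ) ∈ X5 T z e m ↔ m = h k := by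
    intro h t ht k m
    constructor
    · intro hm
      by_contra hne
      exact ht k m hne hm
    · rintro rfl
      exact Tm_mem hcov ht k
  exact ⟨Tm (X5 T z e) x, Tm (X5 T z e) y, Tm_open (fun l => X5_closed l) x,
    Tm_open (fun l => X5_closed l) y, h1.1, h1.2.1, h1.2.2, hmem x, hmem y,
    fun t ht k => CnB.X5_col C (Tm_mem hcov ht k), fun t ht k => CnB.X5_col C (Tm_mem hcov ht k)⟩

theorem cov_of (C : CnB U T z e) {a b x : Fin 6} (h : cvb a b x = true) :
    T z ⊆ insert (e x) (col e b ∪ col e a) := by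
  intro i hi
  obtain ⟨y, rfl⟩ := C.bij.2 i
  have hy5 : y ≠ 5 := (C.pal y).1 hi
  by_cases hyx : y = x
  · exact Or.inl (by rw [hyx])
  · rcases cvb_spec h y hy5 hyx with h1 | h1
    · exact Or.inr (Or.inr ⟨y, h1, rfl⟩)
    · exact Or.inr (Or.inl ⟨y, h1, rfl⟩)

/-- **Half branch at a one-sided end.** -/
theorem hb_pt (C : CnB U T z e) {b o c η : ℝ} (ho : o = 1 ∨ o = -1) (hη : 0 < η)
    (h3 : (T (pt z (b + c + 3))).ncard ≤ 3) {l m x : Fin 6}
    (hP : ∀ s ∈ Ioo 0 η, col e l ⊆ T (pt z (b + o * s + c)))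
    (hP' : col e m ⊆ T (pt z (b + c + 3))) (hT : cvb l m x = true) :
    HB T z (pt z (b + c)) o (e x) := by
  have hpi : 0 < Real.pi / 3 := by positivity
  refine half_branch C.irr (dist_pt z _) ho (P := col e l) (η := η * (Real.pi / 3))
    (mul_pos hη hpi) (fun t ht => ?_) (by rw [← pt_three]; exact h3) ?_
  · have h1 : z + (pt z (b + c) - z) * cis (o * t) = pt z (b + o * (t / (Real.pi / 3)) + c) := by
      unfold pt
      have e1 : (b + o * (t / (Real.pi / 3)) + c) * (Real.pi / 3) =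
          (b + c) * (Real.pi / 3) + o * t := by
        field_simp
        ring
      rw [e1, cis_add]; ring
    rw [h1]
    refine hP _ ⟨div_pos ht.1 hpi, ?_⟩
    rw [div_lt_iff₀ hpi]
    exact ht.2
  · rw [← pt_three]
    exact (cov_of C hT).trans (insert_subset_insert (union_subset_union_left _ hP'))

/-- the two sets of times of a frozen event are disjoint -/
theorem disj_AB (C : CnB U T z e) {A B : Set ℝ} (hA : IsOpen A) (hB : IsOpen B) {c : ℝ}
    (h1 : ∀ t ∈ A, col e 5 ⊆ T (pt z (t + c))) (h2 : ∀ t ∈ B, col e 5 ⊆ T (pt z (t + c + 1))) :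
    Disjoint A B := by
  rw [Set.disjoint_left]
  intro t htA htB
  have h5 : e 5 ∈ col e 5 := ⟨5, by simp [ixs], rfl⟩
  have hev : ∀ᶠ v in 𝓝 (t + c), e 5 ∈ T (pt z v) := by
    have h3 : Tendsto (fun v : ℝ => v - c) (𝓝 (t + c)) (𝓝 t) := by
      have : Continuous fun v : ℝ => v - c := by fun_prop
      have h4 := this.tendsto (t + c)
      simpa using h4
    filter_upwards [h3.eventually (hA.mem_nhds htA)] with v hv
    have := h1 _ hv h5
    rwa [show v - c + c = v by ring] at this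
  exact arc_free C.irr (dist_pt z (t + c)) (ev_circle z hev) (dist_pt z (t + c + 1))
    (dist_pt_one z (t + c)) (h2 t htB h5)

/-- the geometric statement for the frozen hexagons `x`, `y`, local form -/
def FzB (x y : Fin 6 → Fin 6) : Prop :=
  ∀ (U : Fin 6 → Set ℂ) (T : ℂ → Set (Fin 6)) (z : ℂ) (e : Fin 6 → Fin 6), CnB U T z e →
    ∀ (u : ℝ), Cl3 T z u → ∀ (A B : Set ℝ), IsOpen A → IsOpen B → u ∈ closure A → u ∈ closure B →
      (∀ᶠ t in 𝓝 u, t ∈ closure A ∨ t ∈ closure B) →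
      (∀ t ∈ A, ∀ k : Fin 6, col e (x k) ⊆ T (pt z (t + (k.val : ℝ)))) →
      (∀ t ∈ B, ∀ k : Fin 6, col e (y k) ⊆ T (pt z (t + (k.val : ℝ)))) → False

/-- **(I)** -/
theorem frozB_I : FzB (fx 0) (fy 0) := by
  intro U T z e C u h3 A B hA hB huA huB hcov hAx hBy
  have hd : Disjoint A B := disj_AB C hA hB (c := 1) (fun t ht => by
      have := hAx t ht 1; simpa [fx] using this) (fun t ht => by
      have := hBy t ht 2
      rw [show t + 1 + 1 = t + (((2 : Fin 6).val : ℕ) : ℝ) by push_cast; norm_num; ring]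
      simpa [fy] using this)
  obtain ⟨ε, hε, hball⟩ := Metric.eventually_nhds_iff.1 (h3.near C.irr)
  obtain ⟨b, o, η, hbu, ho, hη, hbB, hbA⟩ := onesided hA hB hd huA huB hcov hε
  have h4 : Cl3 T z b := hball (by rw [Real.dist_eq]; exact hbu)
  have k0 : (T (pt z (b + 0 + 3))).ncard ≤ 3 := by
    rw [show b + 0 + 3 = b + 3 by ring]; exact h4.at2 3 (by norm_num)
  have k2 : (T (pt z (b + 2 + 3))).ncard ≤ 3 := by
    rw [show b + 2 + 3 = b + 5 by ring]; exact h4.at2 5 (by norm_num)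
  have k4 : (T (pt z (b + 4 + 3))).ncard ≤ 3 := by
    rw [show b + 4 + 3 = b + 1 + 6 by ring, pt_six]; exact h4.at2 1 (by norm_num)
  have hx : ∀ (k : Fin 6) (c : ℝ), (k.val : ℝ) = c → ∀ s ∈ Ioo 0 η,
      col e (fx 0 k) ⊆ T (pt z (b + o * s + c)) := by
    rintro k _ rfl s hs
    exact cl_sub C.irr (fun t ht => hAx t ht k) (hbA s hs)
  have hy : ∀ (k : Fin 6) (c : ℝ), (k.val : ℝ) = c → col e (fy 0 k) ⊆ T (pt z (b + c)) := by
    rintro k _ rfl
    exact cl_sub C.irr (fun t ht => hBy t ht k) hbB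
  refine three_hb C.irr C.mem_XX (b := b) (o := o) (x := e 4) ho ?_ ?_ ?_
  · have := hb_pt C (b := b) (c := 0) ho hη k0 (l := 0) (m := 2) (x := 4)
      (fun s hs => hx 0 0 (by simp) s hs)
      (by rw [show b + 0 + 3 = b + 3 by ring]; exact hy 3 3 (by norm_num)) (by decide)
    simpa using this
  · exact hb_pt C (b := b) (c := 2) ho hη k2 (l := 0) (m := 2) (x := 4)
      (fun s hs => hx 2 2 (by norm_num) s hs)
      (by rw [show b + 2 + 3 = b + 5 by ring]; exact hy 5 5 (by norm_num)) (by decide)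
  · exact hb_pt C (b := b) (c := 4) ho hη k4 (l := 0) (m := 2) (x := 4)
      (fun s hs => hx 4 4 (by norm_num) s hs)
      (by
        rw [show b + 4 + 3 = b + 1 + 6 by ring, pt_six]
        exact hy 1 1 (by norm_num)) (by decide)

/-- **(A)** -/
theorem frozB_A : FzB (fx 2) (fy 2) := by
  intro U T z e C u h3 A B hA hB huA huB hcov hAx hBy
  have hd : Disjoint A B := disj_AB C hA hB (c := 1) (fun t ht => by
      have := hAx t ht 1; simpa [fx] using this) (fun t ht => by
      have := hBy t ht 2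
      rw [show t + 1 + 1 = t + (((2 : Fin 6).val : ℕ) : ℝ) by push_cast; norm_num; ring]
      simpa [fy] using this)
  obtain ⟨ε, hε, hball⟩ := Metric.eventually_nhds_iff.1 (h3.near C.irr)
  obtain ⟨b, o, η, hbu, ho, hη, hbB, hbA⟩ := onesided hA hB hd huA huB hcov hε
  have h4 : Cl3 T z b := hball (by rw [Real.dist_eq]; exact hbu)
  have k0 : (T (pt z (b + 0 + 3))).ncard ≤ 3 := by
    rw [show b + 0 + 3 = b + 3 by ring]; exact h4.at2 3 (by norm_num)
  have k2 : (T (pt z (b + 2 + 3))).ncard ≤ 3 := by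
    rw [show b + 2 + 3 = b + 5 by ring]; exact h4.at2 5 (by norm_num)
  have k4 : (T (pt z (b + 4 + 3))).ncard ≤ 3 := by
    rw [show b + 4 + 3 = b + 1 + 6 by ring, pt_six]; exact h4.at2 1 (by norm_num)
  have hx : ∀ (k : Fin 6) (c : ℝ), (k.val : ℝ) = c → ∀ s ∈ Ioo 0 η,
      col e (fx 2 k) ⊆ T (pt z (b + o * s + c)) := by
    rintro k _ rfl s hs
    exact cl_sub C.irr (fun t ht => hAx t ht k) (hbA s hs)
  have hy : ∀ (k : Fin 6) (c : ℝ), (k.val : ℝ) = c → col e (fy 2 k) ⊆ T (pt z (b + c)) := by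
    rintro k _ rfl
    exact cl_sub C.irr (fun t ht => hBy t ht k) hbB
  have h0 : HB T z (pt z (b + 0)) o (e 4) :=
    hb_pt C (b := b) (c := 0) ho hη k0 (l := 0) (m := 2) (x := 4)
      (fun s hs => hx 0 0 (by simp) s hs)
      (by rw [show b + 0 + 3 = b + 3 by ring]; exact hy 3 3 (by norm_num)) (by decide)
  have h4 : HB T z (pt z (b + 4)) o (e 4) :=
    hb_pt C (b := b) (c := 4) ho hη k4 (l := 0) (m := 2) (x := 4)
      (fun s hs => hx 4 4 (by norm_num) s hs)
      (by
        rw [show b + 4 + 3 = b + 1 + 6 by ring, pt_six]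
        exact hy 1 1 (by norm_num)) (by decide)
  have h5 : e 4 ∈ Pal U (pt z (b + 5)) := by
    refine C.irr.sub _ (hy 5 5 (by norm_num) ⟨4, ?_, rfl⟩)
    simp [fy, ixs]
  have hdz : dist z (pt z (b + 5)) = 1 := by rw [dist_comm]; exact dist_pt z _
  have c1 : cr (pt z (b + 0) - z) (pt z (b + 5) - z) = -Real.sin (Real.pi / 3) := by
    rw [cr_pt, show (b + 5 - (b + 0)) * (Real.pi / 3) = -(Real.pi / 3) + 2 * Real.pi by ring,
      Real.sin_add_two_pi, Real.sin_neg]
  have c2 : cr (pt z (b + 4) - z) (pt z (b + 5) - z) = Real.sin (Real.pi / 3) := by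
    rw [cr_pt]; congr 1; ring
  have hs := sin_third_pos
  rcases ho with rfl | rfl
  · exact two_branches C.irr h4 h0 hdz h5 (by rw [c2]; linarith) (by rw [c1]; linarith)
  · exact two_branches C.irr h0 h4 hdz h5 (by rw [c1]; linarith) (by rw [c2]; linarith)

/-- **The cell at `y_2`**: the colour `e 0` is absent on the half branch at `y_0`. -/
theorem cell_free (C : CnB U T z e) {A B : Set ℝ} (hB : IsOpen B) {b o η : ℝ}
    (ho : o = 1 ∨ o = -1) (hη : 0 < η) (hbB : b ∈ closure B)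
    (h3 : (T (pt z (b + 2))).ncard ≤ 3)
    (hx : ∀ s ∈ Ioo 0 η, col e 5 ⊆ T (pt z (b + o * s + 1)))
    (hy : ∀ α ∈ B, col e 1 ⊆ T (pt z (α + 3)))
    (h0 : col e 0 ⊆ T (pt z (b + 2))) (h5 : col e 5 ⊆ T (pt z (b + 2))) :
    ∃ η' > 0, ∀ t ∈ Ioo 0 η', e 0 ∉ T (z + (pt z b - z) * (cis (o * t) - 1)) := by
  have hTy : ∀ i ∈ T (pt z (b + 2)), i = e 0 ∨ i = e 1 ∨ i = e 5 := by
    rw [← C.card] at h3
    have key : ∀ S : Finset (Fin 6), S.card ≤ 3 → ixs 0 ⊆ S → ixs 5 ⊆ S → S = {0, 1, 5} := by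
      decide +kernel
    have h4 := key _ h3 (col_sub.1 h0) (col_sub.1 h5)
    intro i hi
    obtain ⟨l, rfl⟩ := C.bij.2 i
    have h6 : l ∈ Sx e (T (pt z (b + 2))) := mem_Sx.2 hi
    rw [h4] at h6
    simp only [Finset.mem_insert, Finset.mem_singleton] at h6
    rcases h6 with rfl | rfl | rfl
    · exact Or.inl rfl
    · exact Or.inr (Or.inl rfl)
    · exact Or.inr (Or.inr rfl)
  -- good pairs
  have hgood : ∀ᶠ p : ℝ × ℝ in 𝓝 (b, b), T (cell z p.1 p.2) ⊆ T (pt z (b + 2)) ∧
      cell z p.1 p.2 ≠ z ∧ pt z (p.2 + 3) ≠ pt z (p.1 + 1) := by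
    have hc := (cell_cont z).tendsto (b, b)
    simp only [cell_self] at hc
    have hne1 : pt z (b + 2) ≠ z := by
      intro h; have := dist_pt z (b + 2); rw [h, dist_self] at this; exact zero_ne_one this
    have hne2 : pt z (b + 3) ≠ pt z (b + 1) := by
      have := (pt_off z (b + 1)).1
      rwa [show b + 1 + 2 = b + 3 by ring] at this
    have c1 : Continuous fun p : ℝ × ℝ => pt z (p.1 + 1) := (continuous_pt z).comp (by fun_prop)
    have c2 : Continuous fun p : ℝ × ℝ => pt z (p.2 + 3) := (continuous_pt z).comp (by fun_prop)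
    have e3 : ∀ᶠ p : ℝ × ℝ in 𝓝 (b, b), pt z (p.2 + 3) ≠ pt z (p.1 + 1) :=
      (isOpen_ne_fun c2 c1).mem_nhds hne2
    filter_upwards [hc.eventually (C.irr.nhd _), hc.eventually (isOpen_ne.mem_nhds hne1), e3]
      with p h1 h2 h3 using ⟨h1, h2, h3⟩
  obtain ⟨δ, hδ, hball⟩ := Metric.eventually_nhds_iff.1 hgood
  -- the single colour
  have hsingle : ∀ s ∈ Ioo 0 η, s < δ → ∀ α ∈ B, |α - b| < δ →
      cell z (b + o * s) α ∈ U (e 0) := by
    intro s hs hsδ α hα hαδ
    have habs : |o * s| = s := by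
      rcases ho with rfl | rfl
      · rw [one_mul, abs_of_pos hs.1]
      · rw [neg_one_mul, abs_neg, abs_of_pos hs.1]
    obtain ⟨g1, g2, g3⟩ := hball (y := (b + o * s, α)) (by
      rw [Prod.dist_eq, max_lt_iff]
      constructor
      · rw [Real.dist_eq]
        show |b + o * s - b| < δ
        rw [show b + o * s - b = o * s by ring, habs]; exact hsδ
      · rw [Real.dist_eq]; exact hαδ)
    have g1 : T (cell z (b + o * s) α) ⊆ T (pt z (b + 2)) := g1
    have g2 : cell z (b + o * s) α ≠ z := g2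
    have g3 : pt z (α + 3) ≠ pt z (b + o * s + 1) := g3
    refine C.irr.mem_of_single fun i hi => ?_
    -- `e 5` is absent
    have n5 : e 5 ∉ Pal U (cell z (b + o * s) α) := by
      have hev : ∀ᶠ v in 𝓝 (b + o * s + 1), e 5 ∈ T (pt z v) := by
        have h1 : Tendsto (fun v : ℝ => o * (v - 1 - b)) (𝓝 (b + o * s + 1)) (𝓝 s) := by
          have : Continuous fun v : ℝ => o * (v - 1 - b) := by fun_prop
          have h2 := this.tendsto (b + o * s + 1)
          have h3 : o * (b + o * s + 1 - 1 - b) = s := by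
            rcases ho with rfl | rfl <;> ring
          rwa [h3] at h2
        filter_upwards [h1.eventually (isOpen_Ioo.mem_nhds hs)] with v hv
        have h4 := hx _ hv ⟨5, by simp [ixs], rfl⟩
        have h6 : b + o * (o * (v - 1 - b)) + 1 = v := by
          rcases ho with rfl | rfl <;> ring
        rwa [h6] at h4
      refine line_free C.irr (dist_pt z _) (ev_circle z hev) (cell_dist1 z _ _) g2 fun h7 => g3 ?_
      unfold cell at h7
      linear_combination h7
    -- `e 1` is absent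
    have n1 : e 1 ∉ Pal U (cell z (b + o * s) α) := by
      have hev : ∀ᶠ v in 𝓝 (α + 3), e 1 ∈ T (pt z v) := by
        have h1 : Tendsto (fun v : ℝ => v - 3) (𝓝 (α + 3)) (𝓝 α) := by
          have : Continuous fun v : ℝ => v - 3 := by fun_prop
          have h2 := this.tendsto (α + 3)
          simpa using h2
        filter_upwards [h1.eventually (hB.mem_nhds hα)] with v hv
        have h4 := hy _ hv ⟨1, by simp [ixs], rfl⟩
        rwa [show v - 3 + 3 = v by ring] at h4
      refine line_free C.irr (dist_pt z _) (ev_circle z hev) (cell_dist2 z _ _) g2 fun h7 => g3 ?_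
      unfold cell at h7
      linear_combination -h7
    rcases hTy i (g1 hi) with h6 | h6 | h6
    · exact h6
    · exact absurd (C.irr.sub _ hi) (h6 ▸ n1)
    · exact absurd (C.irr.sub _ hi) (h6 ▸ n5)
  -- the length of the path
  set s1 := min (η / 2) (min (δ / 2) (1 / 2)) with hs1
  have hs1p : 0 < s1 := lt_min (by linarith) (lt_min (by linarith) (by norm_num))
  have l1 : s1 ≤ η / 2 := min_le_left _ _
  have l2 : s1 ≤ δ / 2 := (min_le_right _ _).trans (min_le_left _ _)
  have l3 : s1 ≤ 1 / 2 := (min_le_right _ _).trans (min_le_right _ _)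
  have hcr : cr (pt z b - z) (pt z (b + 2) - z) = √3 / 2 := by
    rw [cr_pt, ← sin_two_third]; congr 1; ring
  have h3p : 0 < √3 / 2 := by positivity
  have hdz : dist z (pt z (b + 2)) = 1 := by rw [dist_comm]; exact dist_pt z _
  have hb0 := continuous_hb z (pt z b) o
  -- the two ends
  have hev : ∀ᶠ t : ℝ in 𝓝[>] 0,
      (o = 1 ∧ dist (pt z (b + 2)) (z + (pt z b - z) * (cis (o * t) - 1)) < 1 ∧
        1 < dist (cell z (b + o * s1) b) (z + (pt z b - z) * (cis (o * t) - 1))) ∨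
      (o = -1 ∧ 1 < dist (pt z (b + 2)) (z + (pt z b - z) * (cis (o * t) - 1)) ∧
        dist (cell z (b + o * s1) b) (z + (pt z b - z) * (cis (o * t) - 1)) < 1) := by
    have hcd : Continuous fun t : ℝ =>
        dist (cell z (b + o * s1) b) (z + (pt z b - z) * (cis (o * t) - 1)) :=
      continuous_const.dist hb0
    rcases ho with rfl | rfl
    · have h1 := hb_in (z := z) (u := pt z b) (o := 1) hdz (by rw [hcr]; linarith)
      have h2 : ∀ᶠ t : ℝ in 𝓝 0, 1 <
          dist (cell z (b + 1 * s1) b) (z + (pt z b - z) * (cis (1 * t) - 1)) := by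
        refine hcd.continuousAt.eventually (Ioi_mem_nhds ?_)
        show 1 < dist (cell z (b + 1 * s1) b) (z + (pt z b - z) * (cis (1 * 0) - 1))
        rw [hb_zero, one_mul]
        exact cell_out z hs1p (by linarith)
      filter_upwards [h1, mem_nhdsWithin_of_mem_nhds h2] with t h3 h4
      exact Or.inl ⟨rfl, h3, h4⟩
    · have h1 := hb_out (z := z) (u := pt z b) (o := -1) hdz (by rw [hcr]; linarith)
      have h2 : ∀ᶠ t : ℝ in 𝓝 0,
          dist (cell z (b + -1 * s1) b) (z + (pt z b - z) * (cis (-1 * t) - 1)) < 1 := by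
        refine hcd.continuousAt.eventually (Iio_mem_nhds ?_)
        show dist (cell z (b + -1 * s1) b) (z + (pt z b - z) * (cis (-1 * 0) - 1)) < 1
        rw [hb_zero, show b + -1 * s1 = b - s1 by ring]
        exact cell_in z hs1p (by linarith)
      filter_upwards [h1, mem_nhdsWithin_of_mem_nhds h2] with t h3 h4
      exact Or.inr ⟨rfl, h3, h4⟩
  obtain ⟨η', hη', hsub⟩ := mem_nhdsGT_iff_exists_Ioo_subset.1 hev
  refine ⟨η', hη', fun t ht hcon => ?_⟩
  have ht2 := hsub ht
  set w := z + (pt z b - z) * (cis (o * t) - 1) with hw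
  -- choice of `α`
  have hα1 : ∀ᶠ α in 𝓝 b, |α - b| < δ ∧
      ((o = 1 ∧ dist (cell z b α) w < 1 ∧ 1 < dist (cell z (b + o * s1) α) w) ∨
      (o = -1 ∧ 1 < dist (cell z b α) w ∧ dist (cell z (b + o * s1) α) w < 1)) := by
    have k1 : Continuous fun α : ℝ => dist (cell z b α) w :=
      ((cell_cont z).comp (continuous_const.prodMk continuous_id)).dist continuous_const
    have k2 : Continuous fun α : ℝ => dist (cell z (b + o * s1) α) w :=
      ((cell_cont z).comp (continuous_const.prodMk continuous_id)).dist continuous_const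
    have k0 : ∀ᶠ α in 𝓝 b, |α - b| < δ := by
      have := Metric.ball_mem_nhds b hδ
      filter_upwards [this] with α hα
      rwa [Metric.mem_ball, Real.dist_eq] at hα
    have k1b : Tendsto (fun α : ℝ => dist (cell z b α) w) (𝓝 b) (𝓝 (dist (pt z (b + 2)) w)) := by
      have := k1.tendsto b
      rwa [cell_self] at this
    have k2b := k2.tendsto b
    rcases ht2 with ⟨h1, h2, h3⟩ | ⟨h1, h2, h3⟩
    · have e1 : ∀ᶠ α in 𝓝 b, dist (cell z b α) w < 1 := k1b.eventually (Iio_mem_nhds h2)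
      have e2 : ∀ᶠ α in 𝓝 b, 1 < dist (cell z (b + o * s1) α) w :=
        k2b.eventually (Ioi_mem_nhds h3)
      filter_upwards [k0, e1, e2] with α a0 a1 a2
      exact ⟨a0, Or.inl ⟨h1, a1, a2⟩⟩
    · have e1 : ∀ᶠ α in 𝓝 b, 1 < dist (cell z b α) w := k1b.eventually (Ioi_mem_nhds h2)
      have e2 : ∀ᶠ α in 𝓝 b, dist (cell z (b + o * s1) α) w < 1 :=
        k2b.eventually (Iio_mem_nhds h3)
      filter_upwards [k0, e1, e2] with α a0 a1 a2
      exact ⟨a0, Or.inr ⟨h1, a1, a2⟩⟩
  obtain ⟨α, ⟨hαδ, hα⟩, hαB⟩ := mem_closure_iff_nhds.1 hbB _ hα1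
  -- intermediate value
  have hcont : Continuous fun s : ℝ => dist (cell z (b + o * s) α) w :=
    ((cell_cont z).comp ((show Continuous fun s : ℝ => b + o * s by fun_prop).prodMk
      continuous_const)).dist continuous_const
  have hmem : (1 : ℝ) ∈ uIcc (dist (cell z (b + o * 0) α) w) (dist (cell z (b + o * s1) α) w) := by
    rw [mul_zero, add_zero]
    rcases hα with ⟨-, h1, h2⟩ | ⟨-, h1, h2⟩
    · rw [uIcc_of_le (h1.le.trans h2.le)]; exact ⟨h1.le, h2.le⟩
    · rw [uIcc_of_ge (h2.le.trans h1.le)]; exact ⟨h2.le, h1.le⟩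
  obtain ⟨s, hs, hs1'⟩ := intermediate_value_uIcc (a := 0) (b := s1) hcont.continuousOn hmem
  rw [uIcc_of_le hs1p.le] at hs
  have hs1' : dist (cell z (b + o * s) α) w = 1 := hs1'
  have hsne : s ≠ 0 := by
    rintro rfl
    rw [mul_zero, add_zero] at hs1'
    rcases hα with ⟨-, h1, -⟩ | ⟨-, h1, -⟩
    · exact h1.ne hs1'
    · exact h1.ne' hs1'
  have hs0 : 0 < s := lt_of_le_of_ne hs.1 (Ne.symm hsne)
  exact C.irr.mx.notMem' (hsingle s ⟨hs0, by linarith [hs.2]⟩ (by linarith [hs.2]) α hαB hαδ)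
    hs1' (C.irr.sub _ hcon)

/-- **(II)** -/
theorem frozB_II : FzB (fx 1) (fy 1) := by
  intro U T z e C u h3 A B hA hB huA huB hcov hAx hBy
  have hd : Disjoint A B := disj_AB C hA hB (c := 1) (fun t ht => by
      have := hAx t ht 1; simpa [fx] using this) (fun t ht => by
      have := hBy t ht 2
      rw [show t + 1 + 1 = t + (((2 : Fin 6).val : ℕ) : ℝ) by norm_num; ring]
      simpa [fy] using this)
  obtain ⟨ε, hε, hball⟩ := Metric.eventually_nhds_iff.1 (h3.near C.irr)
  obtain ⟨b, o, η, hbu, ho, hη, hbB, hbA⟩ := onesided hA hB hd huA huB hcov hε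
  have h4 : Cl3 T z b := hball (by rw [Real.dist_eq]; exact hbu)
  have k0 : (T (pt z (b + 0 + 3))).ncard ≤ 3 := by
    rw [show b + 0 + 3 = b + 3 by ring]; exact h4.at2 3 (by norm_num)
  have k2 : (T (pt z (b + 2 + 3))).ncard ≤ 3 := by
    rw [show b + 2 + 3 = b + 5 by ring]; exact h4.at2 5 (by norm_num)
  have k4 : (T (pt z (b + 4 + 3))).ncard ≤ 3 := by
    rw [show b + 4 + 3 = b + 1 + 6 by ring, pt_six]; exact h4.at2 1 (by norm_num)
  have hx : ∀ (k : Fin 6) (c : ℝ), (k.val : ℝ) = c → ∀ s ∈ Ioo 0 η,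
      col e (fx 1 k) ⊆ T (pt z (b + o * s + c)) := by
    rintro k _ rfl s hs
    exact cl_sub C.irr (fun t ht => hAx t ht k) (hbA s hs)
  have hxb : ∀ (k : Fin 6) (c : ℝ), (k.val : ℝ) = c → col e (fx 1 k) ⊆ T (pt z (b + c)) := by
    rintro k _ rfl
    exact cl_sub C.irr (fun t ht => hAx t ht k) (end_mem hη hbA)
  have hy : ∀ (k : Fin 6) (c : ℝ), (k.val : ℝ) = c → col e (fy 1 k) ⊆ T (pt z (b + c)) := by
    rintro k _ rfl
    exact cl_sub C.irr (fun t ht => hBy t ht k) hbB
  have hpi : 0 < Real.pi / 3 := by positivity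
  refine three_hb C.irr C.mem_XX (b := b) (o := o) (x := e 4) ho ?_ ?_ ?_
  · obtain ⟨η', hη', hfree⟩ := cell_free (A := A) C hB ho hη hbB
      (h4.at2 2 (by norm_num))
      (fun s hs => hx 1 1 (by norm_num) s hs)
      (fun α hα => by
        have := hBy α hα 3
        simpa [fy] using this) (hxb 2 2 (by norm_num)) (hy 2 2 (by norm_num))
    refine half_branch2 C.irr (dist_pt z _) ho (P := col e 1) (η := η * (Real.pi / 3))
      (η' := η') (x' := e 0) (mul_pos hη hpi) hη' (fun t ht => ?_)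
      (by rw [← pt_three]; exact h4.at2 3 (by norm_num)) hfree ?_
    · have h1 : z + (pt z b - z) * cis (o * t) = pt z (b + o * (t / (Real.pi / 3)) + 0) := by
        unfold pt
        have e1 : (b + o * (t / (Real.pi / 3)) + 0) * (Real.pi / 3) =
            b * (Real.pi / 3) + o * t := by
          field_simp
          ring
        rw [e1, cis_add]; ring
      rw [h1]
      refine hx 0 0 (by simp) _ ⟨div_pos ht.1 hpi, ?_⟩
      rw [div_lt_iff₀ hpi]
      exact ht.2
    · rw [← pt_three]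
      have h1 : col e 2 ⊆ T (pt z (b + 3)) := hxb 3 3 (by norm_num)
      intro i hi
      obtain ⟨y, rfl⟩ := C.bij.2 i
      have hy5 : y ≠ 5 := (C.pal y).1 hi
      have key : ∀ y : Fin 6, y ≠ 5 → y = 4 ∨ y = 0 ∨ y ∈ ixs 2 ∨ y ∈ ixs 1 := by decide
      rcases key y hy5 with rfl | rfl | h2 | h2
      · exact Or.inl rfl
      · exact Or.inr (Or.inl rfl)
      · exact Or.inr (Or.inr (Or.inl (h1 ⟨y, h2, rfl⟩)))
      · exact Or.inr (Or.inr (Or.inr ⟨y, h2, rfl⟩))
  · exact hb_pt C (b := b) (c := 2) ho hη k2 (l := 0) (m := 2) (x := 4)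
      (fun s hs => hx 2 2 (by norm_num) s hs)
      (by rw [show b + 2 + 3 = b + 5 by ring]; exact hy 5 5 (by norm_num)) (by decide)
  · exact hb_pt C (b := b) (c := 4) ho hη k4 (l := 0) (m := 2) (x := 4)
      (fun s hs => hx 4 4 (by norm_num) s hs)
      (by
        rw [show b + 4 + 3 = b + 1 + 6 by ring, pt_six]
        exact hy 1 1 (by norm_num)) (by decide)

theorem CnB_map (C : CnB U T z e) (a : Fin 5) (s : Bool) : CnB U T z (fun m => e (mapC a s m)) where
  irr := C.irr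
  inj := C.inj.comp (mapC_inj a s)
  pal := fun l => by
    rw [C.pal]
    exact not_congr (mapC_five a s l)
  pairs := fun q hq h2 hs => by
    obtain ⟨l, hl⟩ := C.pairs q hq h2 hs
    obtain ⟨m, hm⟩ := mapL_surj a s l
    exact ⟨m, by rw [hl, col_map, hm]⟩

/-- **No frozen events** for the letters `X5`. -/
theorem nofr_false (H : ∀ i : Fin 3, FzB (fx i) (fy i)) (C : CnB U T z e) (i : Fin 3) (a : Fin 5)
    (s : Bool) (q : Fin 6) (u : ℝ) (h3 : Cl3 T z u)
    (hx : ∀ k : Fin 6, u + (k.val : ℝ) ∈ X5 T z e (trH a s q false (fx i) k))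
    (hy : ∀ k : Fin 6, u + (k.val : ℝ) ∈ X5 T z e (trH a s q false (fy i) k)) : False := by
  obtain ⟨A, B, hA, hB, huA, huB, hcov, -, -, hA2, hB2⟩ := two_hex5 C (tr_dec i a s q)
    (fun k he => base_ne i (q + k) (mapL_inj a s _ _ he)) h3 hx hy
  -- shift of the time
  have hsh : ∀ (D : Set ℝ), IsOpen D → IsOpen ((fun t : ℝ => t + (((-q : Fin 6).val : ℕ) : ℝ)) '' D) := by
    intro D hD
    exact (Homeomorph.addRight (((-q : Fin 6).val : ℕ) : ℝ)).isOpenMap D hD
  have hcl : ∀ (D : Set ℝ) (t : ℝ), t ∈ closure D → t + (((-q : Fin 6).val : ℕ) : ℝ) ∈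
      closure ((fun t : ℝ => t + (((-q : Fin 6).val : ℕ) : ℝ)) '' D) := by
    intro D t ht
    have h1 := (Homeomorph.addRight (((-q : Fin 6).val : ℕ) : ℝ)).image_closure D
    have h2 : (⇑(Homeomorph.addRight (((-q : Fin 6).val : ℕ) : ℝ))) =
      fun t : ℝ => t + (((-q : Fin 6).val : ℕ) : ℝ) := rfl
    rw [h2] at h1
    rw [← h1]
    exact ⟨t, ht, rfl⟩
  have hT : ∀ (h : Fin 6 → Fin 6) (D : Set ℝ),
      (∀ t ∈ D, ∀ k : Fin 6, col e (trH a s q false h k) ⊆ T (pt z (t + (k.val : ℝ)))) →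
      ∀ t ∈ (fun t : ℝ => t + (((-q : Fin 6).val : ℕ) : ℝ)) '' D, ∀ k : Fin 6,
        col (fun m => e (mapC a s m)) (h k) ⊆ T (pt z (t + (k.val : ℝ))) := by
    rintro h D hD _ ⟨t, ht, rfl⟩ k
    have h1 := hD t ht (-q + k)
    simp only [trH, Bool.false_eq_true, if_false] at h1
    have e1 : q + (-q + k) = k := by abel
    rw [e1, ← col_map] at h1
    have h2 : pt z (t + (((-q : Fin 6).val : ℕ) : ℝ) + (k.val : ℝ)) =
        pt z (t + (((-q + k : Fin 6).val : ℕ) : ℝ)) := by
      have hk := k.isLt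
      have hj := (-q : Fin 6).isLt
      have h3 : (-q + k : Fin 6).val = ((-q : Fin 6).val + k.val) % 6 := by rw [Fin.val_add]
      by_cases h4 : (-q : Fin 6).val + k.val < 6
      · rw [h3, Nat.mod_eq_of_lt h4]
        congr 1; push_cast; ring
      · have h5 : ((-q : Fin 6).val + k.val) % 6 = (-q : Fin 6).val + k.val - 6 := by omega
        have h6 : (-q : Fin 6).val + k.val - 6 + 6 = (-q : Fin 6).val + k.val := by omega
        rw [h3, h5, ← pt_six z (t + _)]
        congr 1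
        have h7 : (((-q : Fin 6).val + k.val - 6 + 6 : ℕ) : ℝ) =
          (((-q : Fin 6).val + k.val : ℕ) : ℝ) := by rw [h6]
        push_cast at h7 ⊢
        linarith
    show _ ⊆ T (pt z (t + (((-q : Fin 6).val : ℕ) : ℝ) + (k.val : ℝ)))
    rw [h2]
    exact h1
  refine H i U T z _ (CnB_map C a s) (u + (((-q : Fin 6).val : ℕ) : ℝ)) (h3.shift _) _ _ (hsh A hA) (hsh B hB)
    (hcl A u huA) (hcl B u huB) ?_ (hT _ A hA2) (hT _ B hB2)
  have h1 : Tendsto (fun t : ℝ => t - (((-q : Fin 6).val : ℕ) : ℝ))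
      (𝓝 (u + (((-q : Fin 6).val : ℕ) : ℝ))) (𝓝 u) := by
    have : Continuous fun t : ℝ => t - (((-q : Fin 6).val : ℕ) : ℝ) := by fun_prop
    have h2 := this.tendsto (u + (((-q : Fin 6).val : ℕ) : ℝ))
    simpa using h2
  filter_upwards [h1.eventually hcov] with t ht
  rcases ht with h2 | h2
  · left
    have := hcl A _ h2
    simpa using this
  · right
    have := hcl B _ h2
    simpa using this

/-- 819's field `nofr` -/
theorem nofr_word5 (H : ∀ i : Fin 3, FzB (fx i) (fy i)) (C : CnB U T z e) (i : Fin 3) (a : Fin 5)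
    (s : Bool) (q : Fin 6) (t : Bool) (u : ℝ) (h3 : Cl3 T z u)
    (hx : ∀ k : Fin 6, u + (k.val : ℝ) ∈ X5 T z e (trH a s q t (fx i) k))
    (hy : ∀ k : Fin 6, u + (k.val : ℝ) ∈ X5 T z e (trH a s q t (fy i) k)) : False := by
  cases t with
  | false => exact nofr_false H C i a s q u h3 hx hy
  | true =>
    obtain ⟨q', hq'⟩ := mirror i q
    refine nofr_false H C i a s q' u h3 (fun k => ?_) (fun k => ?_)
    · have := hx k
      simp only [trH, if_true] at this
      rw [(hq' k).1] at this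
      simpa [trH] using this
    · have := hy k
      simp only [trH, if_true] at this
      rw [(hq' k).2] at this
      simpa [trH] using this

theorem frozB_all : ∀ i : Fin 3, FzB (fx i) (fy i) := by
  intro i
  fin_cases i
  · exact frozB_I
  · exact frozB_II
  · exact frozB_A

end Vale.Agent.P032.H306.Y
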