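import Vale.Agent.P032.Words5.Gen

/-!
# Words on a circle with ties and with a closed set `B` of exceptional times

As in `Words5/Gen.lean`, but at the times of a closed set `B` nothing is counted: there may be more than
two letters, and the changes at the position of such a time have no type.
-/

namespace Vale.Agent.P032.H306.Y

open Vale.Agent.P032.Words Vale.Agent.P032.W5

open Set Filter Topology

variable {Λ ι : Type} [DecidableEq ι]

/-- `u` is a common point of two letters with a type `τ`, off `B` -/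
def OccB (X : Λ → Set ℝ) (B : Set ℝ) (free : Λ → Λ → Prop) (ty : Λ → Λ → ι → Prop) (τ : ι) (u : ℝ) :
    Prop := u ∉ B ∧ Occ X free ty τ u

open Classical in
/-- the types of the changes between two hexagons at the positions off `B` -/
noncomputable def tysB [Fintype ι] (B : Set ℝ) (u : ℝ) (free : Λ → Λ → Prop) (ty : Λ → Λ → ι → Prop)
    (h h' : Fin 6 → Λ) : Finset ι :=
  Finset.univ.filter fun τ => ∃ k : Fin 6, u + (k.val : ℝ) ∉ B ∧ ¬ free (h k) (h' k) ∧ ty (h k) (h' k) τ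

open Classical in
omit [DecidableEq ι] in
theorem mem_tysB [Fintype ι] {B : Set ℝ} {u : ℝ} {free : Λ → Λ → Prop} {ty : Λ → Λ → ι → Prop}
    {h h' : Fin 6 → Λ} {τ : ι} : τ ∈ tysB B u free ty h h' ↔
      ∃ k : Fin 6, u + (k.val : ℝ) ∉ B ∧ ¬ free (h k) (h' k) ∧ ty (h k) (h' k) τ := by
  unfold tysB
  rw [Finset.mem_filter]
  exact ⟨fun h => h.2, fun h => ⟨Finset.mem_univ _, h⟩⟩

/-- A word with ties and exceptional times. -/
structure GWB [Fintype ι] (X : Λ → Set ℝ) (B : Set ℝ) (Leg : (Fin 6 → Λ) → Prop)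
    (free : Λ → Λ → Prop) (ty : Λ → Λ → ι → Prop) (cmp : (Fin 6 → Λ) → ℕ)
    (Rel : Finset ι → ℕ → ℕ → Prop) : Prop where
  closed : ∀ l, IsClosed (X l)
  cover : ∀ u, ∃ l, u ∈ X l
  per : ∀ l u, u + 6 ∈ X l ↔ u ∈ X l
  gen : Dense {u | ∃ l, ∀ m, u ∈ X m → m = l}
  bcl : IsClosed B
  bper : ∀ u, u + 6 ∈ B ↔ u ∈ B
  two : ∀ u, u ∉ B → ∀ a b c, u ∈ X a → u ∈ X b → u ∈ X c → a ≠ b → c = a ∨ c = b
  leg : ∀ u ∈ Gen X, ∀ h : Fin 6 → Λ, (∀ k, u + (k.val : ℝ) ∈ X (h k)) → Leg h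
  frefl : ∀ a, free a a
  fsymm : ∀ a b, free a b → free b a
  tsymm : ∀ a b τ, ty a b τ → ty b a τ
  uniq : ∀ τ u v, OccB X B free ty τ u → OccB X B free ty τ v → ∃ n : ℤ, v = u + 6 * n
  rel0 : ∀ c c', Rel ∅ c c' → c = c'
  relc : ∀ S S' a b c, Rel S a b → Rel S' b c → Disjoint S S' → Rel (S ∪ S') a c
  relp : ∀ u h h', (∀ k, u + (k.val : ℝ) ∈ X (h k)) → (∀ k, u + (k.val : ℝ) ∈ X (h' k)) →
    Leg h → Leg h' →
    (∀ (k l : Fin 6) τ, u + (k.val : ℝ) ∉ B → u + (l.val : ℝ) ∉ B → ¬ free (h k) (h' k) →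
      ty (h k) (h' k) τ → ¬ free (h l) (h' l) → ty (h l) (h' l) τ → k = l) →
    Rel (tysB B u free ty h h') (cmp h) (cmp h')

section
variable [Fintype ι] [Finite Λ] [Nonempty Λ] {X : Λ → Set ℝ} {B : Set ℝ} {Leg : (Fin 6 → Λ) → Prop}
  {free : Λ → Λ → Prop} {ty : Λ → Λ → ι → Prop} {cmp : (Fin 6 → Λ) → ℕ}
  {Rel : Finset ι → ℕ → ℕ → Prop}

omit [Nonempty Λ] in
theorem GWB.near (w : GWB X B Leg free ty cmp Rel) (u : ℝ) :
    ∀ᶠ v in 𝓝 u, ∀ k : Fin 6, ∀ l, v + (k.val : ℝ) ∈ X l → u + (k.val : ℝ) ∈ X l := by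
  rw [eventually_all]
  intro k
  rw [eventually_all]
  intro l
  by_cases h : u + (k.val : ℝ) ∈ X l
  · exact Eventually.of_forall fun v _ => h
  · have hc : Continuous fun v : ℝ => v + (k.val : ℝ) := by fun_prop
    have := (hc.tendsto u).eventually ((w.closed l).isOpen_compl.mem_nhds h)
    filter_upwards [this] with v hv hv'
    exact absurd hv' hv

omit [Nonempty Λ] in
/-- single letter times are open -/
theorem GWB.isOpen_single (w : GWB X B Leg free ty cmp Rel) :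
    IsOpen {u | ∃ l, ∀ m, u ∈ X m → m = l} := by
  rw [isOpen_iff_mem_nhds]
  rintro u ⟨l, hl⟩
  have h1 : ∀ᶠ v in 𝓝 u, ∀ m, v ∈ X m → u ∈ X m := by
    rw [eventually_all]
    intro m
    by_cases h : u ∈ X m
    · exact Eventually.of_forall fun v _ => h
    · filter_upwards [(w.closed m).isOpen_compl.mem_nhds h] with v hv hv'
      exact absurd hv' hv
  filter_upwards [h1] with v hv
  exact ⟨l, fun m hm => hl m (hv m hm)⟩

omit [Nonempty Λ] in
/-- the generic times are dense -/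
theorem GWB.dense (w : GWB X B Leg free ty cmp Rel) : Dense (Gen X) := by
  have hO := w.isOpen_single
  have h1 : ∀ k : Fin 6, IsOpen {u : ℝ | ∃ l, ∀ m, u + (k.val : ℝ) ∈ X m → m = l} := fun k =>
    hO.preimage (f := fun u : ℝ => u + (k.val : ℝ)) (by fun_prop)
  have h2 : ∀ k : Fin 6, Dense {u : ℝ | ∃ l, ∀ m, u + (k.val : ℝ) ∈ X m → m = l} := fun k => by
    have := w.gen.preimage (f := fun u : ℝ => u + (k.val : ℝ)) (Homeomorph.addRight (k.val : ℝ)).isOpenMap
    exact this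
  have h3 : ∀ n : ℕ, n ≤ 6 → IsOpen {u : ℝ | ∀ k : Fin 6, k.val < n → ∃ l, ∀ m, u + (k.val : ℝ) ∈ X m → m = l} ∧
      Dense {u : ℝ | ∀ k : Fin 6, k.val < n → ∃ l, ∀ m, u + (k.val : ℝ) ∈ X m → m = l} := by
    intro n
    induction n with
    | zero =>
      intro _
      have : {u : ℝ | ∀ k : Fin 6, k.val < 0 → ∃ l, ∀ m, u + (k.val : ℝ) ∈ X m → m = l} = univ := by
        ext u; simp
      rw [this]
      exact ⟨isOpen_univ, dense_univ⟩
    | succ n ih =>
      intro hn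
      obtain ⟨a, b⟩ := ih (by omega)
      have e : {u : ℝ | ∀ k : Fin 6, k.val < n + 1 → ∃ l, ∀ m, u + (k.val : ℝ) ∈ X m → m = l}
          = {u : ℝ | ∀ k : Fin 6, k.val < n → ∃ l, ∀ m, u + (k.val : ℝ) ∈ X m → m = l} ∩
            {u : ℝ | ∃ l, ∀ m, u + (((⟨n, by omega⟩ : Fin 6)).val : ℝ) ∈ X m → m = l} := by
        ext u
        constructor
        · intro h
          exact ⟨fun k hk => h k (by omega), h ⟨n, by omega⟩ (by simp)⟩
        · rintro ⟨ha, hb⟩ k hk
          by_cases hk' : k.val < n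
          · exact ha k hk'
          · have : k = ⟨n, by omega⟩ := Fin.ext (by show k.val = n; omega)
            rw [this]; exact hb
      rw [e]
      exact ⟨a.inter (h1 _), b.inter_of_isOpen_left (h2 _) a⟩
  have := (h3 6 le_rfl).2
  convert this using 1
  ext u
  exact ⟨fun h k _ => h k, fun h k => h k k.isLt⟩

omit [Nonempty Λ] in
theorem GWB.frequently_left (w : GWB X B Leg free ty cmp Rel) (u : ℝ) : ∃ᶠ v in 𝓝[<] u, v ∈ Gen X := by
  rw [frequently_iff]
  intro V hV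
  obtain ⟨a, ha, hsub⟩ := (mem_nhdsLT_iff_exists_Ioo_subset).1 hV
  obtain ⟨v, hv, hv2⟩ := w.dense.exists_mem_open isOpen_Ioo (nonempty_Ioo.2 ha)
  exact ⟨v, hsub hv2, hv⟩

omit [Nonempty Λ] in
theorem GWB.frequently_right (w : GWB X B Leg free ty cmp Rel) (u : ℝ) :
    ∃ᶠ v in 𝓝[>] u, v ∈ Gen X := by
  rw [frequently_iff]
  intro V hV
  obtain ⟨a, ha, hsub⟩ := (mem_nhdsGT_iff_exists_Ioo_subset).1 hV
  obtain ⟨v, hv, hv2⟩ := w.dense.exists_mem_open isOpen_Ioo (nonempty_Ioo.2 ha)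
  exact ⟨v, hsub hv2, hv⟩

omit [Finite Λ] in
theorem GWB.st_mem (w : GWB X B Leg free ty cmp Rel) (u : ℝ) (k : Fin 6) :
    u + (k.val : ℝ) ∈ X (st X u k) := by
  have : ({l | u + (k.val : ℝ) ∈ X l} : Set Λ).Nonempty := w.cover _
  exact pick_mem this

omit [Nonempty Λ] [Finite Λ] in
/-- off `u` there are no typed points near `u` -/
theorem GWB.isolated (w : GWB X B Leg free ty cmp Rel) (u : ℝ) (k : Fin 6) (τ : ι) :
    ∀ᶠ v in 𝓝 u, v ≠ u → ¬ OccB X B free ty τ (v + (k.val : ℝ)) := by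
  by_cases h : ∃ v1, |v1 - u| < 1 ∧ v1 ≠ u ∧ OccB X B free ty τ (v1 + (k.val : ℝ))
  · obtain ⟨v1, h1, h2, h3⟩ := h
    have hpos : 0 < |v1 - u| := abs_pos.2 (sub_ne_zero.2 h2)
    have := Metric.ball_mem_nhds u hpos
    filter_upwards [this] with v hv hvu h4
    rw [Metric.mem_ball, Real.dist_eq] at hv
    obtain ⟨n, hn⟩ := w.uniq _ _ _ h3 h4
    have h5 : v = v1 + 6 * n := by linarith
    have h6 : |(6 : ℝ) * n| < 2 := by
      have : (6 : ℝ) * n = (v - u) - (v1 - u) := by linarith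
      rw [this]
      calc |(v - u) - (v1 - u)| ≤ |v - u| + |v1 - u| := abs_sub _ _
        _ < 2 := by linarith
    have h7 : n = 0 := by
      have h8 : |(n : ℝ)| < 1 := by
        rw [abs_mul] at h6
        have : |(6 : ℝ)| = 6 := by norm_num
        rw [this] at h6
        linarith [abs_nonneg (n : ℝ)]
      have h9 : |n| < 1 := by exact_mod_cast h8
      exact Int.abs_lt_one_iff.1 h9
    rw [h7] at h5
    simp only [Int.cast_zero, mul_zero, add_zero] at h5
    rw [h5] at hv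
    exact lt_irrefl _ hv
  · push Not at h
    filter_upwards [Metric.ball_mem_nhds u one_pos] with v hv hvu
    rw [Metric.mem_ball, Real.dist_eq] at hv
    exact h v hv hvu

/-- the two sides of a time -/
theorem GWB.sides (w : GWB X B Leg free ty cmp Rel) (u : ℝ) :
    ∃ (c c' : ℕ) (S : Finset ι), Rel S c c' ∧
      (∀ τ ∈ S, ∃ k : Fin 6, OccB X B free ty τ (u + (k.val : ℝ))) ∧
      (∀ᶠ v in 𝓝[<] u, v ∈ Gen X → cmp (st X v) = c) ∧
      (∀ᶠ v in 𝓝[>] u, v ∈ Gen X → cmp (st X v) = c') := by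
  classical
  have e1 : ∀ᶠ v in 𝓝 u, ∀ k : Fin 6, ∀ τ : ι, v ≠ u → ¬ OccB X B free ty τ (v + (k.val : ℝ)) := by
    rw [eventually_all]; intro k
    rw [eventually_all]; intro τ
    exact w.isolated u k τ
  have e2 : ∀ᶠ v in 𝓝 u, ∀ k : Fin 6, u + (k.val : ℝ) ∉ B → v + (k.val : ℝ) ∉ B := by
    rw [eventually_all]; intro k
    by_cases hk : u + (k.val : ℝ) ∈ B
    · exact Eventually.of_forall fun v h => absurd hk h
    · have hc : Continuous fun v : ℝ => v + (k.val : ℝ) := by fun_prop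
      have := (hc.tendsto u).eventually (w.bcl.isOpen_compl.mem_nhds hk)
      filter_upwards [this] with v hv _
      exact hv
  obtain ⟨ε, hε, hball⟩ := Metric.eventually_nhds_iff.1 ((w.near u).and (e1.and e2))
  -- crossing
  have key : ∀ v v' : ℝ, |v - u| < ε → |v' - u| < ε → v ≤ v' → ∀ k : Fin 6,
      u + (k.val : ℝ) ∉ B → ¬ free (st X v k) (st X v' k) →
      ∃ x ∈ Icc v v', x + (k.val : ℝ) ∈ X (st X v k) ∧ x + (k.val : ℝ) ∈ X (st X v' k) := by
    intro v v' hv hv' hvv k hkB hf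
    have hne : st X v k ≠ st X v' k := fun h => hf (h ▸ w.frefl _)
    refine cross w.closed w.cover hvv (w.st_mem v k) (w.st_mem v' k) ?_
    intro x hx l hl
    have hx' : dist x u < ε := by
      rw [Real.dist_eq, abs_lt]
      constructor <;> linarith [hx.1, hx.2, (abs_lt.1 hv).1, (abs_lt.1 hv').2]
    exact w.two _ hkB _ _ _ ((hball (show dist v u < ε from by rwa [Real.dist_eq])).1 k _ (w.st_mem v k))
      ((hball (show dist v' u < ε from by rwa [Real.dist_eq])).1 k _ (w.st_mem v' k))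
      ((hball hx').1 k l hl) hne
  have key2 : ∀ v v' : ℝ, |v - u| < ε → |v' - u| < ε → v ≤ v' → ∀ k : Fin 6, ∀ τ : ι,
      u + (k.val : ℝ) ∉ B → ¬ free (st X v k) (st X v' k) → ty (st X v k) (st X v' k) τ →
      u ∈ Icc v v' ∧ OccB X B free ty τ (u + (k.val : ℝ)) := by
    intro v v' hv hv' hvv k τ hkB hf ht
    obtain ⟨x, hx, h1, h2⟩ := key v v' hv hv' hvv k hkB hf
    have hx' : dist x u < ε := by
      rw [Real.dist_eq, abs_lt]
      constructor <;> linarith [hx.1, hx.2, (abs_lt.1 hv).1, (abs_lt.1 hv').2]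
    have ho : OccB X B free ty τ (x + (k.val : ℝ)) :=
      ⟨(hball hx').2.2 k hkB, _, _, h1, h2, hf, ht⟩
    by_cases hxu : x = u
    · subst hxu; exact ⟨hx, ho⟩
    · exact absurd ho ((hball hx').2.1 k τ hxu)
  have key3 : ∀ v v' : ℝ, |v - u| < ε → |v' - u| < ε → v ≤ v' → v ∈ Gen X → v' ∈ Gen X →
      Rel (tysB B u free ty (st X v) (st X v')) (cmp (st X v)) (cmp (st X v')) := by
    intro v v' hv hv' hvv hg hg'
    refine w.relp u _ _ (fun k => (hball (show dist v u < ε from by rwa [Real.dist_eq])).1 k _ (w.st_mem v k))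
      (fun k => (hball (show dist v' u < ε from by rwa [Real.dist_eq])).1 k _ (w.st_mem v' k))
      (w.leg v hg _ (w.st_mem v)) (w.leg v' hg' _ (w.st_mem v')) ?_
    intro k l τ hk hl h1 h2 h3 h4
    have a := (key2 v v' hv hv' hvv k τ hk h1 h2).2
    have b := (key2 v v' hv hv' hvv l τ hl h3 h4).2
    obtain ⟨n, hn⟩ := w.uniq _ _ _ a b
    exact Fin.ext (int_aux k.isLt l.isLt hn (by simp)).2
  have key4 : ∀ v v' : ℝ, |v - u| < ε → |v' - u| < ε → v ≤ v' → v ∈ Gen X → v' ∈ Gen X →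
      u ∉ Icc v v' → cmp (st X v) = cmp (st X v') := by
    intro v v' hv hv' hvv hg hg' hu
    have h1 := key3 v v' hv hv' hvv hg hg'
    have h2 : tysB B u free ty (st X v) (st X v') = ∅ := by
      rw [Finset.eq_empty_iff_forall_notMem]
      intro τ hτ
      obtain ⟨k, hk0, hk1, hk2⟩ := mem_tysB.1 hτ
      exact hu (key2 v v' hv hv' hvv k τ hk0 hk1 hk2).1
    rw [h2] at h1
    exact w.rel0 _ _ h1
  have hL : ∀ᶠ v in 𝓝[<] u, |v - u| < ε ∧ v < u := by
    have h1 : ∀ᶠ v in 𝓝[<] u, v < u := self_mem_nhdsWithin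
    have h2 : ∀ᶠ v in 𝓝[<] u, dist v u < ε :=
      mem_nhdsWithin_of_mem_nhds (Metric.ball_mem_nhds u hε)
    filter_upwards [h1, h2] with v a b
    exact ⟨by rwa [Real.dist_eq] at b, a⟩
  have hR : ∀ᶠ v in 𝓝[>] u, |v - u| < ε ∧ u < v := by
    have h1 : ∀ᶠ v in 𝓝[>] u, u < v := self_mem_nhdsWithin
    have h2 : ∀ᶠ v in 𝓝[>] u, dist v u < ε :=
      mem_nhdsWithin_of_mem_nhds (Metric.ball_mem_nhds u hε)
    filter_upwards [h1, h2] with v a b
    exact ⟨by rwa [Real.dist_eq] at b, a⟩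
  obtain ⟨v0, hg0, hv0, hv0'⟩ := ((w.frequently_left u).and_eventually hL).exists
  obtain ⟨v1, hg1, hv1, hv1'⟩ := ((w.frequently_right u).and_eventually hR).exists
  refine ⟨cmp (st X v0), cmp (st X v1), tysB B u free ty (st X v0) (st X v1),
    key3 v0 v1 hv0 hv1 (by linarith) hg0 hg1, ?_, ?_, ?_⟩
  · intro τ hτ
    obtain ⟨k, hk0, hk1, hk2⟩ := mem_tysB.1 hτ
    exact ⟨k, (key2 v0 v1 hv0 hv1 (by linarith) k τ hk0 hk1 hk2).2⟩
  · filter_upwards [hL] with v hv hg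
    rcases le_total v v0 with h | h
    · exact key4 v v0 hv.1 hv0 h hg hg0 fun hh => absurd hh.2 (not_le.2 hv0')
    · exact (key4 v0 v hv0 hv.1 h hg0 hg fun hh => absurd hh.2 (not_le.2 hv.2)).symm
  · filter_upwards [hR] with v hv hg
    rcases le_total v v1 with h | h
    · exact key4 v v1 hv.1 hv1 h hg hg1 fun hh => absurd hh.1 (not_le.2 hv.2)
    · exact (key4 v1 v hv1 hv.1 h hg1 hg fun hh => absurd hh.1 (not_le.2 hv1')).symm

/-- constancy on an interval without typed points -/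
theorem GWB.seg (w : GWB X B Leg free ty cmp Rel) {p q : ℝ} (hpq : p < q)
    (hno : ∀ u ∈ Ioo p q, ∀ k : Fin 6, ∀ τ, ¬ OccB X B free ty τ (u + (k.val : ℝ))) {c c' : ℕ}
    (hc : ∀ᶠ v in 𝓝[>] p, v ∈ Gen X → cmp (st X v) = c)
    (hc' : ∀ᶠ v in 𝓝[<] q, v ∈ Gen X → cmp (st X v) = c') : c = c' := by
  classical
  choose g g' S hrel hS hl hr using fun u => w.sides u
  have heq : ∀ u ∈ Ioo p q, g u = g' u := by
    intro u hu
    have : S u = ∅ := by
      rw [Finset.eq_empty_iff_forall_notMem]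
      intro τ hτ
      obtain ⟨k, hk⟩ := hS u τ hτ
      exact hno u hu k τ hk
    have h2 := hrel u
    rw [this] at h2
    exact w.rel0 _ _ h2
  have hpt : ∀ u ∈ Ioo p q, ∀ᶠ v in 𝓝 u, v ≠ u → v ∈ Gen X → cmp (st X v) = g u := by
    intro u hu
    have h1 := eventually_nhdsWithin_iff.1 (hl u)
    have h2 := eventually_nhdsWithin_iff.1 (hr u)
    filter_upwards [h1, h2] with v a b hvu hg
    rcases lt_or_gt_of_ne hvu with h | h
    · exact a h hg
    · rw [heq u hu]; exact b h hg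
  have hcont : ContinuousOn g (Ioo p q) := by
    intro u hu
    obtain ⟨ε, hε, hball⟩ := Metric.eventually_nhds_iff.1 (hpt u hu)
    have hev : ∀ᶠ x in 𝓝[Ioo p q] u, g x = g u := by
      filter_upwards [self_mem_nhdsWithin, mem_nhdsWithin_of_mem_nhds (Metric.ball_mem_nhds u hε)]
        with x hx hxe
      by_cases hxu : x = u
      · rw [hxu]
      have h1 : ∀ᶠ v in 𝓝 x, dist v u < ε ∧ v ≠ u := by
        filter_upwards [Metric.isOpen_ball.mem_nhds hxe, isOpen_ne.mem_nhds hxu] with v a b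
        exact ⟨a, b⟩
      have h2 : ∀ᶠ v in 𝓝[<] x, (dist v u < ε ∧ v ≠ u) ∧ (v ∈ Gen X → cmp (st X v) = g x) :=
        (h1.filter_mono nhdsWithin_le_nhds).and (hl x)
      obtain ⟨v, hg, ⟨a, b⟩, d⟩ := ((w.frequently_left x).and_eventually h2).exists
      rw [← d hg, hball a b hg]
    have : Tendsto g (𝓝[Ioo p q] u) (pure (g u)) := by
      rw [tendsto_pure]; exact hev
    exact this.mono_right (pure_le_nhds _)
  have hconst : ∀ x ∈ Ioo p q, ∀ y ∈ Ioo p q, g x = g y := fun x hx y hy =>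
    isPreconnected_Ioo.constant hcont hx hy
  -- the ends
  have h1 : ∃ x ∈ Ioo p q, g x = c := by
    obtain ⟨a, ha, hsub⟩ := (mem_nhdsGT_iff_exists_Ioo_subset).1 hc
    have ha' : p < a := ha
    set x := (p + min a q) / 2 with hx
    have hm : p < min a q := lt_min ha' hpq
    have hx1 : p < x := by rw [hx]; linarith
    have hx2 : x < min a q := by rw [hx]; linarith
    have h2 : ∀ᶠ v in 𝓝[<] x, p < v ∧ v < x :=
      (Ioo_mem_nhdsLT hx1 : ∀ᶠ v in 𝓝[<] x, v ∈ Ioo p x)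
    obtain ⟨v, hg, ⟨hv1, hv2⟩, hv3⟩ := ((w.frequently_left x).and_eventually (h2.and (hl x))).exists
    refine ⟨x, ⟨hx1, hx2.trans_le (min_le_right _ _)⟩, ?_⟩
    rw [← hv3 hg]
    exact hsub ⟨hv1, hv2.trans (hx2.trans_le (min_le_left _ _))⟩ hg
  have h2 : ∃ x ∈ Ioo p q, g x = c' := by
    obtain ⟨a, ha, hsub⟩ := (mem_nhdsLT_iff_exists_Ioo_subset).1 hc'
    have ha' : a < q := ha
    set x := (q + max a p) / 2 with hx
    have hm : max a p < q := max_lt ha' hpq
    have hx1 : max a p < x := by rw [hx]; linarith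
    have hx2 : x < q := by rw [hx]; linarith
    have h2 : ∀ᶠ v in 𝓝[<] x, max a p < v ∧ v < x :=
      (Ioo_mem_nhdsLT hx1 : ∀ᶠ v in 𝓝[<] x, v ∈ Ioo (max a p) x)
    obtain ⟨v, hg, ⟨hv1, hv2⟩, hv3⟩ := ((w.frequently_left x).and_eventually (h2.and (hl x))).exists
    refine ⟨x, ⟨(le_max_right _ _).trans_lt hx1, hx2⟩, ?_⟩
    rw [← hv3 hg]
    exact hsub ⟨(le_max_left _ _).trans_lt hv1, hv2.trans hx2⟩ hg
  obtain ⟨x, hx, hxc⟩ := h1
  obtain ⟨y, hy, hyc⟩ := h2
  rw [← hxc, ← hyc]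
  exact hconst x hx y hy

/-- the times with typed points in an interval -/
def TBB (X : Λ → Set ℝ) (B : Set ℝ) (free : Λ → Λ → Prop) (ty : Λ → Λ → ι → Prop) (s : Set ℝ) : Set ℝ :=
  {u | u ∈ s ∧ ∃ k : Fin 6, ∃ τ, OccB X B free ty τ (u + (k.val : ℝ))}

omit [Nonempty Λ] [Finite Λ] in
theorem GWB.TBB_finite (w : GWB X B Leg free ty cmp Rel) (p q : ℝ) (hq : q ≤ p + 1) :
    (TBB X B free ty (Ioo p q)).Finite := by
  classical
  have h1 : ∀ u : TBB X B free ty (Ioo p q), ∃ x : ι × Fin 6,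
      OccB X B free ty x.1 (u + (x.2.val : ℝ)) := by
    rintro ⟨u, -, k, τ, h⟩
    exact ⟨(τ, k), h⟩
  choose g hg using h1
  have hinj : Function.Injective g := by
    intro u v huv
    have hu := hg u
    have hv := hg v
    rw [huv] at hu
    obtain ⟨n, hn⟩ := w.uniq _ _ _ hu hv
    have hu' := u.2.1
    have hv' := v.2.1
    have := int_aux (g v).2.isLt (g v).2.isLt hn (by
      rw [abs_lt]; constructor <;> linarith [hu'.1, hu'.2, hv'.1, hv'.2])
    exact Subtype.ext this.1.symm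
  exact Set.finite_coe_iff.1 (Finite.of_injective g hinj)

/-- the chain over an interval of length at most one -/
theorem GWB.walk (w : GWB X B Leg free ty cmp Rel) {q : ℝ} : ∀ (n : ℕ) (p : ℝ), p < q → q ≤ p + 1 →
      (TBB X B free ty (Ioo p q)).ncard = n → ∀ c c' : ℕ,
      (∀ᶠ v in 𝓝[>] p, v ∈ Gen X → cmp (st X v) = c) →
      (∀ᶠ v in 𝓝[<] q, v ∈ Gen X → cmp (st X v) = c') → (c = c' ∨
      ∃ S : Finset ι, Rel S c c' ∧
        ∀ τ ∈ S, ∃ u ∈ Ioo p q, ∃ k : Fin 6, OccB X B free ty τ (u + (k.val : ℝ))) := by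
  classical
  intro n
  induction n with
  | zero =>
    intro p hpq hq hn c c' hc hc'
    have hB := w.TBB_finite p q hq
    rw [Set.ncard_eq_zero hB] at hn
    left
    refine w.seg hpq (fun u hu k τ ho => ?_) hc hc'
    have : u ∈ TBB X B free ty (Ioo p q) := ⟨hu, k, τ, ho⟩
    rw [hn] at this
    exact this
  | succ n ih =>
    intro p hpq hq hn c c' hc hc'
    have hB := w.TBB_finite p q hq
    have hne : (TBB X B free ty (Ioo p q)).Nonempty := by
      rw [Set.nonempty_iff_ne_empty]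
      intro h0
      rw [h0, Set.ncard_empty] at hn
      omega
    obtain ⟨u, hmin⟩ := hB.exists_minimal hne
    have hu : u ∈ TBB X B free ty (Ioo p q) := hmin.prop
    have hmin' : ∀ v ∈ TBB X B free ty (Ioo p q), u ≤ v := fun v hv => by
      rcases le_total u v with h | h
      · exact h
      · exact hmin.le_of_le hv h
    have hu1 : p < u := hu.1.1
    have hu2 : u < q := hu.1.2
    obtain ⟨d, d', S1, hR1, hS1, hd, hd'⟩ := w.sides u
    have hcd : c = d := w.seg hu1 (fun v hv k τ ho => by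
      have h1 : v ∈ TBB X B free ty (Ioo p q) := ⟨⟨hv.1, hv.2.trans hu2⟩, k, τ, ho⟩
      exact absurd (hmin' v h1) (not_le.2 hv.2)) hc hd
    subst hcd
    have hBu : TBB X B free ty (Ioo u q) = TBB X B free ty (Ioo p q) \ {u} := by
      ext v
      constructor
      · rintro ⟨hv, hrest⟩
        exact ⟨⟨⟨hu1.trans hv.1, hv.2⟩, hrest⟩, fun h => (hv.1.ne' (mem_singleton_iff.1 h))⟩
      · rintro ⟨hv, hne⟩
        have := hmin' v hv
        exact ⟨⟨lt_of_le_of_ne this fun h => hne (mem_singleton_iff.2 h.symm), hv.1.2⟩, hv.2⟩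
    rcases ih u hu2 (hq.trans (by linarith)) (by
      rw [hBu, Set.ncard_sdiff_singleton_of_mem hu, hn]; omega) d' c' hd' hc' with h0 | ⟨S2, hR2, hS2⟩
    · subst h0
      right
      refine ⟨S1, hR1, fun τ hτ => ?_⟩
      obtain ⟨k, hk⟩ := hS1 τ hτ
      exact ⟨u, ⟨hu1, hu2⟩, k, hk⟩
    · right
      refine ⟨S1 ∪ S2, w.relc _ _ _ _ _ hR1 hR2 ?_, ?_⟩
      · rw [Finset.disjoint_left]
        intro τ h1 h2
        obtain ⟨k, hk⟩ := hS1 τ h1
        obtain ⟨v, hv, l, hl⟩ := hS2 τ h2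
        obtain ⟨m, hm'⟩ := w.uniq _ _ _ hk hl
        have := int_aux k.isLt l.isLt hm' (by rw [abs_lt]; constructor <;> linarith [hv.1, hv.2])
        exact absurd this.1 hv.1.ne'
      · intro τ hτ
        rcases Finset.mem_union.1 hτ with h1 | h2
        · obtain ⟨k, hk⟩ := hS1 τ h1
          exact ⟨u, ⟨hu1, hu2⟩, k, hk⟩
        · obtain ⟨v, hv, k, hk⟩ := hS2 τ h2
          exact ⟨v, ⟨hu1.trans hv.1, hv.2⟩, k, hk⟩

omit [Finite Λ] in
theorem GWB.lam_per (w : GWB X B Leg free ty cmp Rel) (u : ℝ) : lam X (u + 6) = lam X u := by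
  unfold lam
  congr 1
  ext l
  exact w.per l u

omit [Finite Λ] in
theorem GWB.st_add_one (w : GWB X B Leg free ty cmp Rel) (u : ℝ) : st X (u + 1) = rot (st X u) := by
  funext k
  unfold st rot
  by_cases hk : k = 5
  · subst hk
    have h1 : ((5 : Fin 6) + 1).val = 0 := rfl
    have h2 : (5 : Fin 6).val = 5 := rfl
    show lam X (u + 1 + ((5 : Fin 6).val : ℝ)) = lam X (u + (((5 : Fin 6) + 1).val : ℝ))
    rw [h1, h2]
    have : u + 1 + ((5 : ℕ) : ℝ) = (u + ((0 : ℕ) : ℝ)) + 6 := by push_cast; ring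
    rw [this, w.lam_per]
  · have h1 : (k + 1).val = k.val + 1 := by
      have : k.val ≠ 5 := fun h => hk (Fin.ext h)
      have h6 := k.isLt
      rw [Fin.val_add_one_of_lt]
      rw [Fin.lt_def]
      show k.val < 5
      omega
    show lam X (u + 1 + (k.val : ℝ)) = lam X (u + ((k + 1).val : ℝ))
    rw [h1]
    congr 1
    push_cast
    ring

omit [Nonempty Λ] [Finite Λ] in
theorem GWB.mem_add (w : GWB X B Leg free ty cmp Rel) (u : ℝ) (k : Fin 6) (l : Λ) :
    u + 1 + (k.val : ℝ) ∈ X l ↔ u + ((k + 1).val : ℝ) ∈ X l := by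
  by_cases hk : k = 5
  · subst hk
    have h1 : ((5 : Fin 6) + 1).val = 0 := rfl
    have h2 : (5 : Fin 6).val = 5 := rfl
    rw [h1, h2]
    have : u + 1 + ((5 : ℕ) : ℝ) = (u + ((0 : ℕ) : ℝ)) + 6 := by push_cast; ring
    rw [this, w.per]
  · have h1 : (k + 1).val = k.val + 1 := by
      have : k.val ≠ 5 := fun h => hk (Fin.ext h)
      have h6 := k.isLt
      rw [Fin.val_add_one_of_lt]
      rw [Fin.lt_def]
      show k.val < 5
      omega
    rw [h1]
    have : u + 1 + (k.val : ℝ) = u + ((k.val + 1 : ℕ) : ℝ) := by push_cast; ring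
    rw [this]

omit [Nonempty Λ] [Finite Λ] in
theorem GWB.bmem_add (w : GWB X B Leg free ty cmp Rel) (u : ℝ) (k : Fin 6) :
    u + 1 + (k.val : ℝ) ∈ B ↔ u + ((k + 1).val : ℝ) ∈ B := by
  by_cases hk : k = 5
  · subst hk
    have h1 : ((5 : Fin 6) + 1).val = 0 := rfl
    have h2 : (5 : Fin 6).val = 5 := rfl
    rw [h1, h2]
    have : u + 1 + ((5 : ℕ) : ℝ) = (u + ((0 : ℕ) : ℝ)) + 6 := by push_cast; ring
    rw [this, w.bper]
  · have h1 : (k + 1).val = k.val + 1 := by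
      have : k.val ≠ 5 := fun h => hk (Fin.ext h)
      have h6 := k.isLt
      rw [Fin.val_add_one_of_lt]
      rw [Fin.lt_def]
      show k.val < 5
      omega
    rw [h1]
    have : u + 1 + (k.val : ℝ) = u + ((k.val + 1 : ℕ) : ℝ) := by push_cast; ring
    rw [this]

omit [Nonempty Λ] [Finite Λ] in
theorem GWB.gen_add (w : GWB X B Leg free ty cmp Rel) {u : ℝ} (hu : u ∈ Gen X) : u + 1 ∈ Gen X := by
  intro k
  obtain ⟨l, hl⟩ := hu (k + 1)
  exact ⟨l, fun m hm => hl m ((w.mem_add u k m).1 hm)⟩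

/-- **Main theorem of the engine with ties.** -/
theorem GWB.exists_rel (w : GWB X B Leg free ty cmp Rel) :
    ∃ h : Fin 6 → Λ, Leg h ∧ (cmp h = cmp (rot h) ∨ ∃ S : Finset ι, Rel S (cmp h) (cmp (rot h))) := by
  classical
  have hB := w.TBB_finite 0 1 (by norm_num)
  obtain ⟨p, hp, hpB⟩ := ((Ioo_infinite (show (0 : ℝ) < 1 by norm_num)).sdiff hB).nonempty
  have hno : ∀ k : Fin 6, ∀ τ, ¬ OccB X B free ty τ (p + (k.val : ℝ)) := by
    intro k τ ho
    exact hpB ⟨hp, k, τ, ho⟩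
  have hno1 : ∀ k : Fin 6, ∀ τ, ¬ OccB X B free ty τ (p + 1 + (k.val : ℝ)) := by
    rintro k τ ⟨hkB, a, b, ha, hb, hf, ht⟩
    rw [w.mem_add] at ha hb
    exact hno (k + 1) τ ⟨fun h => hkB ((w.bmem_add p k).2 h), a, b, ha, hb, hf, ht⟩
  obtain ⟨c, c', S, h1, h2, h3, h4⟩ := w.sides p
  obtain ⟨d, d', S', h1', h2', h3', h4'⟩ := w.sides (p + 1)
  have hS : S = ∅ := by
    rw [Finset.eq_empty_iff_forall_notMem]
    intro τ hτ
    obtain ⟨k, hk⟩ := h2 τ hτ
    exact hno k τ hk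
  have hS' : S' = ∅ := by
    rw [Finset.eq_empty_iff_forall_notMem]
    intro τ hτ
    obtain ⟨k, hk⟩ := h2' τ hτ
    exact hno1 k τ hk
  rw [hS] at h1
  rw [hS'] at h1'
  have hcc := w.rel0 _ _ h1
  have hdd := w.rel0 _ _ h1'
  subst hcc hdd
  -- a common generic time
  have h5 : ∀ᶠ v in 𝓝[<] p, v + 1 ∈ Gen X → cmp (st X (v + 1)) = d := by
    have := tendsto_add_left p 1
    exact this.eventually h3'
  obtain ⟨v, hg, hv1, hv2⟩ := ((w.frequently_left p).and_eventually (h3.and h5)).exists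
  have e1 := hv1 hg
  have e2 := hv2 (w.gen_add hg)
  rw [w.st_add_one] at e2
  refine ⟨st X v, w.leg v hg _ (w.st_mem v), ?_⟩
  rw [e1, e2]
  rcases w.walk _ p (by linarith) le_rfl rfl _ _ h4 h3' with h0 | ⟨S, hS, -⟩
  · exact Or.inl h0
  · exact Or.inr ⟨S, hS⟩

end

end Vale.Agent.P032.H306.Y
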