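import Vale.Agent.P032.H306.Y.FrozB

/-!
# P032: a five coloured centre all of whose exceptional neighbours are of type `B`: no such centre

`CnB.pent` : the word `PentB` of a five coloured centre, `B` = angles of points with four or more
colours.  `CnB.false_of_ends` : a five coloured centre whose neighbours of order at least four have two
apexes with one exact diagonal, and whose networks are absent on one side or `(1,1)`, does not exist.
-/

open Set Filter Topology Metric

noncomputable section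

namespace Vale.Agent.P032.H306.Y

open Vale.Agent.P032.Six Vale.Agent.P032.Words Vale.Agent.P032.S5.H122 Vale.Agent.P032.S5.H220
  Vale.Agent.P032.Words.Pent

open Vale.Agent.P032.S5.H767 hiding col

variable {U : Fin 6 → Set ℂ} {T : ℂ → Set (Fin 6)} {z : ℂ} {e : Fin 6 → Fin 6}

/-- the exceptional angles: points with four or more colours -/
def Bx (T : ℂ → Set (Fin 6)) (z : ℂ) : Set ℝ := {u | 4 ≤ (T (pt z u)).ncard}

theorem Bx_closed (h : Irr U T) : IsClosed (Bx T z) := by
  rw [← isOpen_compl_iff, isOpen_iff_mem_nhds]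
  intro u hu
  have hu : ¬ 4 ≤ (T (pt z u)).ncard := hu
  filter_upwards [((continuous_pt z).tendsto u).eventually (h.nhd (pt z u))] with v hv
  intro hv4
  have hv4 : 4 ≤ (T (pt z v)).ncard := hv4
  exact hu (hv4.trans (Set.ncard_le_ncard hv (Set.toFinite _)))

theorem Bx_per (u : ℝ) : u + 6 ∈ Bx T z ↔ u ∈ Bx T z := by
  unfold Bx
  simp only [mem_ofPred_eq, pt_six]

theorem le3_of {u : ℝ} (hu : u ∉ Bx T z) : (T (pt z u)).ncard ≤ 3 := by
  have hu : ¬ 4 ≤ (T (pt z u)).ncard := hu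
  omega

theorem adj5' : ∀ a b : Fin 6, W5.adjN a.val b.val = true ↔ Disjoint (ixs a) (ixs b) := by
  decide +kernel

theorem ant5' : ∀ a b : Fin 6, W5.antN a.val b.val = true ↔ ant a b = true := by
  decide +kernel

theorem prL5' : ∀ a b : Fin 6, W5.prL a.val b.val = true ↔ tog a b = true := by
  decide +kernel

/-- the palettes of the frozen events in the form of 220 -/
theorem FZ_tr' (i : Fin 4) (x : Fin 5) : ∃ (i' : Fin 3) (a : Fin 5) (s : Bool) (q : Fin 6) (t : Bool),
    ∀ k : Fin 6,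
      (Words.Pent.trH a s q t (Words.Pent.fx i') k = (W5.FZ i x k).1 ∨
        Words.Pent.trH a s q t (Words.Pent.fx i') k = (W5.FZ i x k).2) ∧
      (Words.Pent.trH a s q t (Words.Pent.fy i') k = (W5.FZ i x k).1 ∨
        Words.Pent.trH a s q t (Words.Pent.fy i') k = (W5.FZ i x k).2) := by
  fin_cases i
  · refine ⟨0, x, false, 0, false, ?_⟩
    revert x
    decide +kernel
  · refine ⟨2, x, false, 0, false, ?_⟩
    revert x
    decide +kernel
  · refine ⟨2, x, true, 0, false, ?_⟩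
    revert x
    decide +kernel
  · refine ⟨1, x, false, 2, false, ?_⟩
    revert x
    decide +kernel

namespace CnB

/-- **The word of a five coloured centre with exceptional neighbours.** -/
theorem pent (C : CnB U T z e) (hb : ∀ u ∈ Bx T z, ∃ m : Fin 6, m ≠ 5 ∧
    (∀ l, u + 1 ∈ X5 T z e l → l = m) ∧ ∀ l, u - 1 ∈ X5 T z e l → l = m) :
    PentB (X5 T z e) (Bx T z) where
  closed := X5_closed
  cover := cover C.irr
  per := X5_per
  gen := by
    refine (gen (T := T) (z := z) (e := e) C.irr).mono ?_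
    rintro u ⟨l, hl⟩
    exact ⟨l, fun m hm => (hl m).1 hm⟩
  bcl := Bx_closed C.irr
  bper := Bx_per
  bnb := hb
  two u hu a b c ha hb hc hab := by
    rcases CnB.two C (le3_of hu) ha hb hc with h | h | h
    · exact absurd h hab
    · exact Or.inr h.symm
    · exact Or.inl h
  pair u hu a b ha hb := (prL5' a b).2 (CnB.tog_of C (le3_of hu) ha hb)
  sixty u a b ha hb := by
    have e1 : ∀ n, u ∈ X5 T z e n ↔ n = a := fun n => ⟨ha n, fun h => by
      obtain ⟨l, hl⟩ := cover C.irr (T := T) (z := z) (e := e) u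
      rw [h, ← ha l hl]; exact hl⟩
    have e2 : ∀ n, u + 1 ∈ X5 T z e n ↔ n = b := fun n => ⟨hb n, fun h => by
      obtain ⟨l, hl⟩ := cover C.irr (T := T) (z := z) (e := e) (u + 1)
      rw [h, ← hb l hl]; exact hl⟩
    exact (adj5' a b).2 (CnB.sixty C e1 e2)
  anti u a b ha hb := by
    have e1 : ∀ n, u ∈ X5 T z e n ↔ n = a := fun n => ⟨ha n, fun h => by
      obtain ⟨l, hl⟩ := cover C.irr (T := T) (z := z) (e := e) u
      rw [h, ← ha l hl]; exact hl⟩
    have e2 : ∀ n, u + 3 ∈ X5 T z e n ↔ n = b := fun n => ⟨hb n, fun h => by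
      obtain ⟨l, hl⟩ := cover C.irr (T := T) (z := z) (e := e) (u + 3)
      rw [h, ← hb l hl]; exact hl⟩
    exact (ant5' a b).2 (CnB.anti3 C e1 e2)
  swap1 u hu hu1 a a' b b' h1 h2 h3 h4 h5 _ := by
    unfold W5.sw1
    rw [Bool.or_eq_true, adj5', adj5']
    exact CnB.swap1 C (le3_of hu) (le3_of hu1) h1 h2 h3 h4 ((adj5' a b).1 h5)
  nofr u hu x i hk := by
    obtain ⟨i', a, s, q, t, h⟩ := FZ_tr' i x
    refine Y.nofr_word5 frozB_all C i' a s q t u (fun k => le3_of (hu k)) (fun k => ?_) fun k => ?_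
    · rcases (h k).1 with h1 | h1
      · rw [h1]; exact (hk k).1
      · rw [h1]; exact (hk k).2
    · rcases (h k).2 with h1 | h1
      · rw [h1]; exact (hk k).1
      · rw [h1]; exact (hk k).2

theorem ixs_le : ∀ l m : Fin 6, m ≠ 5 → ixs l ⊆ ixs m → l = m := by decide

/-- the letters at a point with an exact diagonal -/
theorem only (C : CnB U T z e) {u : ℝ} {m : Fin 6} (hm : m ≠ 5) (hT : T (pt z u) = col e m)
    (l : Fin 6) (hl : u ∈ X5 T z e l) : l = m := by
  refine ixs_le l m hm ?_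
  have h1 := X5_col C hl
  rw [hT] at h1
  rw [← C.Sx_col m]
  exact col_sub.1 h1

theorem lets' : ∀ j : Fin 5, j.castSucc ≠ (5 : Fin 6) ∧ (j + 2).castSucc ≠ (j + 3).castSucc ∧
    ixs (j + 2).castSucc ∪ ixs (j + 3).castSucc = (ixs j.castSucc ∪ ixs 5)ᶜ := by
  decide +kernel

theorem Sx_union' (C : CnB U T z e) (a b : Fin 6) :
    Sx e (col e a ∪ col e b) = ixs a ∪ ixs b := by
  ext m
  rw [mem_Sx, Set.mem_union, ← mem_Sx, ← mem_Sx, C.Sx_col, C.Sx_col, Finset.mem_union]

theorem Sx_compl' (P : Set (Fin 6)) : Sx e Pᶜ = (Sx e P)ᶜ := by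
  ext m
  rw [mem_Sx, Finset.mem_compl, mem_Sx, Set.mem_compl_iff]

theorem Sx_inj' (C : CnB U T z e) {P Q : Set (Fin 6)} (h : Sx e P = Sx e Q) : P = Q := by
  rw [← C.image_Sx P, ← C.image_Sx Q, h]

/-- the complementary palette -/
theorem compl_col (C : CnB U T z e) (j : Fin 5) :
    col e (j + 2).castSucc ∪ col e (j + 3).castSucc = (col e j.castSucc ∪ col e 5)ᶜ := by
  refine C.Sx_inj' ?_
  rw [C.Sx_union', Sx_compl', C.Sx_union', (lets' j).2.2]

/-- **No five coloured centre with exceptional neighbours of type `B` only.** -/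
theorem false_of_ends (C : CnB U T z e)
    (hB : ∀ y, dist y z = 1 → 4 ≤ (T y).ncard → ∃ m : Fin 6, m ≠ 5 ∧
      ∀ p, dist p z = 1 → dist p y = 1 → T p = col e m)
    (hN : ∀ j : Fin 5,
      (∀ y, dist y z = 1 → T y ≠ col e j.castSucc ∪ col e 5) ∨
      (∀ y, dist y z = 1 → T y ≠ (col e j.castSucc ∪ col e 5)ᶜ) ∨
      ((∀ y y', dist y z = 1 → dist y' z = 1 → T y = col e j.castSucc ∪ col e 5 →
          T y' = col e j.castSucc ∪ col e 5 → y = y') ∧
        ∀ y y', dist y z = 1 → dist y' z = 1 → T y = (col e j.castSucc ∪ col e 5)ᶜ →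
          T y' = (col e j.castSucc ∪ col e 5)ᶜ → y = y')) : False := by
  have hb : ∀ u ∈ Bx T z, ∃ m : Fin 6, m ≠ 5 ∧
      (∀ l, u + 1 ∈ X5 T z e l → l = m) ∧ ∀ l, u - 1 ∈ X5 T z e l → l = m := by
    intro u hu
    obtain ⟨m, hm, hp⟩ := hB _ (dist_pt z u) hu
    refine ⟨m, hm, fun l hl => ?_, fun l hl => ?_⟩
    · refine C.only hm (hp _ (dist_pt z _) ?_) l hl
      rw [dist_comm]; exact dist_pt_one z u
    · refine C.only hm (hp _ (dist_pt z _) ?_) l hl
      have := dist_pt_one z (u - 1)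
      rwa [show u - 1 + 1 = u by ring] at this
  have P := C.pent hb
  have pT : ∀ (j : Fin 5) (u : ℝ), u ∉ Bx T z → u ∈ X5 T z e j.castSucc ∧ u ∈ X5 T z e 5 →
      T (pt z u) = col e j.castSucc ∪ col e 5 := fun j u hu h =>
    CnB.pal_of C (le3_of hu) h.1 h.2 (lets' j).1
  have pC : ∀ (j : Fin 5) (u : ℝ), u ∉ Bx T z →
      u ∈ X5 T z e (j + 2).castSucc ∧ u ∈ X5 T z e (j + 3).castSucc →
      T (pt z u) = (col e j.castSucc ∪ col e 5)ᶜ := fun j u hu h => by
    rw [CnB.pal_of C (le3_of hu) h.1 h.2 (lets' j).2.1, C.compl_col]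
  refine P.elim fun j => ?_
  rcases hN j with h | h | ⟨h, h'⟩
  · exact Or.inl fun u hu hh => h _ (dist_pt z u) (pT j u hu hh)
  · exact Or.inr (Or.inl fun u hu hh => h _ (dist_pt z u) (pC j u hu hh))
  · refine Or.inr (Or.inr ⟨fun u hu v hv h1 h2 => ?_, fun u hu v hv h1 h2 => ?_⟩)
    · obtain ⟨n, hn⟩ := S5.H349.pt_eq (h _ _ (dist_pt z v) (dist_pt z u) (pT j v hv h2) (pT j u hu h1))
      exact ⟨n, hn⟩
    · obtain ⟨n, hn⟩ := S5.H349.pt_eq
        (h' _ _ (dist_pt z v) (dist_pt z u) (pC j v hv h2) (pC j u hu h1))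
      exact ⟨n, hn⟩

end CnB

end Vale.Agent.P032.H306.Y
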