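import Vale.Agent.P032.H306.Y.InstB
import Vale.Agent.P032.H326.Col5
import Vale.Agent.P032.S5.H450.Cnt5

/-!
# P032: a Pen centre all of whose exceptional neighbours are of type `B`

`P5.cnB` : a centre with five exact diagonals is a `CnB`.
`CnB.one_x` : if the network `j` has a `c_j`-point on `S(z)`, its `t_j`-end is unique (frame `Irr` only).
`P5.false_of_ends` : `P5 T z c`, every point of `S(z)` with four or more colours has both apexes with
one and the same palette `{c j, c (j + 2)}`, no network of `z` has two `c_j`-points and a `t_j`-end: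
impossible.
-/

open Set Filter Topology Metric

noncomputable section

namespace Vale.Agent.P032.H306.Y

open Vale.Agent.P032.Six Vale.Agent.P032.S5.H122 Vale.Agent.P032.S5.H450

open Vale.Agent.P032.S5.H767 hiding col

variable {U : Fin 6 → Set ℂ} {T : ℂ → Set (Fin 6)} {z : ℂ} {e : Fin 6 → Fin 6}

/-- the names of the letters `W5` of a Pen centre -/
def e5 (c : Fin 5 → Fin 6) (f : Fin 6) : Fin 6 → Fin 6 := ![c 0, c 2, c 4, c 1, c 3, f]

theorem col_e5 (c : Fin 5 → Fin 6) (f : Fin 6) (l : Fin 5) :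
    col (e5 c f) l.castSucc = {c (2 * l), c (2 * l + 2)} := by
  have key : ∀ l : Fin 5, ixs l.castSucc = {l.castSucc, (l + 1).castSucc} := by decide
  have hv : ∀ l : Fin 5, e5 c f l.castSucc = c (2 * l) := by
    intro l; fin_cases l <;> rfl
  have h2 : ∀ l : Fin 5, 2 * (l + 1) = 2 * l + 2 := by decide
  unfold col
  rw [key]
  simp only [Finset.coe_insert, Finset.coe_singleton, Set.image_insert_eq, Set.image_singleton, hv,
    h2]

theorem col_e5_five (c : Fin 5 → Fin 6) (f : Fin 6) : col (e5 c f) 5 = {f} := by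
  unfold col
  have : ixs 5 = {5} := by decide
  rw [this]
  simp [e5]

theorem cs5 : ∀ a : Fin 5, a.castSucc ≠ (5 : Fin 6) := by decide

theorem dbl : ∀ j : Fin 5, ∃ l : Fin 5, 2 * l = j := by decide

/-- **a Pen centre** -/
theorem cnB_of_p5 {c : Fin 5 → Fin 6} (P : P5 T z c) (h : Irr U T)
    (hmin : ∀ z, 4 ≤ (T z).ncard → ∀ s, s ⊆ T z → s ≠ T z →
      ¬ ∀ᶠ w in 𝓝 z, ∃ i ∈ s, w ∈ U i ∨ (w ∈ XX U ∧ i ∈ Pal U w)) {f : Fin 6} (hf : f ∉ T z) :
    CnB U T z (e5 c f) := by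
  have hcf : ∀ i, c i ≠ f := fun i h1 => hf (h1 ▸ P.mem i)
  have hv : ∀ l : Fin 5, e5 c f l.castSucc = c (2 * l) := by
    intro l; fin_cases l <;> rfl
  have h5 : e5 c f 5 = f := rfl
  have cases6 : ∀ l : Fin 6, l = 5 ∨ ∃ m : Fin 5, l = m.castSucc := by decide
  refine ⟨h, ?_, ?_, ?_⟩
  · intro i j hij
    have h2 : ∀ a b : Fin 5, 2 * a = 2 * b → a = b := by decide
    rcases cases6 i with rfl | ⟨a, rfl⟩ <;> rcases cases6 j with rfl | ⟨b, rfl⟩
    · rfl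
    · rw [h5, hv] at hij; exact absurd hij.symm (hcf _)
    · rw [h5, hv] at hij; exact absurd hij (hcf _)
    · rw [hv, hv] at hij; rw [h2 _ _ (P.inj hij)]
  · intro l
    rcases cases6 l with rfl | ⟨a, rfl⟩
    · rw [h5]
      exact ⟨fun h1 => absurd h1 hf, fun h1 => absurd rfl h1⟩
    · rw [hv]
      exact ⟨fun _ => cs5 a, fun _ => P.mem _⟩
  · intro q hq h2 hs
    obtain ⟨x, y, hxy, hT⟩ := Set.ncard_eq_two.1 h2
    have hx : x ∈ T z := hs (by rw [hT]; simp)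
    have hy : y ∈ T z := hs (by rw [hT]; simp)
    rw [P.rng] at hx hy
    obtain ⟨i, rfl⟩ := hx
    obtain ⟨j, rfl⟩ := hy
    have hij : i ≠ j := fun h3 => hxy (by rw [h3])
    have key : ∀ i j : Fin 5, i ≠ j → j = i + 1 ∨ i = j + 1 ∨ (∃ l : Fin 5, i = 2 * l ∧ j = 2 * l + 2)
        ∨ ∃ l : Fin 5, j = 2 * l ∧ i = 2 * l + 2 := by decide
    rcases key i j hij with h3 | h3 | ⟨l, h3, h4⟩ | ⟨l, h3, h4⟩
    · exact absurd (by rw [hT, h3]) (P.no_adj h hmin hq i)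
    · exact absurd (by rw [hT, h3, Set.pair_comm]) (P.no_adj h hmin hq j)
    · exact ⟨l.castSucc, by rw [hT, col_e5, h3, h4]⟩
    · exact ⟨l.castSucc, by rw [hT, col_e5, h3, h4, Set.pair_comm]⟩

namespace CnB

theorem cnt_key' : ∀ j : Fin 5, ∀ l x : Fin 6, x ∈ ixs (j + 2).castSucc → x ∈ ixs (j + 3).castSucc →
    ixs l ≠ (ixs (j + 2).castSucc ∪ ixs (j + 3).castSucc) \ {x} := by
  decide +kernel

theorem cnt_key2' : ∀ j : Fin 5, (∃ x, x ∈ ixs (j + 2).castSucc ∧ x ∈ ixs (j + 3).castSucc) ∧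
    (ixs j.castSucc ∪ ixs 5).card = 3 ∧ (5 : Fin 6) ∉ ixs (j + 2).castSucc ∪ ixs (j + 3).castSucc := by
  decide +kernel

theorem cov5 : ∀ (j : Fin 5) (l : Fin 6), l ≠ 5 → l ∈ ixs j.castSucc ∨
    l ∈ ixs (j + 2).castSucc ∪ ixs (j + 3).castSucc := by
  decide +kernel

/-- an end of the letter `E_j` next to the missing colour and a point of the complementary palette
are a node -/
theorem node (C : CnB U T z e) (j : Fin 5) {u : ℝ} {q : ℂ} (hu : (T (pt z u)).ncard ≤ 3)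
    (h1 : u ∈ X5 T z e j.castSucc) (h5 : u ∈ X5 T z e 5) (hq : dist q z = 1)
    (hTq : T q = (col e j.castSucc ∪ col e 5)ᶜ) : Nd T (col e j.castSucc ∪ col e 5) z (pt z u) q := by
  have hTv := CnB.pal_of C hu h1 h5 (lets' j).1
  have hX : (col e j.castSucc ∪ col e 5).ncard = 3 := by
    rw [← C.card, C.Sx_union', (cnt_key2' j).2.1]
  refine ⟨hX, by rw [dist_comm]; exact dist_pt z u, by rw [dist_comm]; exact hq, hTv, hTq,
    fun h2 => ?_⟩
  obtain ⟨P, hP, hcl⟩ := CnB.X5_ex C h1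
  have hc3 : (T q).ncard ≤ 3 := by rw [hTq, ncard_compl_three' hX]
  refine Vale.Agent.P032.S5.H767.anti C.irr (z := z) (y := q) hq hc3 (P := P) (fun i hi => ?_) ?_
  · obtain ⟨l, rfl⟩ := C.bij.2 i
    have hl5 : l ≠ 5 := (C.pal l).1 hi
    rcases cov5 j l hl5 with h3 | h3
    · exact Or.inr (hP ⟨l, h3, rfl⟩)
    · left
      rw [hTq, ← C.compl_col j]
      rcases Finset.mem_union.1 h3 with h4 | h4
      · exact Or.inl ⟨l, h4, rfl⟩
      · exact Or.inr ⟨l, h4, rfl⟩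
  · have e1 : 2 * z - q = pt z u := by linear_combination -h2
    rw [e1]; exact hcl

/-- the colour of `E_(j+2)` and `E_(j+3)` stays at the `c_j`-points -/
theorem stay (C : CnB U T z e) (j : Fin 5) : ∃ d ∈ (col e j.castSucc ∪ col e 5)ᶜ,
    ∀ y, dist y z = 1 → T y = (col e j.castSucc ∪ col e 5)ᶜ → Stay T z y d := by
  obtain ⟨⟨x, hxb, hxc⟩, h3, h5⟩ := cnt_key2' j
  have hX : (col e j.castSucc ∪ col e 5).ncard = 3 := by
    rw [← C.card, C.Sx_union', h3]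
  have hXz : (col e j.castSucc ∪ col e 5)ᶜ ⊆ T z := by
    rw [← C.compl_col j]
    intro i hi
    obtain ⟨l, rfl⟩ := C.bij.2 i
    have h1 : l ∈ ixs (j + 2).castSucc ∪ ixs (j + 3).castSucc := by
      rw [← C.Sx_union', mem_Sx]; exact hi
    exact (C.pal l).2 fun h2 => h5 (h2 ▸ h1)
  have hd : e x ∈ (col e j.castSucc ∪ col e 5)ᶜ := by
    rw [← C.compl_col j]
    exact Or.inl ⟨x, hxb, rfl⟩
  have hno : ∀ y, dist y z = 1 → T y ≠ (col e j.castSucc ∪ col e 5)ᶜ \ {e x} := by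
    intro y hy hTy
    have h1 : T y ⊆ T z := by
      rw [hTy]; exact sdiff_subset.trans hXz
    have h6 : (T y).ncard = 2 := by
      rw [hTy, Set.ncard_sdiff_singleton_of_mem hd, ncard_compl_three' hX]
    obtain ⟨l, hl⟩ := C.pairs y hy h6 h1
    refine cnt_key' j l x hxb hxc ?_
    rw [← C.Sx_col, ← hl, hTy]
    ext m
    rw [mem_Sx, Finset.mem_sdiff, ← C.Sx_union', mem_Sx, C.compl_col, Finset.mem_singleton]
    constructor
    · rintro ⟨h7, h8⟩
      exact ⟨h7, fun h9 => h8 (by rw [h9]; rfl)⟩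
    · rintro ⟨h7, h8⟩
      exact ⟨h7, fun h9 => h8 (C.inj h9)⟩
  refine ⟨e x, hd, fun y hy hTy => ?_⟩
  unfold Stay
  filter_upwards [mem_nhdsWithin_of_mem_nhds (C.irr.nhd y), self_mem_nhdsWithin] with x' h1 h2
  by_contra h4
  have h6 : T x' ⊆ (col e j.castSucc ∪ col e 5)ᶜ \ {e x} := fun i hi => ⟨hTy ▸ h1 hi, fun h7 => h4 (by
    rw [mem_singleton_iff] at h7; exact h7 ▸ hi)⟩
  have h7 : ((col e j.castSucc ∪ col e 5)ᶜ \ {e x} : Set (Fin 6)).ncard = 2 := by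
    rw [Set.ncard_sdiff_singleton_of_mem hd, ncard_compl_three' hX]
  have h8 := C.irr.pair_open (z := z) h7 (sdiff_subset.trans hXz) h6
  exact hno x' h2 (h8.self_of_nhdsWithin h2)

/-- **One `t_j`-end** if there is a `c_j`-point. -/
theorem one_x (C : CnB U T z e) (j : Fin 5) {u u' : ℝ} {q : ℂ} (hu : (T (pt z u)).ncard ≤ 3)
    (hu' : (T (pt z u')).ncard ≤ 3) (h1 : u ∈ X5 T z e j.castSucc) (h5 : u ∈ X5 T z e 5)
    (h1' : u' ∈ X5 T z e j.castSucc) (h5' : u' ∈ X5 T z e 5) (hq : dist q z = 1)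
    (hTq : T q = (col e j.castSucc ∪ col e 5)ᶜ) : pt z u = pt z u' := by
  obtain ⟨d, hd, st⟩ := C.stay j
  have N := C.node j hu h1 h5 hq hTq
  have N' := C.node j hu' h1' h5' hq hTq
  have h3 := N.other.swap.unique C.irr N'.other.swap hd (N.miss C.irr (st q hq hTq))
    (N'.miss C.irr (st q hq hTq))
  linear_combination h3

/-- **No five coloured centre** with exceptional neighbours of type `B` only and without networks
with two `c_j`-points. -/
theorem false_of_B (C : CnB U T z e)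
    (hB : ∀ y, dist y z = 1 → 4 ≤ (T y).ncard → ∃ m : Fin 6, m ≠ 5 ∧
      ∀ p, dist p z = 1 → dist p y = 1 → T p = col e m)
    (h12 : ∀ (X : Set (Fin 6)) (v q q' : ℂ), Nd T X z v q → Nd T X z v q' → Xᶜ ⊆ T z → q = q') :
    False := by
  have hb : ∀ u ∈ Bx T z, ∃ m : Fin 6, m ≠ 5 ∧
      (∀ l, u + 1 ∈ X5 T z e l → l = m) ∧ ∀ l, u - 1 ∈ X5 T z e l → l = m := by
    intro u hu
    obtain ⟨m, hm, hp⟩ := hB _ (dist_pt z u) hu
    refine ⟨m, hm, fun l hl => ?_, fun l hl => ?_⟩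
    · refine C.only hm (hp _ (dist_pt z _) ?_) l hl
      rw [dist_comm]; exact dist_pt_one z u
    · refine C.only hm (hp _ (dist_pt z _) ?_) l hl
      have := dist_pt_one z (u - 1)
      rwa [show u - 1 + 1 = u by ring] at this
  refine (C.pent hb).elim fun j => ?_
  by_cases hT : ∀ u ∉ Bx T z, ¬ (u ∈ X5 T z e j.castSucc ∧ u ∈ X5 T z e 5)
  · exact Or.inl hT
  by_cases hC : ∀ u ∉ Bx T z, ¬ (u ∈ X5 T z e (j + 2).castSucc ∧ u ∈ X5 T z e (j + 3).castSucc)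
  · exact Or.inr (Or.inl hC)
  push Not at hT hC
  obtain ⟨s, hs, hs1, hs5⟩ := hT
  obtain ⟨t, ht, ht2, ht3⟩ := hC
  have hXz : ((col e j.castSucc ∪ col e 5)ᶜ : Set (Fin 6)) ⊆ T z := by
    rw [← C.compl_col j]
    intro i hi
    obtain ⟨l, rfl⟩ := C.bij.2 i
    have h1 : l ∈ ixs (j + 2).castSucc ∪ ixs (j + 3).castSucc := by
      rw [← C.Sx_union', mem_Sx]; exact hi
    exact (C.pal l).2 fun h2 => (cnt_key2' j).2.2 (h2 ▸ h1)
  have pC : ∀ u, u ∉ Bx T z → u ∈ X5 T z e (j + 2).castSucc ∧ u ∈ X5 T z e (j + 3).castSucc →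
      T (pt z u) = (col e j.castSucc ∪ col e 5)ᶜ := fun u hu h => by
    rw [CnB.pal_of C (le3_of hu) h.1 h.2 (lets' j).2.1, C.compl_col]
  refine Or.inr (Or.inr ⟨fun u hu v hv h1 h2 => ?_, fun u hu v hv h1 h2 => ?_⟩)
  · have := C.one_x j (le3_of hv) (le3_of hu) h2.1 h2.2 h1.1 h1.2 (dist_pt z t) (pC t ht ⟨ht2, ht3⟩)
    exact Vale.Agent.P032.S5.H349.pt_eq this
  · have N := C.node j (le3_of hs) hs1 hs5 (dist_pt z v) (pC v hv h2)
    have N' := C.node j (le3_of hs) hs1 hs5 (dist_pt z u) (pC u hu h1)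
    exact Vale.Agent.P032.S5.H349.pt_eq (h12 _ _ _ _ N N' hXz)

end CnB

/-- **No Pen centre** with exceptional neighbours of type `B` only and without networks with two
`c_j`-points. -/
theorem p5_false_of_B {c : Fin 5 → Fin 6} (P : P5 T z c) (h : Irr U T)
    (hmin : ∀ z, 4 ≤ (T z).ncard → ∀ s, s ⊆ T z → s ≠ T z →
      ¬ ∀ᶠ w in 𝓝 z, ∃ i ∈ s, w ∈ U i ∨ (w ∈ XX U ∧ i ∈ Pal U w))
    (hB : ∀ y, dist y z = 1 → 4 ≤ (T y).ncard → ∃ j : Fin 5,
      ∀ p, dist p z = 1 → dist p y = 1 → T p = {c j, c (j + 2)})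
    (h12 : ∀ (X : Set (Fin 6)) (v q q' : ℂ), Nd T X z v q → Nd T X z v q' → Xᶜ ⊆ T z → q = q') :
    False := by
  obtain ⟨f, hf⟩ : ∃ f, f ∉ T z := by
    by_contra hcon
    push Not at hcon
    have h1 : T z = univ := eq_univ_iff_forall.2 hcon
    have h5 := P.card
    rw [h1, Set.ncard_univ, Nat.card_eq_fintype_card, Fintype.card_fin] at h5
    omega
  refine (cnB_of_p5 P h hmin hf).false_of_B (fun y hy h4 => ?_) h12
  obtain ⟨j, hj⟩ := hB y hy h4
  obtain ⟨l, hl⟩ := dbl j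
  refine ⟨l.castSucc, cs5 l, fun p h1 h2 => ?_⟩
  rw [hj p h1 h2, col_e5, hl]

end Vale.Agent.P032.H306.Y
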