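import Vale.Agent.P032.H306.Y.GenB
import Vale.Agent.P032.H306.Y.CertB
import Vale.Agent.P032.Words5.Pent

/-!
# The word of a five coloured centre with exceptional times

`X 0, .., X 4` are the closures of the exact arcs of the five diagonals, `X 5` of the arcs with the
missing colour; `B` is a closed set of exceptional times (points of the circle with at least four
colours): at `u ∈ B` both neighbours `u + 1`, `u - 1` carry the same diagonal and nothing else.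
-/

namespace Vale.Agent.P032.H306.Y

open Vale.Agent.P032.Words Vale.Agent.P032.W5

open Set Filter Topology

/-- The word of a five coloured centre with exceptional times. -/
structure PentB (X : Fin 6 → Set ℝ) (B : Set ℝ) : Prop where
  closed : ∀ l, IsClosed (X l)
  cover : ∀ u, ∃ l, u ∈ X l
  per : ∀ l u, u + 6 ∈ X l ↔ u ∈ X l
  gen : Dense {u | ∃ l, ∀ m, u ∈ X m → m = l}
  bcl : IsClosed B
  bper : ∀ u, u + 6 ∈ B ↔ u ∈ B
  bnb : ∀ u ∈ B, ∃ m : Fin 6, m ≠ 5 ∧ (∀ l, u + 1 ∈ X l → l = m) ∧ ∀ l, u - 1 ∈ X l → l = m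
  two : ∀ u, u ∉ B → ∀ a b c, u ∈ X a → u ∈ X b → u ∈ X c → a ≠ b → c = a ∨ c = b
  pair : ∀ u, u ∉ B → ∀ (a b : Fin 6), u ∈ X a → u ∈ X b → prL a.val b.val = true
  sixty : ∀ u (a b : Fin 6), (∀ m, u ∈ X m → m = a) → (∀ m, u + 1 ∈ X m → m = b) →
    adjN a.val b.val = true
  anti : ∀ u (a b : Fin 6), (∀ m, u ∈ X m → m = a) → (∀ m, u + 3 ∈ X m → m = b) →
    antN a.val b.val = true
  swap1 : ∀ u, u ∉ B → u + 1 ∉ B → ∀ (a a' b b' : Fin 6), u ∈ X a → u ∈ X a' → u + 1 ∈ X b →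
    u + 1 ∈ X b' → adjN a.val b.val = true → adjN a'.val b'.val = true →
    sw1 a.val a'.val b.val b'.val = true
  nofr : ∀ u, (∀ k : Fin 6, u + (k.val : ℝ) ∉ B) → ∀ (x : Fin 5) (i : Fin 4),
    ¬ ∀ k : Fin 6, u + (k.val : ℝ) ∈ X (FZ i x k).1 ∧ u + (k.val : ℝ) ∈ X (FZ i x k).2

/-- a clean word -/
theorem PentB.of_pent {X : Fin 6 → Set ℝ} (P : Pent X) : PentB X ∅ where
  closed := P.closed
  cover := P.cover
  per := P.per
  gen := P.gen
  bcl := isClosed_empty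
  bper _ := Iff.rfl
  bnb u hu := absurd hu (notMem_empty u)
  two u _ := P.two u
  pair u _ := P.pair u
  sixty := P.sixty
  anti := P.anti
  swap1 u _ _ := P.swap1 u
  nofr u _ := P.nofr u

section per
variable {X : Fin 6 → Set ℝ} {B : Set ℝ}

/-- positions of a periodic set -/
theorem add1_of {Y : Set ℝ} (hY : ∀ u, u + 6 ∈ Y ↔ u ∈ Y) (u : ℝ) (k : Fin 6) :
    u + (k.val : ℝ) + 1 ∈ Y ↔ u + ((k + 1).val : ℝ) ∈ Y := by
  by_cases hk : k = 5
  · subst hk
    have h1 : ((5 : Fin 6) + 1).val = 0 := rfl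
    have h2 : (5 : Fin 6).val = 5 := rfl
    rw [h1, h2]
    have : u + ((5 : ℕ) : ℝ) + 1 = (u + ((0 : ℕ) : ℝ)) + 6 := by push_cast; ring
    rw [this, hY]
  · have h1 : (k + 1).val = k.val + 1 := by
      have : k.val ≠ 5 := fun h => hk (Fin.ext h)
      have h6 := k.isLt
      rw [Fin.val_add_one_of_lt]
      rw [Fin.lt_def]
      show k.val < 5
      omega
    rw [h1]
    have : u + (k.val : ℝ) + 1 = u + ((k.val + 1 : ℕ) : ℝ) := by push_cast; ring
    rw [this]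

theorem sub1_of {Y : Set ℝ} (hY : ∀ u, u + 6 ∈ Y ↔ u ∈ Y) (u : ℝ) (k : Fin 6) :
    u + (k.val : ℝ) - 1 ∈ Y ↔ u + ((k + 5).val : ℝ) ∈ Y := by
  have h := add1_of hY (u - 1) (k + 5)
  have e : ∀ k : Fin 6, k + 5 + 1 = k := by decide
  rw [e] at h
  rw [show u + (k.val : ℝ) - 1 = u - 1 + (k.val : ℝ) by ring, ← h]
  rw [show u - 1 + ((k + 5 : Fin 6).val : ℝ) + 1 = u + ((k + 5 : Fin 6).val : ℝ) by ring]

theorem addr_of {Y : Set ℝ} (hY : ∀ u, u + 6 ∈ Y ↔ u ∈ Y) (u : ℝ) (r k : Fin 6) :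
    u + (r.val : ℝ) + (k.val : ℝ) ∈ Y ↔ u + ((k + r).val : ℝ) ∈ Y := by
  have e : (k + r).val = k.val + r.val ∨ (k + r).val + 6 = k.val + r.val := by
    rw [Fin.val_add]
    have h1 := k.isLt
    have h2 := r.isLt
    omega
  rcases e with e | e
  · have : u + (r.val : ℝ) + (k.val : ℝ) = u + ((k + r).val : ℝ) := by
      rw [e]; push_cast; ring
    rw [this]
  · have : u + (r.val : ℝ) + (k.val : ℝ) = u + ((k + r).val : ℝ) + 6 := by
      have e' : (((k + r).val : ℝ)) + 6 = (k.val : ℝ) + (r.val : ℝ) := by exact_mod_cast e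
      linarith
    rw [this, hY]

theorem add3_of {Y : Set ℝ} (hY : ∀ u, u + 6 ∈ Y ↔ u ∈ Y) (u : ℝ) (k : Fin 6) :
    u + (k.val : ℝ) + 3 ∈ Y ↔ u + ((k + 3).val : ℝ) ∈ Y := by
  have h := addr_of hY u k 3
  have h3 : (((3 : Fin 6).val : ℕ) : ℝ) = 3 := by norm_num
  rw [h3, add_comm 3 k] at h
  exact h

/-- the neighbours of a slot in `B` -/
theorem PentB.slot (P : PentB X B) {u : ℝ} {k : Fin 6} (hk : u + (k.val : ℝ) ∈ B) :
    ∃ m : Fin 6, m ≠ 5 ∧ ∀ h : Hx5, (∀ k, u + (k.val : ℝ) ∈ X (h k)) → h (k + 5) = m ∧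
      h (k + 1) = m := by
  obtain ⟨m, hm, h1, h2⟩ := P.bnb _ hk
  refine ⟨m, hm, fun h hh => ⟨h2 _ ?_, h1 _ ?_⟩⟩
  · exact (sub1_of (P.per _) u k).2 (hh (k + 5))
  · exact (add1_of (P.per _) u k).2 (hh (k + 1))

/-- no frozen pairs -/
theorem PentB.frz (P : PentB X B) {u : ℝ} {h h' : Hx5} (h1 : ∀ k, u + (k.val : ℝ) ∈ X (h k))
    (h2 : ∀ k, u + (k.val : ℝ) ∈ X (h' k)) :
    frzN (h 0).val (h 1).val (h 2).val (h 3).val (h 4).val (h 5).val
      (h' 0).val (h' 1).val (h' 2).val (h' 3).val (h' 4).val (h' 5).val = false := by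
  rw [Bool.eq_false_iff]
  intro hf
  have hne : ∀ (i : Fin 4) (x : Fin 5) (k : Fin 6), (FZ i x k).1 ≠ (FZ i x k).2 := by decide
  have one : ∀ (r : Fin 6) (x : Fin 5) (i : Fin 4), ¬ ∀ k : Fin 6,
      pal5 x.val (OZ i k).1 (OZ i k).2 (h (k + r)).val (h' (k + r)).val = true := by
    intro r x i hk
    have hX : ∀ k : Fin 6, u + (r.val : ℝ) + (k.val : ℝ) ∈ X (FZ i x k).1 ∧
        u + (r.val : ℝ) + (k.val : ℝ) ∈ X (FZ i x k).2 := fun k =>
      mem_of_pal ((addr_of (P.per _) u r k).2 (h1 (k + r))) ((addr_of (P.per _) u r k).2 (h2 (k + r)))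
        (hk k) (FZ_fst i x k) (FZ_snd i x k)
    refine P.nofr (u + (r.val : ℝ)) (fun k hB => ?_) x i hX
    obtain ⟨m, hm, a1, a2⟩ := P.bnb _ hB
    have b1 := a1 _ ((add1_of (P.per _) _ k).2 (hX (k + 1)).1)
    have b2 := a1 _ ((add1_of (P.per _) _ k).2 (hX (k + 1)).2)
    exact hne i x (k + 1) (b1.trans b2.symm)
  have two : ∀ (r : Fin 6) (x : Fin 5), fzA x.val (h (0 + r)).val (h (1 + r)).val (h (2 + r)).val
      (h (3 + r)).val (h (4 + r)).val (h (5 + r)).val (h' (0 + r)).val (h' (1 + r)).val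
      (h' (2 + r)).val (h' (3 + r)).val (h' (4 + r)).val (h' (5 + r)).val ≠ true := by
    intro r x hz
    unfold fzA at hz
    simp only [Bool.or_eq_true, Bool.and_eq_true] at hz
    obtain ⟨⟨z0, z2⟩, hz⟩ := hz
    rcases hz with ((⟨⟨⟨z1, z3⟩, z4⟩, z5⟩ | ⟨⟨⟨z1, z3⟩, z4⟩, z5⟩) | ⟨⟨⟨z1, z3⟩, z4⟩, z5⟩) |
      ⟨⟨⟨z1, z3⟩, z4⟩, z5⟩
    · refine one r x 0 fun k => ?_
      fin_cases k
      exacts [z0, z1, z2, z3, z4, z5]
    · refine one r x 1 fun k => ?_
      fin_cases k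
      exacts [z0, z1, z2, z3, z4, z5]
    · refine one r x 2 fun k => ?_
      fin_cases k
      exacts [z0, z1, z2, z3, z4, z5]
    · refine one r x 3 fun k => ?_
      fin_cases k
      exacts [z0, z1, z2, z3, z4, z5]
  unfold frzN at hf
  rw [List.any_eq_true] at hf
  obtain ⟨x, hx, hf⟩ := hf
  have hx' : x < 5 := by
    simp only [List.mem_cons, List.not_mem_nil, or_false] at hx
    omega
  simp only [Bool.or_eq_true] at hf
  rcases hf with ((((hf | hf) | hf) | hf) | hf) | hf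
  · exact two 0 ⟨x, hx'⟩ hf
  · exact two 1 ⟨x, hx'⟩ hf
  · exact two 2 ⟨x, hx'⟩ hf
  · exact two 3 ⟨x, hx'⟩ hf
  · exact two 4 ⟨x, hx'⟩ hf
  · exact two 5 ⟨x, hx'⟩ hf

end per

section
variable {X : Fin 6 → Set ℝ} {B : Set ℝ} {N m T R : ℕ} {fr : ℕ → ℕ → Bool} {mk : ℕ → ℕ → ℕ → Bool}
  {abs : List ℕ} {on : Fin m → ℕ}

/-- the swap rule at 60 degrees, all slots -/
theorem PentB.sw1 (P : PentB X B) {u : ℝ} {h h' : Hx5} (h1 : ∀ k, u + (k.val : ℝ) ∈ X (h k))
    (h2 : ∀ k, u + (k.val : ℝ) ∈ X (h' k)) (hl : Leg5 h) (hl' : Leg5 h') (k : Fin 6) :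
    W5.sw1 (h k).val (h' k).val (h (k + 1)).val (h' (k + 1)).val = true := by
  by_cases hk : u + (k.val : ℝ) ∈ B
  · obtain ⟨m, hm, hs⟩ := P.slot hk
    have e1 := (hs h h1).2
    have e2 := (hs h' h2).2
    unfold W5.sw1
    rw [e2, ← e1, hl.1 k, Bool.true_or]
  · by_cases hk1 : u + ((k + 1).val : ℝ) ∈ B
    · obtain ⟨m, hm, hs⟩ := P.slot hk1
      have e5 : ∀ k : Fin 6, k + 1 + 5 = k := by decide
      have e1 := (hs h h1).1
      have e2 := (hs h' h2).1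
      rw [e5] at e1 e2
      unfold W5.sw1
      rw [e2, ← e1, hl.1 k, Bool.or_true]
    · exact P.swap1 _ hk (fun hcon => hk1 ((add1_of P.bper u k).1 hcon)) _ _ _ _ (h1 k) (h2 k)
        ((add1_of (P.per _) u k).2 (h1 (k + 1))) ((add1_of (P.per _) u k).2 (h2 (k + 1)))
        (hl.1 k) (hl'.1 k)

theorem mem_tysB5 {u : ℝ} {h h' : Hx5} {t : Fin m} :
    t ∈ tysB B u (fun a b : Fin 6 => fr a.val b.val = true)
      (fun (a b : Fin 6) (t : Fin m) => mk a.val b.val t.val = true) h h' ↔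
      ∃ k : Fin 6, u + (k.val : ℝ) ∉ B ∧ occN fr mk t.val (h k).val (h' k).val = true := by
  rw [mem_tysB]
  constructor
  · rintro ⟨k, h0, h1, h2⟩
    refine ⟨k, h0, ?_⟩
    unfold occN
    rw [Bool.and_eq_true, Bool.not_eq_true']
    exact ⟨by simpa using h1, h2⟩
  · rintro ⟨k, h0, hk⟩
    unfold occN at hk
    rw [Bool.and_eq_true, Bool.not_eq_true'] at hk
    refine ⟨k, h0, ?_, hk.2⟩
    show ¬ (fr (h k).val (h' k).val = true)
    rw [hk.1]; exact Bool.false_ne_true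

/-- a counted change of type `t` at the slot `k` -/
def ocH (fr : ℕ → ℕ → Bool) (mk : ℕ → ℕ → ℕ → Bool) (h h' : Hx5) (t : ℕ) (k : Fin 6) : Bool :=
  ocB fr mk t (h (k + 5)).val (h (k + 1)).val (h' (k + 5)).val (h' (k + 1)).val (h k).val (h' k).val

theorem cnt_eq (h h' : Hx5) (t : ℕ) :
    cntB fr mk (h 0).val (h 1).val (h 2).val (h 3).val (h 4).val (h 5).val
      (h' 0).val (h' 1).val (h' 2).val (h' 3).val (h' 4).val (h' 5).val t =
    (ocH fr mk h h' t 0).toNat + (ocH fr mk h h' t 1).toNat + (ocH fr mk h h' t 2).toNat +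
      (ocH fr mk h h' t 3).toNat + (ocH fr mk h h' t 4).toNat + (ocH fr mk h h' t 5).toNat := rfl

theorem cntB_pos {h h' : Hx5} {t : ℕ}
    (h3 : cntB fr mk (h 0).val (h 1).val (h 2).val (h 3).val (h 4).val (h 5).val
      (h' 0).val (h' 1).val (h' 2).val (h' 3).val (h' 4).val (h' 5).val t ≠ 0) :
      ∃ k : Fin 6, ocH fr mk h h' t k = true := by
  by_contra hcon
  push Not at hcon
  apply h3
  have hz : ∀ k : Fin 6, ocH fr mk h h' t k = false := fun k => by simpa using hcon k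
  rw [cnt_eq, hz 0, hz 1, hz 2, hz 3, hz 4, hz 5]
  rfl

theorem cntB_le {h h' : Hx5} (t : ℕ)
    (hu : ∀ k l : Fin 6, ocH fr mk h h' t k = true → ocH fr mk h h' t l = true → k = l) :
    cntB fr mk (h 0).val (h 1).val (h 2).val (h 3).val (h 4).val (h 5).val
      (h' 0).val (h' 1).val (h' 2).val (h' 3).val (h' 4).val (h' 5).val t ≤ 1 := by
  have hb : ∀ b : Bool, b.toNat ≤ 1 := by decide
  rw [cnt_eq]
  have hz : ∀ k : Fin 6, (∀ l : Fin 6, l ≠ k → ocH fr mk h h' t l = false) →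
      (ocH fr mk h h' t 0).toNat + (ocH fr mk h h' t 1).toNat + (ocH fr mk h h' t 2).toNat +
      (ocH fr mk h h' t 3).toNat + (ocH fr mk h h' t 4).toNat + (ocH fr mk h h' t 5).toNat ≤ 1 := by
    intro k hk
    fin_cases k
    · rw [hk 1 (by decide), hk 2 (by decide), hk 3 (by decide), hk 4 (by decide), hk 5 (by decide)]
      simpa using hb _
    · rw [hk 0 (by decide), hk 2 (by decide), hk 3 (by decide), hk 4 (by decide), hk 5 (by decide)]
      simpa using hb _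
    · rw [hk 0 (by decide), hk 1 (by decide), hk 3 (by decide), hk 4 (by decide), hk 5 (by decide)]
      simpa using hb _
    · rw [hk 0 (by decide), hk 1 (by decide), hk 2 (by decide), hk 4 (by decide), hk 5 (by decide)]
      simpa using hb _
    · rw [hk 0 (by decide), hk 1 (by decide), hk 2 (by decide), hk 3 (by decide), hk 5 (by decide)]
      simpa using hb _
    · rw [hk 0 (by decide), hk 1 (by decide), hk 2 (by decide), hk 3 (by decide), hk 4 (by decide)]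
      simpa using hb _
  by_cases hex : ∃ k : Fin 6, ocH fr mk h h' t k = true
  · obtain ⟨k, hk⟩ := hex
    refine hz k fun l hlk => ?_
    rw [Bool.eq_false_iff]
    intro h3
    exact hlk (hu l k h3 hk)
  · push Not at hex
    exact hz 0 fun l _ => by simpa using hex l

theorem flg_of : ∀ m : Fin 6, m ≠ 5 → Y.flg m.val m.val m.val m.val = true := by decide

theorem pq_of : ∀ m : Fin 6, m ≠ 5 → Y.pq m.val m.val = true := by decide

/-- a slot of `B` is between two equal diagonals -/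
theorem PentB.flg (P : PentB X B) {u : ℝ} {h h' : Hx5} (h1 : ∀ k, u + (k.val : ℝ) ∈ X (h k))
    (h2 : ∀ k, u + (k.val : ℝ) ∈ X (h' k)) {k : Fin 6} (hk : u + (k.val : ℝ) ∈ B) :
    Y.flg (h (k + 5)).val (h (k + 1)).val (h' (k + 5)).val (h' (k + 1)).val = true := by
  obtain ⟨m, hm, hs⟩ := P.slot hk
  rw [(hs h h1).1, (hs h h1).2, (hs h' h2).1, (hs h' h2).2]
  exact flg_of m hm

theorem PentB.pq (P : PentB X B) {u : ℝ} {h : Hx5} (h1 : ∀ k, u + (k.val : ℝ) ∈ X (h k))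
    {k : Fin 6} (hk : u + (k.val : ℝ) ∈ B) : Y.pq (h (k + 5)).val (h (k + 1)).val = true := by
  obtain ⟨m, hm, hs⟩ := P.slot hk
  rw [(hs h h1).1, (hs h h1).2]
  exact pq_of m hm

end

end Vale.Agent.P032.H306.Y
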