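import Vale.Agent.P032.H306.Y.PentB

/-!
# A pattern kills the word of a five coloured centre with exceptional times
-/

namespace Vale.Agent.P032.H306.Y

open Vale.Agent.P032.Words Vale.Agent.P032.W5

open Set Filter Topology

/-- the points of type `q` off `B` -/
def PtsB (X : Fin 6 → Set ℝ) (B : Set ℝ) (q : ℕ) : Set ℝ :=
  {u | u ∉ B ∧ ∃ a b : Fin 6, typN q a.val b.val = true ∧ u ∈ X a ∧ u ∈ X b}

section
variable {X : Fin 6 → Set ℝ} {B : Set ℝ} {N m T R : ℕ} {fr : ℕ → ℕ → Bool} {mk : ℕ → ℕ → ℕ → Bool}
  {abs : List ℕ} {on : Fin m → ℕ}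

/-- the relation between two selections -/
theorem PentB.rel (P : PentB X B) (hP : Y.chkP N m T R fr mk = true) (hS : Y.chkS N m T R fr mk = true)
    (frefl : ∀ a : Fin 6, fr a.val a.val = true)
    (hval : ∀ u, u ∉ B → ∀ (a b : Fin 6), u ∈ X a → u ∈ X b → valN m fr mk a.val b.val = true)
    (u : ℝ) (n : ℕ) :
    ∀ h h' : Hx5, (Finset.univ.filter fun k => h k ≠ h' k).card = n →
      (∀ k, u + (k.val : ℝ) ∈ X (h k)) → (∀ k, u + (k.val : ℝ) ∈ X (h' k)) → Leg5 h → Leg5 h' →
      (∀ (t : Fin m) (k l : Fin 6), u + (k.val : ℝ) ∉ B → u + (l.val : ℝ) ∉ B →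
        occN fr mk t.val (h k).val (h' k).val = true →
        occN fr mk t.val (h l).val (h' l).val = true → k = l) →
      RelB N m R (tysB B u (fun a b : Fin 6 => fr a.val b.val = true)
        (fun (a b : Fin 6) (t : Fin m) => mk a.val b.val t.val = true) h h') (cmp5 T h) (cmp5 T h') := by
  classical
  have hoself : ∀ (t : ℕ) (a : Fin 6), occN fr mk t a.val a.val = false := by
    intro t a
    unfold occN
    rw [frefl a]; rfl
  induction n with
  | zero =>
    intro h h' hc h1 h2 hl hl' huq
    have he : h = h' := by
      funext k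
      by_contra hk
      have : k ∈ (Finset.univ.filter fun k => h k ≠ h' k) := by
        rw [Finset.mem_filter]; exact ⟨Finset.mem_univ _, hk⟩
      rw [Finset.card_eq_zero.mp hc] at this
      exact absurd this (Finset.notMem_empty _)
    subst he
    refine ⟨0, Nat.two_pow_pos m, ?_, lt_of_chkP hP hl, lt_of_chkP hP hl, ?_⟩
    · intro t h3
      simp at h3
    · intro n0 _ _
      rw [Nat.or_zero, Nat.and_self]
  | succ n ih =>
    intro h h' hc h1 h2 hl hl' huq
    by_cases hex : ∃ k : Fin 6, fwdN (h (k + 5)).val (h' k).val (h (k + 1)).val (h (k + 3)).val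
        (h k).val = true
    · obtain ⟨k, hk⟩ := hex
      have hne : h k ≠ h' k := by
        intro he
        unfold fwdN at hk
        rw [he] at hk
        simp at hk
      set g := Function.update h k (h' k) with hg
      have hgk : g k = h' k := Function.update_self ..
      have hgo : ∀ j, j ≠ k → g j = h j := fun j hj => Function.update_of_ne hj ..
      have hgl : Leg5 g := fwd_leg hl k (h' k) hk
      have hgX : ∀ j : Fin 6, u + (j.val : ℝ) ∈ X (g j) := by
        intro j
        by_cases hj : j = k
        · rw [hj, hgk]; exact h2 k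
        · rw [hgo j hj]; exact h1 j
      have hcard : (Finset.univ.filter fun j => g j ≠ h' j).card = n := by
        have : (Finset.univ.filter fun j => g j ≠ h' j) =
            (Finset.univ.filter fun j => h j ≠ h' j).erase k := by
          ext j
          rw [Finset.mem_erase, Finset.mem_filter, Finset.mem_filter]
          constructor
          · rintro ⟨-, h3⟩
            have hjk : j ≠ k := by
              rintro rfl; exact h3 hgk
            rw [hgo j hjk] at h3
            exact ⟨hjk, Finset.mem_univ _, h3⟩
          · rintro ⟨hjk, -, h3⟩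
            rw [hgo j hjk]
            exact ⟨Finset.mem_univ _, h3⟩
        rw [this, Finset.card_erase_of_mem, hc, Nat.add_sub_cancel]
        rw [Finset.mem_filter]; exact ⟨Finset.mem_univ _, hne⟩
      have ocg : ∀ (t : ℕ) (j : Fin 6), occN fr mk t (g j).val (h' j).val = true →
          j ≠ k ∧ occN fr mk t (h j).val (h' j).val = true := by
        intro t j h3
        have hjk : j ≠ k := by
          rintro rfl
          rw [hgk, hoself] at h3
          exact absurd h3 Bool.false_ne_true
        rw [hgo j hjk] at h3
        exact ⟨hjk, h3⟩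
      have ocs : ∀ (t : ℕ) (j : Fin 6), occN fr mk t (h j).val (g j).val = true →
          j = k ∧ occN fr mk t (h k).val (h' k).val = true := by
        intro t j h3
        by_cases hjk : j = k
        · subst hjk; rw [hgk] at h3; exact ⟨rfl, h3⟩
        · rw [hgo j hjk, hoself] at h3
          exact absurd h3 Bool.false_ne_true
      have r2 := ih g h' hcard hgX h2 hgl hl' (fun t j l b1 b2 hj hl2 =>
        huq t j l b1 b2 (ocg t.val j hj).2 (ocg t.val l hl2).2)
      have r1 : RelB N m R (tysB B u (fun a b : Fin 6 => fr a.val b.val = true)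
          (fun (a b : Fin 6) (t : Fin m) => mk a.val b.val t.val = true) h g) (cmp5 T h) (cmp5 T g) := by
        have hv : vB m fr mk (h (k + 5)).val (h (k + 1)).val (h k).val (h' k).val = true := by
          unfold vB
          rw [Bool.or_eq_true]
          by_cases hkB : u + (k.val : ℝ) ∈ B
          · exact Or.inr (P.pq h1 hkB)
          · exact Or.inl (hval _ hkB _ _ (h1 k) (h2 k))
        have hleaf := Y.chkS_spec hS hl k (h' k) hk hv
        refine ⟨onB m fr mk (h (k + 5)).val (h (k + 1)).val (h k).val (h' k).val, ?_, ?_,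
          lt_of_chkP hP hl, lt_of_chkP hP hgl, fun n0 hn0 hz => leafN_spec hleaf hn0 hz⟩
        · unfold onB
          cases Y.pq (h (k + 5)).val (h (k + 1)).val
          · exact maskN_lt _ m
          · exact Nat.two_pow_pos m
        · intro t ht
          unfold onB at ht
          by_cases hkB : u + (k.val : ℝ) ∈ B
          · rw [P.pq h1 hkB] at ht
            simp at ht
          · rw [mem_tysB5]
            refine ⟨k, hkB, ?_⟩
            rw [hgk]
            revert ht
            cases Y.pq (h (k + 5)).val (h (k + 1)).val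
            · intro ht
              rw [cond_false] at ht
              unfold onN at ht
              rw [maskN_testBit] at ht
              by_contra hcon
              rw [Bool.not_eq_true] at hcon
              rw [hcon] at ht
              exact ht.2 rfl
            · intro ht
              rw [cond_true, Nat.zero_testBit] at ht
              exact absurd ht Bool.false_ne_true
      have hdis : Disjoint (tysB B u (fun a b : Fin 6 => fr a.val b.val = true)
          (fun (a b : Fin 6) (t : Fin m) => mk a.val b.val t.val = true) h g)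
          (tysB B u (fun a b : Fin 6 => fr a.val b.val = true)
          (fun (a b : Fin 6) (t : Fin m) => mk a.val b.val t.val = true) g h') := by
        rw [Finset.disjoint_left]
        intro t h3 h4
        rw [mem_tysB5] at h3 h4
        obtain ⟨j, bj, hj⟩ := h3
        obtain ⟨l, bl, hl2⟩ := h4
        have a1 := ocs _ _ hj
        have a2 := ocg _ _ hl2
        have bk : u + (k.val : ℝ) ∉ B := by rw [← a1.1]; exact bj
        exact a2.1 (huq t _ _ bl bk a2.2 a1.2)
      have hun : tysB B u (fun a b : Fin 6 => fr a.val b.val = true)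
          (fun (a b : Fin 6) (t : Fin m) => mk a.val b.val t.val = true) h h' =
          tysB B u (fun a b : Fin 6 => fr a.val b.val = true)
          (fun (a b : Fin 6) (t : Fin m) => mk a.val b.val t.val = true) h g ∪
          tysB B u (fun a b : Fin 6 => fr a.val b.val = true)
          (fun (a b : Fin 6) (t : Fin m) => mk a.val b.val t.val = true) g h' := by
        ext t
        rw [Finset.mem_union, mem_tysB5, mem_tysB5, mem_tysB5]
        constructor
        · rintro ⟨j, bj, hj⟩
          by_cases hjk : j = k
          · left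
            subst hjk
            exact ⟨j, bj, by rw [hgk]; exact hj⟩
          · right; refine ⟨j, bj, ?_⟩; rw [hgo j hjk]; exact hj
        · rintro (⟨j, bj, hj⟩ | ⟨j, bj, hj⟩)
          · have a1 := ocs _ _ hj
            exact ⟨k, by rw [← a1.1]; exact bj, a1.2⟩
          · exact ⟨j, bj, (ocg _ _ hj).2⟩
      rw [hun]
      exact r1.comp r2 hdis
    · push Not at hex
      have hf : ∀ k : Fin 6, fwdN (h (k + 5)).val (h' k).val (h (k + 1)).val (h (k + 3)).val
          (h k).val = false := fun k => by simpa using hex k
      have hv : ∀ k : Fin 6, okB m fr mk (h (k + 5)).val (h (k + 1)).val (h' (k + 5)).val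
          (h' (k + 1)).val (h k).val (h' k).val = true := by
        intro k
        unfold okB
        rw [Bool.or_eq_true]
        by_cases hkB : u + (k.val : ℝ) ∈ B
        · exact Or.inr (P.flg h1 h2 hkB)
        · exact Or.inl (hval _ hkB _ _ (h1 k) (h2 k))
      have key := Y.chkP_spec hP hl hl' hv hf (P.sw1 h1 h2 hl hl')
      have hfz := P.frz h1 h2
      rw [hfz, Bool.or_false] at key
      have hoc : ∀ (t : ℕ) (k : Fin 6), ocH fr mk h h' t k = true → u + (k.val : ℝ) ∉ B ∧
          occN fr mk t (h k).val (h' k).val = true := by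
        intro t k h3
        unfold ocH ocB at h3
        rw [Bool.and_eq_true, Bool.not_eq_true'] at h3
        refine ⟨fun hkB => ?_, h3.2⟩
        rw [P.flg h1 h2 hkB] at h3
        exact absurd h3.1 (by decide)
      have hmult : ((List.range m).any fun t => Nat.ble 2 (cntB fr mk (h 0).val (h 1).val (h 2).val
          (h 3).val (h 4).val (h 5).val (h' 0).val (h' 1).val (h' 2).val (h' 3).val (h' 4).val
          (h' 5).val t)) = false := by
        rw [Bool.eq_false_iff]
        intro h3
        rw [List.any_eq_true] at h3
        obtain ⟨t, ht, h4⟩ := h3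
        have := cntB_le (fr := fr) (mk := mk) (h := h) (h' := h') t (fun k l hk hl2 =>
          huq ⟨t, List.mem_range.mp ht⟩ k l (hoc t k hk).1 (hoc t l hl2).1 (hoc t k hk).2
            (hoc t l hl2).2)
        have h5 := Nat.ble_eq.mp h4
        omega
      rw [hmult, Bool.or_false] at key
      refine ⟨_, maskN_lt _ m, ?_, lt_of_chkP hP hl, lt_of_chkP hP hl',
        fun n0 hn0 hz => leafN_spec key hn0 hz⟩
      intro t ht
      rw [maskN_testBit] at ht
      rw [mem_tysB5]
      obtain ⟨k, hk⟩ := cntB_pos ht.2
      exact ⟨k, (hoc _ _ hk).1, (hoc _ _ hk).2⟩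

/-- the generic word -/
theorem PentB.gw (P : PentB X B) (hP : Y.chkP N m T R fr mk = true) (hS : Y.chkS N m T R fr mk = true)
    (hD : chkD N R = true)
    (D : Pat m fr mk abs on) (habs : ∀ q ∈ abs, PtsB X B q = ∅)
    (hon : ∀ t u v, u ∈ PtsB X B (on t) → v ∈ PtsB X B (on t) → ∃ n : ℤ, v = u + 6 * n) :
    GWB X B Leg5 (fun a b => fr a.val b.val = true)
      (fun a b (t : Fin m) => mk a.val b.val t.val = true) (cmp5 T) (RelB N m R) := by
  have hmark : ∀ u, u ∉ B → ∀ (a b : Fin 6), u ∈ X a → u ∈ X b → ¬ fr a.val b.val = true →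
      ∃ t : Fin m, mk a.val b.val t.val = true := by
    intro u hu a b ha hb hf
    rcases D.all a b (P.pair u hu a b ha hb) with h | h | ⟨q, hq, h⟩
    · exact absurd h hf
    · exact h
    · have : u ∈ PtsB X B q := ⟨hu, a, b, h, ha, hb⟩
      rw [habs q hq] at this
      exact absurd this (notMem_empty u)
  have hval : ∀ u, u ∉ B → ∀ (a b : Fin 6), u ∈ X a → u ∈ X b →
      valN m fr mk a.val b.val = true := by
    intro u hu a b ha hb
    unfold valN
    rw [Bool.or_eq_true]
    by_cases hf : fr a.val b.val = true
    · exact Or.inl hf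
    · obtain ⟨t, ht⟩ := hmark u hu a b ha hb hf
      right
      rw [List.any_eq_true]
      exact ⟨t.val, List.mem_range.mpr t.isLt, ht⟩
  refine
    { closed := P.closed
      cover := P.cover
      per := P.per
      gen := P.gen
      bcl := P.bcl
      bper := P.bper
      two := P.two
      leg := ?_
      frefl := D.frefl
      fsymm := fun a b h => by rw [D.fsymm b a]; exact h
      tsymm := fun a b t h => by
        show mk b.val a.val t.val = true
        rw [D.msymm b a t]; exact h
      uniq := ?_
      rel0 := fun c c' h => h.zero hD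
      relc := fun S S' a b c h h' hd => h.comp h' hd
      relp := ?_ }
  · intro u hu h hh
    have huniq : ∀ k m', u + (k.val : ℝ) ∈ X m' → m' = h k := by
      intro k m' hm'
      obtain ⟨l, hl⟩ := hu k
      rw [hl m' hm', hl (h k) (hh k)]
    constructor
    · intro k
      refine P.sixty (u + (k.val : ℝ)) (h k) (h (k + 1)) (huniq k) ?_
      intro m' hm'
      exact huniq (k + 1) m' ((add1_of (P.per m') u k).1 hm')
    · intro k
      refine P.anti (u + (k.val : ℝ)) (h k) (h (k + 3)) (huniq k) ?_
      intro m' hm'
      exact huniq (k + 3) m' ((add3_of (P.per m') u k).1 hm')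
  · rintro t u v ⟨bu, a, b, ha, hb, -, ht⟩ ⟨bv, c, d, hc, hd, -, ht'⟩
    exact hon t u v ⟨bu, a, b, D.mkty a b t ht, ha, hb⟩ ⟨bv, c, d, D.mkty c d t ht', hc, hd⟩
  · intro u h h' h1 h2 hl hl' huq
    refine P.rel hP hS D.frefl hval u _ h h' rfl h1 h2 hl hl' ?_
    intro t k l bk bl hk hl2
    unfold occN at hk hl2
    rw [Bool.and_eq_true, Bool.not_eq_true'] at hk hl2
    exact huq k l t bk bl (by rw [hk.1]; exact Bool.false_ne_true) hk.2
      (by rw [hl2.1]; exact Bool.false_ne_true) hl2.2

/-- a pattern kills the word -/
theorem PentB.false_of (P : PentB X B) (hP : Y.chkP N m T R fr mk = true)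
    (hS : Y.chkS N m T R fr mk = true)
    (hD : chkD N R = true) (hF : chkF N m T R = true)
    (D : Pat m fr mk abs on) (habs : ∀ q ∈ abs, PtsB X B q = ∅)
    (hon : ∀ t u v, u ∈ PtsB X B (on t) → v ∈ PtsB X B (on t) → ∃ n : ℤ, v = u + 6 * n) : False := by
  have w := P.gw hP hS hD D habs hon
  obtain ⟨h, hl, h0 | ⟨S, hS'⟩⟩ := w.exists_rel
  · refine noRelB hP hD hF hl ∅ ⟨0, Nat.two_pow_pos m, by simp, lt_of_chkP hP hl, ?_, ?_⟩
    · rw [← h0]; exact lt_of_chkP hP hl
    · intro n0 _ _
      rw [← h0, Nat.or_zero, Nat.and_self]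
  · exact noRelB hP hD hF hl S hS'

end

end Vale.Agent.P032.H306.Y
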