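import Vale.Agent.P032.H306.Y.RelP
import Vale.Agent.P032.Words5.PentSym

/-!
# The dihedral symmetry of the words with exceptional times, and the list of patterns
-/

namespace Vale.Agent.P032.H306.Y

open Vale.Agent.P032.Words Vale.Agent.P032.W5

open Set Filter Topology

variable {B : Set ℝ}

/-- change of letters -/
theorem PentB.change {X : Fin 6 → Set ℝ} (P : PentB X B) (f g : Fin 6 → Fin 6)
    (hfg : ∀ a, f (g a) = a) (hgf : ∀ a, g (f a) = a) (hg5 : g 5 = 5)
    (h1 : ∀ a b, prL (f a).val (f b).val = true → prL a.val b.val = true)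
    (h2 : ∀ a b, adjN (f a).val (f b).val = adjN a.val b.val)
    (h3 : ∀ a b, antN (f a).val (f b).val = antN a.val b.val)
    (hn : ∀ u, (∀ k : Fin 6, u + (k.val : ℝ) ∉ B) → ∀ (x : Fin 5) (i : Fin 4),
      ¬ ∀ k : Fin 6, u + (k.val : ℝ) ∈ X (f (FZ i x k).1) ∧ u + (k.val : ℝ) ∈ X (f (FZ i x k).2)) :
    PentB (fun l => X (f l)) B where
  closed l := P.closed _
  cover u := by
    obtain ⟨l, hl⟩ := P.cover u
    exact ⟨g l, by show u ∈ X (f (g l)); rw [hfg]; exact hl⟩
  per l u := P.per _ u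
  gen := by
    refine P.gen.mono ?_
    rintro u ⟨l, hl⟩
    refine ⟨g l, fun m hm => ?_⟩
    have := hl (f m) hm
    rw [← this, hgf]
  bcl := P.bcl
  bper := P.bper
  bnb u hu := by
    obtain ⟨m, hm, h4, h5⟩ := P.bnb u hu
    refine ⟨g m, ?_, fun l hl => ?_, fun l hl => ?_⟩
    · intro h6
      apply hm
      have h7 := hfg m
      rw [h6, ← hg5, hfg] at h7
      exact h7.symm
    · rw [← h4 _ hl, hgf]
    · rw [← h5 _ hl, hgf]
  two u hu a b c ha hb hc hab := by
    have hab' : f a ≠ f b := fun h => hab (by rw [← hgf a, h, hgf])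
    rcases P.two u hu (f a) (f b) (f c) ha hb hc hab' with h | h
    · left; rw [← hgf c, h, hgf]
    · right; rw [← hgf c, h, hgf]
  pair u hu a b ha hb := h1 a b (P.pair u hu _ _ ha hb)
  sixty u a b ha hb := by
    rw [← h2]
    refine P.sixty u _ _ (fun m hm => ?_) fun m hm => ?_
    · have : u ∈ X (f (g m)) := by rw [hfg]; exact hm
      rw [← ha (g m) this, hfg]
    · have : u + 1 ∈ X (f (g m)) := by rw [hfg]; exact hm
      rw [← hb (g m) this, hfg]
  anti u a b ha hb := by
    rw [← h3]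
    refine P.anti u _ _ (fun m hm => ?_) fun m hm => ?_
    · have : u ∈ X (f (g m)) := by rw [hfg]; exact hm
      rw [← ha (g m) this, hfg]
    · have : u + 3 ∈ X (f (g m)) := by rw [hfg]; exact hm
      rw [← hb (g m) this, hfg]
  swap1 u hu hu1 a a' b b' ha ha' hb hb' h h' := by
    have := P.swap1 u hu hu1 _ _ _ _ ha ha' hb hb' (by rw [h2]; exact h) (by rw [h2]; exact h')
    unfold W5.sw1 at this ⊢
    rw [h2, h2] at this
    exact this
  nofr := hn

theorem PentB.ro {X : Fin 6 → Set ℝ} (P : PentB X B) : PentB (fun l => X (lro l)) B := by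
  refine P.change _ lro' lro_lro' lro'_lro (by decide) (by decide) (by decide) (by decide) ?_
  intro u hu x i hk
  refine P.nofr u hu (x + 1) i fun k => ?_
  rw [← (FZ_ro i x k).1, ← (FZ_ro i x k).2]
  exact hk k

theorem PentB.re {X : Fin 6 → Set ℝ} (P : PentB X B) : PentB (fun l => X (lre l)) B := by
  refine P.change _ lre lre_lre lre_lre (by decide) (by decide) (by decide) (by decide) ?_
  intro u hu x i hk
  obtain ⟨i', x', r, hr⟩ := FZ_re i x
  refine P.nofr (u + (r.val : ℝ)) (fun k hB => ?_) x' i' fun k => ?_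
  · exact hu _ ((addr_of P.bper u r k).1 hB)
  rw [addr_of (P.per _), addr_of (P.per _)]
  have h := hk (k + r)
  rcases hr k with h1 | h1
  · rw [← h1.1, ← h1.2]; exact h
  · rw [← h1.1, ← h1.2]; exact h.symm

/-- the status of the types `t_j, c_j` off `B`: `0`: no `t_j`, `1`: no `c_j`, `2`: both at most once -/
def OkB (X : Fin 6 → Set ℝ) (B : Set ℝ) (j : Fin 5) (s : Fin 3) : Prop :=
  (s = 0 ∧ PtsB X B j.val = ∅) ∨ (s = 1 ∧ PtsB X B (5 + j.val) = ∅) ∨
    (s = 2 ∧ (∀ u v, u ∈ PtsB X B j.val → v ∈ PtsB X B j.val → ∃ n : ℤ, v = u + 6 * n) ∧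
      ∀ u v, u ∈ PtsB X B (5 + j.val) → v ∈ PtsB X B (5 + j.val) → ∃ n : ℤ, v = u + 6 * n)

/-- the status `s` is impossible -/
def DeadB (s : Fin 5 → Fin 3) : Prop :=
  ∀ (X : Fin 6 → Set ℝ) (B : Set ℝ), PentB X B → (∀ j, OkB X B j (s j)) → False

theorem PtsB_ro (X : Fin 6 → Set ℝ) (j : Fin 5) :
    PtsB (fun l => X (lro l)) B j.val = PtsB X B (j + 1).val := by
  have h := Pts_ro X j
  ext u
  have h' := Set.ext_iff.1 h u
  exact and_congr_right fun _ => h'

theorem PtsB_ro5 (X : Fin 6 → Set ℝ) (j : Fin 5) :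
    PtsB (fun l => X (lro l)) B (5 + j.val) = PtsB X B (5 + (j + 1).val) := by
  have h := Pts_ro5 X j
  ext u
  have h' := Set.ext_iff.1 h u
  exact and_congr_right fun _ => h'

theorem PtsB_re (X : Fin 6 → Set ℝ) (j : Fin 5) :
    PtsB (fun l => X (lre l)) B j.val = PtsB X B (-j).val := by
  have h := Pts_re X j
  ext u
  have h' := Set.ext_iff.1 h u
  exact and_congr_right fun _ => h'

theorem PtsB_re5 (X : Fin 6 → Set ℝ) (j : Fin 5) :
    PtsB (fun l => X (lre l)) B (5 + j.val) = PtsB X B (5 + (-j).val) := by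
  have h := Pts_re5 X j
  ext u
  have h' := Set.ext_iff.1 h u
  exact and_congr_right fun _ => h'

theorem DeadB.ro {s : Fin 5 → Fin 3} (h : DeadB fun j => s (j + 1)) : DeadB s := by
  intro X B P H
  refine h _ B P.ro fun j => ?_
  have := H (j + 1)
  unfold OkB at this ⊢
  rw [PtsB_ro, PtsB_ro5]
  exact this

theorem DeadB.re {s : Fin 5 → Fin 3} (h : DeadB fun j => s (-j)) : DeadB s := by
  intro X B P H
  refine h _ B P.re fun j => ?_
  have := H (-j)
  unfold OkB at this ⊢
  rw [PtsB_re, PtsB_re5]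
  exact this

/-- comparison of a status with a pattern (`0`: `C`, `1`: `T`, `2`: `P`, `3`: `B`, `4`: `F`, `5`: `Q`) -/
def leQ (s : Fin 3) (p : Fin 6) : Bool :=
  p == 4 || (s == 0 && (p == 0 || p == 5)) || (s == 1 && (p == 1 || p == 2)) ||
    (s == 2 && (p == 2 || p == 3 || p == 5))

theorem DeadB.of {N m T R : ℕ} {fr : ℕ → ℕ → Bool} {mk : ℕ → ℕ → ℕ → Bool} {abs : List ℕ}
    {on : Fin m → ℕ} (hP : Y.chkP N m T R fr mk = true) (hS : Y.chkS N m T R fr mk = true)
    (hD : chkD N R = true) (hF : chkF N m T R = true)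
    (D : Pat m fr mk abs on) (p : Fin 5 → Fin 6)
    (hA : ∀ q ∈ abs, (∃ j : Fin 5, q = j.val ∧ p j = 0) ∨ ∃ j : Fin 5, q = 5 + j.val ∧ p j = 1)
    (hO : ∀ t : Fin m, (∃ j : Fin 5, on t = j.val ∧ (p j = 3 ∨ p j = 5)) ∨
      ∃ j : Fin 5, on t = 5 + j.val ∧ (p j = 2 ∨ p j = 3))
    {s : Fin 5 → Fin 3} (hs : ∀ j, leQ (s j) (p j) = true) : DeadB s := by
  intro X B P H
  have l0 : ∀ s : Fin 3, leQ s 0 = true → s = 0 := by decide
  have l1 : ∀ s : Fin 3, leQ s 1 = true → s = 1 := by decide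
  have l2 : ∀ s : Fin 3, leQ s 2 = true → s = 1 ∨ s = 2 := by decide
  have l3 : ∀ s : Fin 3, leQ s 3 = true → s = 2 := by decide
  have l5 : ∀ s : Fin 3, leQ s 5 = true → s = 0 ∨ s = 2 := by decide
  have o0 : ∀ j, s j = 0 → PtsB X B j.val = ∅ := by
    intro j hj
    rcases H j with h | h | h
    · exact h.2
    · rw [hj] at h; exact absurd h.1 (by decide)
    · rw [hj] at h; exact absurd h.1 (by decide)
  have o1 : ∀ j, s j = 1 → PtsB X B (5 + j.val) = ∅ := by
    intro j hj
    rcases H j with h | h | h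
    · rw [hj] at h; exact absurd h.1 (by decide)
    · exact h.2
    · rw [hj] at h; exact absurd h.1 (by decide)
  have o2 : ∀ j, s j = 2 →
      (∀ u v, u ∈ PtsB X B j.val → v ∈ PtsB X B j.val → ∃ n : ℤ, v = u + 6 * n) ∧
      ∀ u v, u ∈ PtsB X B (5 + j.val) → v ∈ PtsB X B (5 + j.val) → ∃ n : ℤ, v = u + 6 * n := by
    intro j hj
    rcases H j with h | h | h
    · rw [hj] at h; exact absurd h.1 (by decide)
    · rw [hj] at h; exact absurd h.1 (by decide)
    · exact h.2
  refine P.false_of hP hS hD hF D ?_ ?_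
  · intro q hq
    rcases hA q hq with ⟨j, rfl, hj⟩ | ⟨j, rfl, hj⟩
    · have := hs j
      rw [hj] at this
      exact o0 j (l0 _ this)
    · have := hs j
      rw [hj] at this
      exact o1 j (l1 _ this)
  · intro t u v hu hv
    rcases hO t with ⟨j, hq, hj⟩ | ⟨j, hq, hj⟩
    · rw [hq] at hu hv
      have := hs j
      rcases hj with hj | hj
      · rw [hj] at this
        exact (o2 j (l3 _ this)).1 u v hu hv
      · rw [hj] at this
        rcases l5 _ this with h | h
        · rw [o0 j h] at hu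
          exact absurd hu (notMem_empty u)
        · exact (o2 j h).1 u v hu hv
    · rw [hq] at hu hv
      have := hs j
      rcases hj with hj | hj
      · rw [hj] at this
        rcases l2 _ this with h | h
        · rw [o1 j h] at hu
          exact absurd hu (notMem_empty u)
        · exact (o2 j h).2 u v hu hv
      · rw [hj] at this
        exact (o2 j (l3 _ this)).2 u v hu hv

end Vale.Agent.P032.H306.Y
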